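import Vale.Agent.P179.R2.H46.Core3

/-!
# The core lemma in the language of Brauer pairs
-/

namespace P179H46

open Subgroup Finset P179H524 P179C P179A P179P P179Y P179H364W Polynomial P179H234

open scoped Classical

universe u

set_option linter.unusedSectionVars false

section Conv

variable {k : Type u} [Field k] {G : Type} [Group G] [Fintype G] {D : Subgroup G}

theorem cn_mkF (t : G) (a : G → k) : cn t (mkF a) = mkF (cj t a) := by
  ext x
  rw [coeff_cn, coeff_mkF, coeff_mkF]
  rfl

theorem fxd_mkF {H : Subgroup G} {a : G → k} (ha : InvOn H a) : Fxd H (mkF a) := by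
  intro d hd
  rw [cn_eq_iff]
  intro x
  rw [coeff_mkF, coeff_mkF]
  exact ha.1 d hd x

theorem sup_mkF {H : Subgroup G} {a : G → k} (ha : ∀ x, x ∉ H → a x = 0) : Sup H (mkF a) := by
  intro x hx
  rw [coeff_mkF]
  exact ha x hx

theorem mkF_zero : mkF (0 : G → k) = 0 := by
  ext x
  rw [coeff_mkF]
  rfl

end Conv

section Core

variable {p : ℕ} [hp : Fact p.Prime] {k : Type u} [Field k] [IsAlgClosed k] [CharP k p] {G : Type}
  [Group G] [Fintype G] {D : Subgroup G} {l : (G → k) → k}

/-- the data -/
theorem exists_C3D (hl : BP p D l) (hD : IsPGroup p D) (hab : D ≤ centralizer (D : Set G))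
    (hT : ¬ p ∣ (centralizer (D : Set G)).relIndex (stabT D l)) :
    ∃ bD y0 : MonoidAlgebra k G,
      C3D D l bD y0 (fun v => mkF (P179H12.eH (centralizer {v}) l)) := by
  obtain ⟨y0, hy0, hy⟩ := P179H12.exists_y0 hl hD hab hT
  have hm : P179H12.MulH (centralizer (D : Set G)) l := P179H12.BP.mulH hl hD hab le_rfl
  have hinv := P179H12.invOn_eH hm
  have hmv : ∀ v ∈ D, P179H12.MulH (centralizer {v}) l := fun v hv =>
    P179H12.BP.mulH hl hD hab (cent_le_of_mem hv)
  refine ⟨mkF (P179H12.eH (centralizer (D : Set G)) l), mkF y0, ?_⟩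
  constructor
  · exact fxd_mkF hinv
  · exact sup_mkF hinv.2
  · rw [← mkF_conv, P179H12.eH_idem hm]
  · simp only [coeff_mkF]
    exact P179H12.l_eH hm
  · intro t ht
    rw [cn_mkF, P179H12.cj_eD hl hD hab ht]
  · intro t ht htT
    rw [cn_mkF, ← mkF_conv, P179H12.conv_cj_eD hl hD hab ht htT, mkF_zero]
  · exact sup_mkF hy0
  · ext x
    rw [coeff_mkF, ← hy x, MonoidAlgebra.coeff_sum, Finsupp.finsetSum_apply]
    refine Finset.sum_congr rfl fun c _ => ?_
    split_ifs
    · rw [coeff_cn, coeff_mkF]
    · rfl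
  · intro v hv
    exact fxd_mkF (P179H12.invOn_eH (hmv v hv))
  · intro v hv
    exact sup_mkF (P179H12.invOn_eH (hmv v hv)).2
  · intro v hv
    change mkF _ * mkF _ = mkF _
    rw [← mkF_conv, P179H12.eH_idem (hmv v hv)]
  · intro v hv
    have hDv : D ≤ centralizer {v} := le_cent_of_mem hv hab
    have h1 : Fxd D (mkF (P179H12.eH (centralizer {v}) l)) :=
      (fxd_mkF (P179H12.invOn_eH (hmv v hv))).mono hDv
    have h2 : Sup (centralizer (D : Set G)) (mkF (P179H12.eH (centralizer (D : Set G)) l)) :=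
      sup_mkF hinv.2
    have h3 := brk_mul hD h1 h2.fxd
    rw [brk_of_sup h2, ← mkF_conv] at h3
    change brk D (mkF (P179H12.eH (centralizer {v}) l)) * _ = _
    rw [← h3]
    ext x
    rw [coeff_brk, coeff_mkF, coeff_mkF]
    split_ifs with hx
    · exact P179H12.conv_ev_bD hl hD hab hv hx
    · exact (hinv.2 x hx).symm
  · intro v hv t ht
    rcases P179H12.fus1 hl hD hab hT hv ht with h | h
    · exact Or.inl h
    · right
      change mkF _ * cn t (mkF _) = 0
      rw [cn_mkF, ← mkF_conv, h, mkF_zero]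

include hp in
/-- **the core lemma** -/
theorem core (hl : BP p D l) (hD : IsPGroup p D) (hab : D ≤ centralizer (D : Set G))
    (hT : ¬ p ∣ (centralizer (D : Set G)).relIndex (stabT D l)) {B : MonoidAlgebra k G}
    (hB : IsBlock B) (hlB : ∀ z : G → k, IsCF z → l z = centralChar B (mkF z)) (del : G → k)
    (hdel : ∀ u ∈ D, ∀ v ∈ D, del (u * v) = del u + del v)
    (hdT : ∀ t ∈ stabT D l, ∀ u ∈ D, del (t * u * t⁻¹) = del u) {x : G} (hx : x ∈ D)
    (hxT : ∀ t ∈ stabT D l, t * x * t⁻¹ = x) (hdx : del x ≠ 0) {w : G → k} (hw : IsCF w)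
    (hw0 : ∀ u ∈ D, del u ≠ 0 → ∀ g, g * u = u * g →
      conv w (P179H12.eH (centralizer {u}) l) g = 0) :
    conv (fun g => B.coeff g) w = 0 := by
  obtain ⟨bD, y0, h⟩ := exists_C3D hl hD hab hT
  obtain ⟨i, hiD, hii, hib, hiv⟩ := h.exists_i hD hab
  have hyD : Fxd D y0 := h.ysup.fxd
  have hcD : Fxd D (i * y0) := hiD.mul hyD
  have hxs : ∀ {x : G}, x ∈ D → Sup (centralizer (D : Set G)) (sg x : MonoidAlgebra k G) := by
    intro x hx y hy
    rw [sg, MonoidAlgebra.coeff_single, Finsupp.single_apply, if_neg]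
    rintro rfl
    exact hy (hab hx)
  have hxcD : Fxd D (sg x * (i * y0)) := (hxs hx).fxd.mul hcD
  set κ : k := (((centralizer (D : Set G)).relIndex (stabT D l) : ℕ) : k) with hκ
  have hκ0 : κ ≠ 0 := by
    rw [hκ, Ne, CharP.cast_eq_zero_iff k p]
    exact hT
  have hcenter : ∀ a : MonoidAlgebra k G, Fxd D a → ∀ b, b * tr D a = tr D a * b := fun a ha =>
    Subalgebra.mem_center_iff.1 (mem_center_of_cn fun g => cn_tr ha g)
  have hfxc : ∀ a : MonoidAlgebra k G, (∀ b, b * a = a * b) → ∀ P : Subgroup G, Fxd P a :=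
    fun a ha P d _ => cn_of_center ha d
  have hWc : mkF w ∈ Subalgebra.center k (MonoidAlgebra k G) := mkF_mem hw
  have hWc' : ∀ b, b * mkF w = mkF w * b := Subalgebra.mem_center_iff.1 hWc
  -- the element `Y`
  obtain ⟨Y, hY, hwY, hYi⟩ := core_abs' hD hab del hdel (i * y0) i hcD hiD hii
    (fun t u hu hut hne g hg => by
      refine orth_i hD hiD hiv h.ysup hu hut ?_ hg
      rcases h.orth u hu t hut with ⟨θ, hθ, he⟩ | h1
      · exfalso
        apply hne
        rw [he]
        have h2 := hdT θ⁻¹ (inv_mem hθ) u hu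
        rwa [inv_inv] at h2
      · exact h1)
    (w := mkF w) hWc (fun u hu hu0 g hg => by
      have hzD : zpowers u ≤ D := by rwa [zpowers_le]
      have hP : IsPGroup p (zpowers u) := hD.to_le hzD
      have hgz : g ∈ centralizer ((zpowers u : Subgroup G) : Set G) := by
        rw [cz_zp, mem_centralizer_singleton_iff]
        exact hg
      have hwf : Fxd (zpowers u) (mkF w) := hfxc _ hWc' _
      have heu : Sup (centralizer ((zpowers u : Subgroup G) : Set G))
          (mkF (P179H12.eH (centralizer {u}) l)) := by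
        rw [cz_zp']
        exact h.esup u hu
      have h1 : mkF w * mkF (P179H12.eH (centralizer {u}) l) =
          mkF (conv w (P179H12.eH (centralizer {u}) l)) := (mkF_conv _ _).symm
      have h2 : brk (zpowers u) (mkF w) * mkF (P179H12.eH (centralizer {u}) l) = 0 := by
        rw [← brk_of_sup heu, ← brk_mul hP hwf heu.fxd, h1]
        ext y
        rw [coeff_brk, coeff_mkF]
        split_ifs with hy
        · refine hw0 u hu hu0 y ?_
          rw [cz_zp, mem_centralizer_singleton_iff] at hy
          exact hy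
        · rfl
      have h3 : (i * y0 * mkF w).coeff g = (brk (zpowers u) (i * y0 * mkF w)).coeff g := by
        rw [coeff_brk, if_pos hgz]
      have h4 : i * y0 * mkF w = i * (mkF w * y0) := by rw [mul_assoc, hWc']
      rw [h3, h4, brk_mul hP (hiD.mono hzD) (hwf.mul (hyD.mono hzD)),
        brk_mul hP hwf (hyD.mono hzD), ← (hiv u hu).2]
      have hcomm : mkF (P179H12.eH (centralizer {u}) l) * brk (zpowers u) (mkF w) =
          brk (zpowers u) (mkF w) * mkF (P179H12.eH (centralizer {u}) l) := by
        refine comm_of_sup (h.efx u hu) ?_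
        have := brk_sup (zpowers u) (mkF w)
        rwa [cz_zp'] at this
      have h5 : brk (zpowers u) i * mkF (P179H12.eH (centralizer {u}) l) *
          (brk (zpowers u) (mkF w) * brk (zpowers u) y0) =
          brk (zpowers u) i * (mkF (P179H12.eH (centralizer {u}) l) *
            brk (zpowers u) (mkF w)) * brk (zpowers u) y0 := by
        simp only [mul_assoc]
      rw [h5, hcomm, h2, mul_zero, zero_mul]
      rfl) hx (z := tr D (sg x * (i * y0)))
    (Subalgebra.mem_center_iff.2 (hcenter _ hxcD)) (kap := κ) (fun y hy => by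
      have h1 : (i * tr D (sg x * (i * y0))).coeff y =
          (brk D (i * tr D (sg x * (i * y0)))).coeff y := by
        rw [coeff_brk, if_pos hy]
      have h2 : (sg x * i).coeff y = (brk D (sg x * i)).coeff y := by
        rw [coeff_brk, if_pos hy]
      rw [h1, h2, brk_mul hD hiD (hfxc _ (hcenter _ hxcD) D), hib,
        h.bD_tr hD hab hiD hib hx hxT, brk_mul hD (hxs hx).fxd hiD, hib, brk_of_sup (hxs hx)]
      simp [hκ])
  have hYc : ∀ b, b * Y = Y * b := Subalgebra.mem_center_iff.1 hY
  have hYD : Fxd D Y := hfxc _ hYc D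
  have hYcf : IsCF (fun g => Y.coeff g) := (P179C.mem_center_iff _).1 hY
  -- the equation on the centraliser
  have hone : tr D (i * y0) = tr D (sg 1 * (i * y0)) := by rw [sg_one, one_mul]
  have htr1 : bD * brk D (tr D (i * y0)) = κ • bD := by
    have h1 := h.bD_tr hD hab hiD hib (one_mem D) (fun t _ => by group)
    rw [← hone, sg_one, one_mul] at h1
    exact h1
  have hmain : bD * brk D Y = (κ * del x * κ) • (sg x * bD) := by
    rw [← hib, ← brk_mul hD hiD hYD]
    have h1 : brk D (i * Y) = (κ * del x) • brk D (tr D (i * y0) * (sg x * i)) := by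
      ext y
      rw [MonoidAlgebra.coeff_smul, Finsupp.smul_apply, coeff_brk, coeff_brk]
      split_ifs with hy
      · rw [hYi y hy]
        rfl
      · simp
    rw [h1, brk_mul hD (hfxc _ (hcenter _ hcD) D) ((hxs hx).fxd.mul hiD),
      brk_mul hD (hxs hx).fxd hiD, hib, brk_of_sup (hxs hx)]
    have hsup := brk_sup D (tr D (i * y0))
    have h2 : brk D (tr D (i * y0)) * (sg x * bD) = sg x * (bD * brk D (tr D (i * y0))) := by
      rw [← mul_assoc, ← sup_fx hsup hx, mul_assoc, comm_of_sup h.bfx hsup]
    rw [h2, htr1, mul_smul_comm, smul_smul]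
  -- the value of `l`
  have hdl : ∀ v ∈ D, ∀ c ∈ centralizer (D : Set G), ∀ y : G,
      (dl v : G → k) (c * y * c⁻¹) = dl v y := by
    intro v hv c hc y
    have h1 : c * v * c⁻¹ = v := by
      have := mem_centralizer_iff.1 hc v hv
      rw [← this]; group
    have h2 : c * y * c⁻¹ = v ↔ y = v := by
      constructor
      · intro h
        have h3 : c⁻¹ * (c * y * c⁻¹) * c = c⁻¹ * (c * v * c⁻¹) * c := by rw [h, h1]
        have e1 : c⁻¹ * (c * y * c⁻¹) * c = y := by group
        have e2 : c⁻¹ * (c * v * c⁻¹) * c = v := by group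
        rwa [e1, e2] at h3
      · rintro rfl; exact h1
    simp only [dl, h2]
  have hbinv : ∀ c ∈ centralizer (D : Set G), ∀ y : G,
      (fun g => bD.coeff g) (c * y * c⁻¹) = (fun g => bD.coeff g) y :=
    fun c hc y => h.bfx.coeff hc y
  have hlY : l (fun g => Y.coeff g) = κ * del x * κ := by
    have h1 : l (fun g => (bD * brk D Y).coeff g) =
        l (fun g => bD.coeff g) * l (fun g => (brk D Y).coeff g) := by
      have h2 : (fun g => (bD * brk D Y).coeff g) =
          conv (fun g => bD.coeff g) (fun g => (brk D Y).coeff g) := by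
        funext g
        rw [coeff_mul_eq_conv]
      rw [h2]
      refine hl.mul' hD hab hbinv fun c hc y => ?_
      simp only [coeff_brk]
      have h3 : c * y * c⁻¹ ∈ centralizer (D : Set G) ↔ y ∈ centralizer (D : Set G) := by
        constructor
        · intro h
          have := mul_mem (mul_mem (inv_mem hc) h) hc
          have e1 : c⁻¹ * (c * y * c⁻¹) * c = y := by group
          rwa [e1] at this
        · intro h
          exact mul_mem (mul_mem hc h) (inv_mem hc)
      have h4 := hYcf c y
      simp only [h3]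
      split_ifs
      · exact h4
      · rfl
    have h2 : l (fun g => (brk D Y).coeff g) = l (fun g => Y.coeff g) := by
      refine hl.congr fun y hy => ?_
      rw [coeff_brk, if_pos hy]
    have h3 : l (fun g => (bD * brk D Y).coeff g) = κ * del x * κ := by
      have h4 : (fun g => (bD * brk D Y).coeff g) =
          (κ * del x * κ) • conv (dl x) (fun g => bD.coeff g) := by
        funext g
        rw [hmain, MonoidAlgebra.coeff_smul, Finsupp.smul_apply, Pi.smul_apply, conv_dl]
        congr 1
        rw [sg, MonoidAlgebra.coeff_single_mul_apply]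
        simp
      rw [h4, hl.smul, hl.mul' hD hab (hdl x hx) hbinv, hl.dl_eq_one hD hab hx, h.lb]
      ring
    rw [← h2, ← h3, h1, h.lb, one_mul]
  -- the block
  have hlY0 : l (fun g => Y.coeff g) ≠ 0 := by
    rw [hlY]
    exact mul_ne_zero (mul_ne_zero hκ0 hdx) hκ0
  have hprim := (isBlock_iff_prim ⟨B, hB.1⟩).1 hB
  obtain ⟨L, hL⟩ := blockHomStmt B hB
  have hLB : L ⟨B, hB.1⟩ = 1 := by rw [hL]; exact centralChar_self B hB
  have hLY : L ⟨Y, hY⟩ ≠ 0 := by
    rw [hL]
    have h1 := hlB _ hYcf
    rw [mkF_coeff] at h1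
    change centralChar B Y ≠ 0
    rw [← h1]
    exact hlY0
  obtain ⟨V, hV⟩ := exists_mul_eq_of_prim hprim L hLB hLY
  have hBV : B = Y * V.1 := congrArg Subtype.val hV
  have h1 : B * mkF w = 0 := by
    rw [hWc' B, hBV, ← mul_assoc, hwY, zero_mul]
  funext g
  have h2 : (B * mkF w).coeff g = 0 := by rw [h1]; rfl
  rw [coeff_mul_eq_conv] at h2
  simp only [coeff_mkF] at h2
  exact h2

end Core

end P179H46
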