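import Vale.Agent.P179.R2.H46.Base3

/-!
# Regular cosets in homocyclic groups from bases of coprime linear groups
-/

namespace P179H46.Base

open Subgroup

section

variable {p : ℕ} [hp : Fact p.Prime] {G : Type*} [Group G] [Finite G] {D T : Subgroup G}

/-- products in an abelian subgroup -/
theorem mul_pow_ab (hab : ∀ a ∈ D, ∀ b ∈ D, a * b = b * a) {x y : G} (hx : x ∈ D) (hy : y ∈ D)
    (m : ℕ) : (x * y) ^ m = x ^ m * y ^ m :=
  Commute.mul_pow (hab x hx y hy) m

/-- a root of an element fixed by `S` which is fixed by `S` -/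
theorem exists_root_fix (hD : IsPGroup p D) (hab : ∀ a ∈ D, ∀ b ∈ D, a * b = b * a)
    (hTN : T ≤ normalizer (D : Set G)) (hT : ¬ p ∣ (centralizer (D : Set G)).relIndex T)
    {S : Subgroup G} (hS : S ≤ T) {m : ℕ} {v : G} (hv : ∀ s ∈ S, s * v * s⁻¹ = v)
    {y : G} (hy : y ∈ D) (hyv : y ^ m = v) :
    ∃ a ∈ D, a ^ m = v ∧ ∀ s ∈ S, s * a * s⁻¹ = a := by
  have hS' : ¬ p ∣ (centralizer (D : Set G)).relIndex S := fun hd =>
    hT (hd.trans (P179H92.relIndex_dvd hTN hS))
  obtain ⟨a, ha, hat, b, hb, he⟩ := P179H292.mem_fix_mul hD hab (hS.trans hTN) hS' hy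
  have hbD : b ∈ D := P179H292.comm_le (hS.trans hTN) hb
  refine ⟨a, ha, ?_, hat⟩
  have h1 : v = a ^ m * b ^ m := by rw [← hyv, he, mul_pow_ab hab ha hbD]
  have h2 : b ^ m = 1 := by
    refine P179H292.comm_inf_fix hD hab (hS.trans hTN) hS' (pow_mem hb m) fun s hs => ?_
    have h3 : b ^ m = (a ^ m)⁻¹ * v := by rw [h1]; group
    rw [h3]
    calc s * ((a ^ m)⁻¹ * v) * s⁻¹ = ((s * a * s⁻¹) ^ m)⁻¹ * (s * v * s⁻¹) := by
          rw [conj_pow]; group
      _ = (a ^ m)⁻¹ * v := by rw [hat s hs, hv s hs]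
  rw [h1, h2, mul_one]

/-- the partial products -/
def pW (p : ℕ) (w : ℕ → G) : ℕ → G
  | 0 => 1
  | i + 1 => pW p w i * w i ^ p ^ i

omit [Finite G] in
theorem pW_mem {w : ℕ → G} (hw : ∀ i, w i ∈ D) (i : ℕ) : pW p w i ∈ D := by
  induction i with
  | zero => exact one_mem _
  | succ i ih => exact mul_mem ih (pow_mem (hw i) _)

omit [Finite G] in
theorem pW_fix {w : ℕ → G} {s : G} {i : ℕ} (hs : ∀ j < i, s * w j * s⁻¹ = w j) :
    s * pW p w i * s⁻¹ = pW p w i := by
  induction i with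
  | zero => simp [pW]
  | succ i ih =>
    change s * (pW p w i * w i ^ p ^ i) * s⁻¹ = pW p w i * w i ^ p ^ i
    calc s * (pW p w i * w i ^ p ^ i) * s⁻¹ = (s * pW p w i * s⁻¹) * (s * w i * s⁻¹) ^ p ^ i := by
          rw [conj_pow]; group
      _ = pW p w i * w i ^ p ^ i := by
          rw [ih fun j hj => hs j (by omega), hs i (by omega)]

theorem pW_pow (hab : ∀ a ∈ D, ∀ b ∈ D, a * b = b * a) {n : ℕ}
    (hexp : ∀ d ∈ D, d ^ p ^ (n + 1) = 1) {w : ℕ → G} (hw : ∀ i, w i ∈ D) {i : ℕ} (hi : i ≤ n)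
    (c : ℕ) : pW p w (i + 1 + c) ^ p ^ (n - i) = pW p w i ^ p ^ (n - i) * w i ^ p ^ n := by
  induction c with
  | zero =>
    change (pW p w i * w i ^ p ^ i) ^ p ^ (n - i) = _
    rw [mul_pow_ab hab (pW_mem hw i) (pow_mem (hw i) _), ← pow_mul, ← pow_add,
      Nat.add_sub_cancel' hi]
  | succ c ih =>
    change (pW p w (i + 1 + c) * w (i + 1 + c) ^ p ^ (i + 1 + c)) ^ p ^ (n - i) = _
    rw [mul_pow_ab hab (pW_mem hw _) (pow_mem (hw _) _), ih, ← pow_mul, ← pow_add]
    have h1 : i + 1 + c + (n - i) = (n + 1) + c := by omega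
    rw [h1, pow_add, pow_mul, hexp _ (hw _), one_pow, mul_one]

/-- a base of size `b` for the action on the elements of order `p` -/
def IsBase (p : ℕ) (D T : Subgroup G) (b : ℕ) (v : ℕ → G) : Prop :=
  (∀ i, v i ∈ D ∧ v i ^ p = 1) ∧ ∀ t ∈ T, (∀ i < b, t * v i = v i * t) →
    ∀ x ∈ D, x ^ p = 1 → t * x = x * t

/-- **a regular coset at the level of the size of a base** -/
theorem reg_of_base (hD : IsPGroup p D) (hab : ∀ a ∈ D, ∀ b ∈ D, a * b = b * a)
    (hTN : T ≤ normalizer (D : Set G)) (hT : ¬ p ∣ (centralizer (D : Set G)).relIndex T)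
    {n b : ℕ} (hdiv : ∀ x ∈ D, x ^ p = 1 → ∃ y ∈ D, y ^ p ^ n = x)
    (hexp : ∀ d ∈ D, d ^ p ^ (n + 1) = 1) (hb1 : 1 ≤ b) (hb : b ≤ n + 1) {v : ℕ → G}
    (hv : IsBase p D T b v) :
    ∃ w ∈ D, w ^ p ^ n = v 0 ∧
      ∀ s ∈ T, (∃ d ∈ D, s * w * s⁻¹ * w⁻¹ = d ^ p ^ b) →
        ∀ x ∈ D, x ^ p = 1 → s * x = x * s := by
  -- the stabilisers
  let S : ℕ → Subgroup G := fun i =>
    { carrier := {t | t ∈ T ∧ ∀ j < i, t * v j * t⁻¹ = v j}
      one_mem' := ⟨one_mem _, fun j _ => by simp⟩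
      mul_mem' := by
        rintro s t ⟨hs, hs'⟩ ⟨ht, ht'⟩
        refine ⟨mul_mem hs ht, fun j hj => ?_⟩
        calc s * t * v j * (s * t)⁻¹ = s * (t * v j * t⁻¹) * s⁻¹ := by group
          _ = v j := by rw [ht' j hj, hs' j hj]
      inv_mem' := by
        rintro s ⟨hs, hs'⟩
        refine ⟨inv_mem hs, fun j hj => ?_⟩
        have := hs' j hj
        calc s⁻¹ * v j * s⁻¹⁻¹ = s⁻¹ * (s * v j * s⁻¹) * s := by rw [this]; group
          _ = v j := by group }
  have hST : ∀ i, S i ≤ T := fun i t ht => ht.1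
  have hroot : ∀ i, ∃ a ∈ D, a ^ p ^ n = v i ∧ ∀ s ∈ S (i + 1), s * a * s⁻¹ = a := by
    intro i
    obtain ⟨y, hy, hyv⟩ := hdiv (v i) (hv.1 i).1 (hv.1 i).2
    exact exists_root_fix hD hab hTN hT (hST _) (fun s hs => hs.2 i (by omega)) hy hyv
  choose w hwD hwv hwS using hroot
  refine ⟨pW p w b, pW_mem hwD b, ?_, ?_⟩
  · obtain ⟨c, rfl⟩ : ∃ c, b = 0 + 1 + c := ⟨b - 1, by omega⟩
    have h1 := pW_pow hab hexp hwD (Nat.zero_le n) c
    rw [Nat.sub_zero, hwv] at h1
    rw [h1]
    change (1 : G) ^ p ^ n * v 0 = v 0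
    rw [one_pow, one_mul]
  · rintro s hs ⟨d, hd, hsd⟩
    have key : ∀ i ≤ b, s ∈ S i := by
      intro i
      induction i with
      | zero => exact fun _ => ⟨hs, fun j hj => absurd hj (Nat.not_lt_zero j)⟩
      | succ i ih =>
        intro hib
        have hsi := ih (by omega)
        refine ⟨hs, fun j hj => ?_⟩
        rcases Nat.lt_or_ge j i with h1 | h1
        · exact hsi.2 j h1
        · have hji : j = i := by omega
          subst hji
          obtain ⟨c, rfl⟩ : ∃ c, b = j + 1 + c := ⟨b - (j + 1), by omega⟩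
          have h2 := pW_pow hab hexp hwD (i := j) (by omega) c
          rw [hwv] at h2
          -- `s` fixes the partial product
          have h3 : s * pW p w j * s⁻¹ = pW p w j := by
            refine pW_fix fun i hi => hwS i s ?_
            exact ⟨hs, fun i' hi' => hsi.2 i' (by omega)⟩
          have hWD := pW_mem (p := p) hwD (j + 1 + c)
          have hsW : s * pW p w (j + 1 + c) * s⁻¹ ∈ D :=
            (mem_normalizer_iff.1 (hTN hs) _).1 hWD
          have h4 : (s * pW p w (j + 1 + c) * s⁻¹ * (pW p w (j + 1 + c))⁻¹) ^ p ^ (n - j) = 1 := by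
            rw [hsd, ← pow_mul, ← pow_add]
            have h5 : j + 1 + c + (n - j) = (n + 1) + c := by omega
            rw [h5, pow_add, pow_mul, hexp d hd, one_pow]
          rw [mul_pow_ab hab hsW (inv_mem hWD), conj_pow, inv_pow, h2] at h4
          have h6 := mul_inv_eq_one.1 h4
          have h7 : (s * pW p w j ^ p ^ (n - j) * s⁻¹) = pW p w j ^ p ^ (n - j) := by
            rw [← conj_pow, h3]
          have h8 : s * (pW p w j ^ p ^ (n - j) * v j) * s⁻¹ =
              (s * pW p w j ^ p ^ (n - j) * s⁻¹) * (s * v j * s⁻¹) := by group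
          rw [h8, h7] at h6
          exact mul_left_cancel h6
    refine hv.2 s hs fun i hi => ?_
    have h9 := (key b le_rfl).2 i hi
    calc s * v i = s * v i * s⁻¹ * s := by group
      _ = v i * s := by rw [h9]

/-- the size of a base -/
def bN (r : ℕ) : ℕ := if r ≤ 2 then r else r - 1

/-- **bases of coprime linear groups** -/
theorem exists_baseN (r : ℕ) : 1 ≤ r → ∀ (V T : Subgroup G), (∀ v ∈ V, v ^ p = 1) →
    (∀ a ∈ V, ∀ b ∈ V, a * b = b * a) → Nat.card V = p ^ r → T ≤ normalizer (V : Set G) →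
    ¬ p ∣ (centralizer (V : Set G)).relIndex T →
    ∃ v : ℕ → G, v 0 ≠ 1 ∧ (∀ i, v i ∈ V) ∧
      ∀ t ∈ T, (∀ i < bN r, t * v i = v i * t) → ∀ x ∈ V, t * x = x * t := by
  induction r using Nat.strong_induction_on with
  | _ r ih =>
  intro hr V T hex hab hc hTN hT
  have hV : IsPGroup p V := IsPGroup.of_card hc
  have h1V : 1 < Nat.card V := by
    rw [hc]
    exact Nat.one_lt_pow (by omega) hp.out.one_lt
  obtain ⟨v₀, hv₀, hv1⟩ := exists_ne h1V
  have hz : Nat.card (zpowers v₀) = p := by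
    rw [Nat.card_zpowers]
    exact orderOf_eq_prime (hex v₀ hv₀) hv1
  have hfix : ∀ (A : Subgroup G) (t : G), (∀ a ∈ A, t * a = a * t) ↔
      A ≤ centralizer ({t} : Set G) := fun A t =>
    ⟨fun h1 a ha => mem_centralizer_singleton_iff.2 (h1 a ha).symm,
      fun h1 a ha => (mem_centralizer_singleton_iff.1 (h1 ha)).symm⟩
  rcases (by omega : r = 1 ∨ r = 2 ∨ r = 3 ∨ 4 ≤ r) with h | h | h | h
  · subst h
    refine ⟨fun _ => v₀, hv1, fun _ => hv₀, fun t _ h2 => ?_⟩
    have h3 : V = zpowers v₀ := by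
      symm
      refine Subgroup.eq_of_le_of_card_ge ((zpowers_le).2 hv₀) ?_
      rw [hc, hz, pow_one]
    rw [hfix, h3, zpowers_le, mem_centralizer_singleton_iff]
    exact (h2 0 (by norm_num [bN])).symm
  · subst h
    have h3 : ¬ V ≤ zpowers v₀ := by
      intro h4
      have h5 := Subgroup.card_le_of_le h4
      rw [hc, hz] at h5
      have h6 : p ^ 1 < p ^ 2 := Nat.pow_lt_pow_right hp.out.one_lt (by norm_num)
      rw [pow_one] at h6
      omega
    obtain ⟨v₁, hv₁, hv10⟩ := SetLike.not_le_iff_exists.1 h3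
    refine ⟨fun i => if i = 0 then v₀ else v₁, by simpa using hv1, fun i => by
      beta_reduce
      split_ifs
      · exact hv₀
      · exact hv₁, fun t _ h2 => ?_⟩
    have h4 : V = zpowers v₀ ⊔ zpowers v₁ := by
      symm
      refine Subgroup.eq_of_le_of_card_ge
        (sup_le ((zpowers_le).2 hv₀) ((zpowers_le).2 hv₁)) ?_
      obtain ⟨i, hi⟩ := IsPGroup.iff_card.1
        (hV.to_le (sup_le ((zpowers_le).2 hv₀) ((zpowers_le).2 hv₁)))
      have h5 : Nat.card (zpowers v₀) < Nat.card (zpowers v₀ ⊔ zpowers v₁ : Subgroup G) := by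
        refine lt_of_le_of_ne (Subgroup.card_le_of_le le_sup_left) fun h6 => hv10 ?_
        rw [Subgroup.eq_of_le_of_card_ge (le_sup_left : zpowers v₀ ≤ zpowers v₀ ⊔ zpowers v₁)
          h6.ge]
        exact mem_sup_right (mem_zpowers v₁)
      rw [hz, hi] at h5
      rw [hc, hi]
      refine Nat.pow_le_pow_right hp.out.pos ?_
      by_contra h6
      have h7 : i ≤ 1 := by omega
      have h8 := Nat.pow_le_pow_right hp.out.pos h7
      rw [pow_one] at h8
      omega
    rw [hfix, h4]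
    refine sup_le ?_ ?_
    · rw [zpowers_le, mem_centralizer_singleton_iff]
      have := h2 0 (by norm_num [bN])
      simpa using this.symm
    · rw [zpowers_le, mem_centralizer_singleton_iff]
      have := h2 1 (by norm_num [bN])
      simpa using this.symm
  · subst h
    obtain ⟨v₁, hv₁, v₂, hv₂, hb⟩ := exists_base (p := p) (V := V) (T := T)
      ⟨hex, hab, hc, hTN, hT⟩
    have key : ∃ u₀ ∈ V, ∃ u₁ ∈ V, u₀ ≠ 1 ∧ ∀ t ∈ T, t * u₀ = u₀ * t → t * u₁ = u₁ * t →
        ∀ x ∈ V, t * x = x * t := by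
      by_cases h1 : v₁ = 1
      · by_cases h2 : v₂ = 1
        · refine ⟨v₀, hv₀, v₀, hv₀, hv1, fun t ht _ _ x hx => ?_⟩
          have := hb t ht (by rw [h1, mul_one, one_mul]) (by rw [h2, mul_one, one_mul])
          exact (mem_centralizer_iff.1 this x hx).symm
        · refine ⟨v₂, hv₂, v₂, hv₂, h2, fun t ht h3 _ x hx => ?_⟩
          have := hb t ht (by rw [h1, mul_one, one_mul]) h3
          exact (mem_centralizer_iff.1 this x hx).symm
      · exact ⟨v₁, hv₁, v₂, hv₂, h1, fun t ht h3 h4 x hx =>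
          (mem_centralizer_iff.1 (hb t ht h3 h4) x hx).symm⟩
    obtain ⟨u₀, hu₀, u₁, hu₁, hu, hub⟩ := key
    refine ⟨fun i => if i = 0 then u₀ else u₁, by simpa using hu, fun i => by
      beta_reduce
      split_ifs
      · exact hu₀
      · exact hu₁, fun t ht h2 => ?_⟩
    refine hub t ht ?_ ?_
    · have := h2 0 (by norm_num [bN])
      simpa using this
    · have := h2 1 (by norm_num [bN])
      simpa using this
  · -- the recursion
    set S : Subgroup G := T ⊓ centralizer {v₀} with hS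
    have hST : S ≤ T := inf_le_left
    have hSN : S ≤ normalizer (V : Set G) := hST.trans hTN
    have hSi : ¬ p ∣ (centralizer (V : Set G)).relIndex S := fun hd =>
      hT (hd.trans (P179H92.relIndex_dvd hTN hST))
    set V' : Subgroup G := ⁅S, V⁆ with hV'
    have hV'V : V' ≤ V := P179H292.comm_le hSN
    have hS0 : ∀ s ∈ S, s * v₀ * s⁻¹ = v₀ := by
      intro s hs
      have := mem_centralizer_singleton_iff.1 (Subgroup.mem_inf.1 hs).2
      rw [this, mul_inv_cancel_right]
    have hv₀' : v₀ ∉ V' := fun h2 => hv1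
      (P179H292.comm_inf_fix hV hab hSN hSi h2 hS0)
    have hlt : Nat.card V' < Nat.card V := by
      refine lt_of_le_of_ne (Subgroup.card_le_of_le hV'V) fun h2 => hv₀' ?_
      rw [Subgroup.eq_of_le_of_card_ge hV'V h2.ge]
      exact hv₀
    obtain ⟨r', hr'⟩ := IsPGroup.iff_card.1 (hV.to_le hV'V)
    have hr'r : r' < r := by
      rw [hr', hc] at hlt
      exact (Nat.pow_lt_pow_iff_right hp.out.one_lt).1 hlt
    have hfin : ∀ t ∈ S, (∀ x ∈ V', t * x = x * t) → ∀ x ∈ V, t * x = x * t := by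
      intro t ht h2 x hx
      obtain ⟨a, ha, hat, b, hb, rfl⟩ := P179H292.mem_fix_mul hV hab hSN hSi hx
      have h3 : t * a = a * t := by
        calc t * a = t * a * t⁻¹ * t := by group
          _ = a * t := by rw [hat t ht]
      rw [← mul_assoc, h3, mul_assoc, h2 b hb, mul_assoc]
    rcases Nat.eq_zero_or_pos r' with h0 | h0
    · refine ⟨fun _ => v₀, hv1, fun _ => hv₀, fun t ht h2 => hfin t ?_ ?_⟩
      · exact Subgroup.mem_inf.2 ⟨ht, mem_centralizer_singleton_iff.2
          (h2 0 (by unfold bN; split_ifs <;> omega)).symm.symm⟩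
      · have h3 : V' = ⊥ := by
          rw [← card_eq_one, hr', h0, pow_zero]
        intro x hx
        rw [h3, mem_bot] at hx
        rw [hx, mul_one, one_mul]
    · obtain ⟨v', -, hv'V, hv'⟩ := ih r' hr'r h0 V' S (fun v hv => hex v (hV'V hv))
        (fun a ha b hb => hab a (hV'V ha) b (hV'V hb)) hr' (by
          intro s hs
          rw [mem_normalizer_iff]
          intro x
          constructor
          · exact fun hx => comm_conj hs hx
          · intro hx
            have := comm_conj (inv_mem hs) hx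
            have e : s⁻¹ * (s * x * s⁻¹) * s⁻¹⁻¹ = x := by group
            rwa [e] at this)
        (fun hd => hSi (hd.trans (relIndex_dvd_of_le_left S (centralizer_le hV'V))))
      refine ⟨fun i => if i = 0 then v₀ else v' (i - 1), by simpa using hv1, fun i => by
        beta_reduce
        split_ifs
        · exact hv₀
        · exact hV'V (hv'V _), fun t ht h2 => ?_⟩
      have htS : t ∈ S := by
        refine Subgroup.mem_inf.2 ⟨ht, mem_centralizer_singleton_iff.2 ?_⟩
        have := h2 0 (by unfold bN; split_ifs <;> omega)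
        simpa using this
      refine hfin t htS (hv' t htS fun i hi => ?_)
      have := h2 (i + 1) (by
        unfold bN at hi ⊢
        split_ifs at hi ⊢ <;> omega)
      simpa using this

/-- **regular cosets in homocyclic groups** at the level `r - 1` -/
theorem exists_reg_homB (hD : IsPGroup p D) (hab : ∀ a ∈ D, ∀ b ∈ D, a * b = b * a)
    (hTN : T ≤ normalizer (D : Set G)) (hT : ¬ p ∣ (centralizer (D : Set G)).relIndex T)
    {r n : ℕ} (hr3 : 3 ≤ r) (hr : Nat.card {x : G // x ∈ D ∧ x ^ p = 1} = p ^ r)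
    (hdiv : ∀ x ∈ D, x ^ p = 1 → ∃ y ∈ D, y ^ p ^ n = x) (hexp : ∀ d ∈ D, d ^ p ^ (n + 1) = 1)
    (hn : r - 1 ≤ n + 1) :
    ∃ w ∈ D, w ^ p ^ n ≠ 1 ∧ ∀ t ∈ T, (∃ d ∈ D, t * w * t⁻¹ * w⁻¹ = d ^ p ^ (r - 1)) →
      t ∈ centralizer (D : Set G) := by
  -- the elements of order `p`
  let V : Subgroup G :=
    { carrier := {x | x ∈ D ∧ x ^ p = 1}
      one_mem' := ⟨one_mem _, one_pow _⟩
      mul_mem' := by
        rintro x y ⟨hx, hx'⟩ ⟨hy, hy'⟩
        exact ⟨mul_mem hx hy, by rw [mul_pow_ab hab hx hy, hx', hy', one_mul]⟩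
      inv_mem' := by
        rintro x ⟨hx, hx'⟩
        exact ⟨inv_mem hx, by rw [inv_pow, hx', inv_one]⟩ }
  have hVc : Nat.card V = p ^ r := hr
  have hVD : V ≤ D := fun x hx => hx.1
  have hTV : T ≤ normalizer (V : Set G) := by
    intro t ht
    rw [mem_normalizer_iff]
    intro x
    have h1 := mem_normalizer_iff.1 (hTN ht) x
    change (x ∈ D ∧ x ^ p = 1) ↔ (t * x * t⁻¹ ∈ D ∧ (t * x * t⁻¹) ^ p = 1)
    rw [← h1, conj_pow, conj_eq_one_iff]
  obtain ⟨v, hv0, hvV, hvb⟩ := exists_baseN r (by omega) V T (fun v hv => hv.2)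
    (fun a ha b hb => hab a (hVD ha) b (hVD hb)) hVc hTV
    (fun hd => hT (hd.trans (relIndex_dvd_of_le_left T (centralizer_le hVD))))
  have hbN : bN r = r - 1 := by
    unfold bN
    rw [if_neg (by omega)]
  rw [hbN] at hvb
  obtain ⟨w, hw, hwn, hreg⟩ := reg_of_base hD hab hTN hT hdiv hexp (b := r - 1) (by omega) hn
    (v := v) ⟨fun i => hvV i, fun t ht h1 x hx hx' => hvb t ht h1 x ⟨hx, hx'⟩⟩
  refine ⟨w, hw, by rw [hwn]; exact hv0, fun s hs h1 => ?_⟩
  have h2 := hreg s hs h1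
  have hsm : s ^ (centralizer (D : Set G)).relIndex T ∈ centralizer (D : Set G) := by
    have hCn : ((centralizer (D : Set G)).subgroupOf T).Normal := by
      refine ⟨fun c hc n => ?_⟩
      rw [mem_subgroupOf] at hc ⊢
      exact P179B.conj_mem_centralizer_of_mem_normalizer (hTN n.2) hc
    have h1 := ((centralizer (D : Set G)).subgroupOf T).pow_index_mem (⟨s, hs⟩ : T)
    rw [mem_subgroupOf] at h1
    exact h1
  refine P179H292.centralises_of_omega hab hD (hTN hs) hT hsm fun x hx => ?_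
  rw [h2 x hx.1 hx.2, mul_inv_cancel_right]

end

end P179H46.Base
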