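import Vale.Agent.P179.R2.H854.EqD
import Vale.Agent.P179.R2.H12.Wat2
import Vale.Agent.P179.R2.H967.VG

/-!
# (W1) The graded form of Watanabe's theorem, from the one-step bijection

`StepS` is the bijection for one element `x`; `bij_Q` the bijection for a subgroup `Q ≤ D`
centralised by `a` and by `T ∩ C(P)`; `w1_of : StepS p k → W1S p k`.
-/

namespace P179H46

open Finset Module Subgroup P179H524 P179C P179A P179P P179Y P179R P179H12 P179H854 P179H967

open scoped Classical

universe u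

section defs

variable {k : Type u} [Field k] {G : Type} [Group G] [Fintype G]

omit [Field k] [Fintype G] in
theorem pr_inv' (p : ℕ) (x : G) : pr p x⁻¹ = (pr p x)⁻¹ := by
  unfold pr
  rw [orderOf_inv, inv_pow]

omit [Field k] [Fintype G] in
theorem pr_conj' (p : ℕ) (t x : G) : pr p (t⁻¹ * x * t) = t⁻¹ * pr p x * t := by
  unfold pr
  have h1 : t⁻¹ * x * t = t⁻¹ * x * t⁻¹⁻¹ := by rw [inv_inv]
  have h2 : orderOf (t⁻¹ * x * t⁻¹⁻¹) = orderOf x := by
    have := orderOf_injective (MulAut.conj t⁻¹).toMonoidHom (MulAut.conj t⁻¹).injective x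
    exact this
  rw [h1, h2, conj_pow, inv_inv]

/-- the inversion of the argument -/
def ivF (ψ : G → k) : G → k := fun g => ψ g⁻¹

omit [Field k] [Fintype G] in
theorem ivF_ivF (ψ : G → k) : ivF (ivF ψ) = ψ := by
  funext g
  unfold ivF
  rw [inv_inv]

omit [Field k] [Fintype G] in
theorem ivF_cj (t : G) (ψ : G → k) : ivF (P179Y.cj t ψ) = P179Y.cj t (ivF ψ) := by
  funext g
  unfold ivF P179Y.cj
  congr 1
  group

theorem conv_ivF (ψ e : G → k) (y : G) :
    conv (ivF ψ) e y⁻¹ = ∑ h : G, e h * ψ (h * y) := by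
  unfold conv ivF
  refine Fintype.sum_equiv ((Equiv.inv G).trans (Equiv.mulRight y⁻¹)) _ _ fun u => ?_
  change ψ u⁻¹ * e (u⁻¹ * y⁻¹) = e (u⁻¹ * y⁻¹) * ψ (u⁻¹ * y⁻¹ * y)
  rw [mul_comm, inv_mul_cancel_right]

theorem ivF_mem_iff {p : ℕ} {N : Subgroup G} {e : G → k} {g : G}
    (hg : g ∈ normalizer (N : Set G)) {ψ : G → k} :
    ivF ψ ∈ VG p N e g⁻¹ ↔ ψ ∈ LG p N e g := by
  have hsupp : ∀ h, g⁻¹⁻¹ * h ∈ N ↔ g⁻¹ * h⁻¹ ∈ N := by
    intro h
    rw [inv_inv]
    have h1 := mem_normalizer_iff.1 hg (h * g)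
    have e1 : g * (h * g) * g⁻¹ = g * h := by group
    rw [e1] at h1
    have h2 : g⁻¹ * h⁻¹ = (h * g)⁻¹ := by group
    rw [h2, inv_mem_iff]
    exact h1.symm
  rw [mem_VG, mem_LG]
  refine and_congr ?_ (and_congr ?_ (and_congr ?_ ?_))
  · constructor
    · intro h x hx
      have := h x⁻¹ (by rw [hsupp, inv_inv]; exact hx)
      unfold ivF at this
      rwa [inv_inv] at this
    · intro h x hx
      exact h x⁻¹ (by rwa [hsupp] at hx)
  · constructor
    · intro h m hm x
      have := h m hm x⁻¹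
      unfold ivF at this
      rw [inv_inv] at this
      rw [← this]
      congr 1
      group
    · intro h m hm x
      unfold ivF
      rw [← h m hm x⁻¹]
      congr 1
      group
  · constructor
    · intro h x hx
      have := h x⁻¹ (by rw [hsupp, inv_inv]; exact hx)
      unfold ivF at this
      rwa [pr_inv', inv_inv, inv_inv] at this
    · intro h x hx
      unfold ivF
      rw [← pr_inv']
      exact h x⁻¹ (by rwa [hsupp] at hx)
  · constructor
    · intro h y
      rw [← conv_ivF, h]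
      unfold ivF
      rw [inv_inv]
    · intro h
      funext y
      have := conv_ivF ψ e y⁻¹
      rw [h, inv_inv] at this
      exact this

/-- the transfer map -/
noncomputable def fQ (Q : Subgroup G) (e : G → k) : (G → k) →ₗ[k] (G → k) where
  toFun z := conv (cutC Q z) e
  map_add' a b := by
    funext x
    unfold conv cutC
    rw [Pi.add_apply, ← Finset.sum_add_distrib]
    refine Finset.sum_congr rfl fun y _ => ?_
    split_ifs
    · rw [Pi.add_apply, add_mul]
    · ring
  map_smul' c a := by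
    funext x
    unfold conv cutC
    rw [Pi.smul_apply, smul_eq_mul, RingHom.id_apply, Finset.mul_sum]
    refine Finset.sum_congr rfl fun y _ => ?_
    split_ifs
    · rw [Pi.smul_apply, smul_eq_mul]; ring
    · ring

theorem fQ_apply (Q : Subgroup G) (e z : G → k) : fQ Q e z = conv (cutC Q z) e := rfl

omit [Fintype G] in
theorem cutC_cj {Q : Subgroup G} {t : G} (ht : t ∈ normalizer (Q : Set G)) (z : G → k) :
    cutC Q (P179Y.cj t z) = P179Y.cj t (cutC Q z) := by
  funext x
  unfold cutC P179Y.cj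
  beta_reduce
  have h1 := conj_mem_cent (inv_mem ht) x
  rw [inv_inv] at h1
  by_cases hx : x ∈ centralizer (Q : Set G)
  · rw [if_pos hx, if_pos (h1.2 hx)]
  · rw [if_neg hx, if_neg fun h => hx (h1.1 h)]

theorem fQ_cj {Q : Subgroup G} {t : G} (ht : t ∈ normalizer (Q : Set G)) {e : G → k}
    (he : P179Y.cj t e = e) (z : G → k) : fQ Q e (P179Y.cj t z) = P179Y.cj t (fQ Q e z) := by
  rw [fQ_apply, fQ_apply, cj_conv, he, cutC_cj ht]

/-- `LG` is stable under conjugation -/
theorem cj_mem_LG {p : ℕ} {N : Subgroup G} {e : G → k} {g t : G}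
    (ht : t ∈ normalizer (N : Set G)) (he : P179Y.cj t e = e) (hgt : t * g * t⁻¹ * g⁻¹ ∈ N)
    (hg : g ∈ normalizer (N : Set G)) {ψ : G → k} (hψ : ψ ∈ LG p N e g) :
    P179Y.cj t ψ ∈ LG p N e g := by
  have ht' := mem_normalizer_iff.1 ht
  have hg' := mem_normalizer_iff.1 hg
  have hsupp : ∀ h, g⁻¹ * h ∈ N ↔ g⁻¹ * (t⁻¹ * h * t) ∈ N := by
    intro h
    have e1 : t * (g⁻¹ * (t⁻¹ * h * t)) * t⁻¹ = (g⁻¹ * (t * g * t⁻¹ * g⁻¹)⁻¹ * g) * (g⁻¹ * h) := by
      group
    have h2 : g⁻¹ * (t * g * t⁻¹ * g⁻¹)⁻¹ * g ∈ N := by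
      rw [hg']
      have e2 : g * (g⁻¹ * (t * g * t⁻¹ * g⁻¹)⁻¹ * g) * g⁻¹ = (t * g * t⁻¹ * g⁻¹)⁻¹ := by group
      rw [e2]
      exact inv_mem hgt
    rw [ht' (g⁻¹ * (t⁻¹ * h * t)), e1]
    exact (mul_mem_cancel_left h2).symm
  obtain ⟨h1, h2, h3, h4⟩ := mem_LG.1 hψ
  refine mem_LG.2 ⟨fun h hh => h1 _ fun h' => hh ((hsupp h).2 h'), fun m hm h => ?_,
    fun h hh => ?_, fun y => ?_⟩
  · unfold P179Y.cj
    have hm' : t⁻¹ * m * t ∈ N := by
      rw [ht']
      have e2 : t * (t⁻¹ * m * t) * t⁻¹ = m := by group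
      rwa [e2]
    rw [← h2 _ hm' (t⁻¹ * h * t)]
    congr 1
    group
  · unfold P179Y.cj
    have e3 : t⁻¹ * pr p h * t = pr p (t⁻¹ * h * t) := by
      exact (pr_conj' p t h).symm
    rw [e3]
    exact h3 _ ((hsupp h).1 hh)
  · have h5 := h4 (t⁻¹ * y * t)
    unfold P179Y.cj
    rw [← h5]
    refine Fintype.sum_equiv (MulAut.conj t⁻¹).toEquiv _ _ fun u => ?_
    change e u * ψ (t⁻¹ * (u * y) * t) = e (t⁻¹ * u * t⁻¹⁻¹) * ψ (t⁻¹ * u * t⁻¹⁻¹ * (t⁻¹ * y * t))
    have h6 : e (t⁻¹ * u * t⁻¹⁻¹) = e u := by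
      rw [inv_inv]
      exact congrFun he u
    rw [h6]
    congr 2
    group

end defs

section grp

variable {G : Type} [Group G]

/-- `N_G(P) ∩ C_G(Q)` normalises `P ⊔ Q`; and so on -/
theorem norm_of_cent {Q : Subgroup G} {a : G} (h : ∀ q ∈ Q, a * q * a⁻¹ = q) :
    a ∈ normalizer (Q : Set G) := by
  rw [mem_normalizer_iff]
  intro q
  constructor
  · intro hq
    rw [h q hq]
    exact hq
  · intro hq
    have h1 := h _ hq
    have h2 : a * q * a⁻¹ = q := by
      have h3 : a⁻¹ * (a * (a * q * a⁻¹) * a⁻¹) * a = a⁻¹ * (a * q * a⁻¹) * a := by rw [h1]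
      have e1 : a⁻¹ * (a * (a * q * a⁻¹) * a⁻¹) * a = a * q * a⁻¹ := by group
      have e2 : a⁻¹ * (a * q * a⁻¹) * a = q := by group
      rwa [e1, e2] at h3
    rwa [h2] at hq

theorem norm_sup' {P Q : Subgroup G} {a : G}
    (hP : a ∈ normalizer (P : Set G)) (hQ : a ∈ normalizer (Q : Set G)) :
    a ∈ normalizer ((P ⊔ Q : Subgroup G) : Set G) := by
  rw [mem_normalizer_iff_map_conj_eq] at *
  rw [Subgroup.map_sup, hP, hQ]

theorem norm_cent {P : Subgroup G} {a : G} (hP : a ∈ normalizer (P : Set G)) :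
    a ∈ normalizer ((centralizer (P : Set G) : Subgroup G) : Set G) := by
  rw [mem_normalizer_iff]
  intro x
  exact (conj_mem_cent hP x).symm

theorem norm_inf {P Q : Subgroup G} {a : G}
    (hP : a ∈ normalizer (P : Set G)) (hQ : a ∈ normalizer (Q : Set G)) :
    a ∈ normalizer ((P ⊓ Q : Subgroup G) : Set G) := by
  rw [mem_normalizer_iff] at *
  intro x
  rw [Subgroup.mem_inf, Subgroup.mem_inf, hP x, hQ x]

/-- `C_D(T ∩ C(P)) ∩ C(a)` is normalised by `t` -/
theorem norm_Q {D P T : Subgroup G} {a t : G} (htD : t ∈ normalizer (D : Set G))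
    (htT : t ∈ T) (htP : t ∈ normalizer (P : Set G)) (haT : a ∈ T)
    (hat : t * a * t⁻¹ * a⁻¹ ∈ centralizer (P : Set G)) :
    t ∈ normalizer ((D ⊓ centralizer ((T ⊓ centralizer (P : Set G) : Subgroup G) : Set G) ⊓
      centralizer {a} : Subgroup G) : Set G) := by
  have h1 : t ∈ normalizer ((D ⊓ centralizer
      ((T ⊓ centralizer (P : Set G) : Subgroup G) : Set G) : Subgroup G) : Set G) := by
    refine norm_inf htD (norm_cent (norm_inf ?_ (norm_cent htP)))
    exact le_normalizer htT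
  have key : ∀ s : G, s ∈ normalizer ((D ⊓ centralizer
      ((T ⊓ centralizer (P : Set G) : Subgroup G) : Set G) : Subgroup G) : Set G) →
      s * a * s⁻¹ * a⁻¹ ∈ T ⊓ centralizer (P : Set G) → ∀ q,
      q ∈ (D ⊓ centralizer ((T ⊓ centralizer (P : Set G) : Subgroup G) : Set G) ⊓
        centralizer {a} : Subgroup G) → s⁻¹ * q * s ∈
      (D ⊓ centralizer ((T ⊓ centralizer (P : Set G) : Subgroup G) : Set G) ⊓
        centralizer {a} : Subgroup G) := by
    intro s hs hsa q hq
    rw [Subgroup.mem_inf, mem_centralizer_singleton_iff] at hq ⊢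
    refine ⟨?_, ?_⟩
    · have := (mem_normalizer_iff.1 (inv_mem hs) q).1 hq.1
      rwa [inv_inv] at this
    · -- `q` commutes with `s a s⁻¹`
      have h2 : q * (s * a * s⁻¹ * a⁻¹) = (s * a * s⁻¹ * a⁻¹) * q :=
        (mem_centralizer_iff.1 hq.1.2 _ hsa).symm
      have h3 : q * (s * a * s⁻¹) = (s * a * s⁻¹) * q := by
        calc q * (s * a * s⁻¹) = q * (s * a * s⁻¹ * a⁻¹) * a := by group
          _ = (s * a * s⁻¹ * a⁻¹) * (q * a) := by rw [h2]; group
          _ = (s * a * s⁻¹) * q := by rw [hq.2]; group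
      calc s⁻¹ * q * s * a = s⁻¹ * (q * (s * a * s⁻¹)) * s := by group
        _ = a * (s⁻¹ * q * s) := by rw [h3]; group
  have hatT : t * a * t⁻¹ * a⁻¹ ∈ T ⊓ centralizer (P : Set G) :=
    ⟨T.mul_mem (T.mul_mem (T.mul_mem htT haT) (T.inv_mem htT)) (T.inv_mem haT), hat⟩
  rw [mem_normalizer_iff]
  intro q
  constructor
  · intro hq
    have h2 : t⁻¹ * a * t⁻¹⁻¹ * a⁻¹ ∈ T ⊓ centralizer (P : Set G) := by
      have h3 := inv_mem ((conj_mem_cent (inv_mem htP) _).2 hat)
      have e2 : (t⁻¹ * (t * a * t⁻¹ * a⁻¹) * t⁻¹⁻¹)⁻¹ = t⁻¹ * a * t⁻¹⁻¹ * a⁻¹ := by group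
      rw [e2] at h3
      exact ⟨T.mul_mem (T.mul_mem (T.mul_mem (T.inv_mem htT) haT) (T.inv_mem (T.inv_mem htT)))
        (T.inv_mem haT), h3⟩
    have := key t⁻¹ (inv_mem h1) h2 q hq
    rwa [inv_inv] at this
  · intro hq
    have := key t h1 hatT _ hq
    have e1 : t⁻¹ * (t * q * t⁻¹) * t = q := by group
    rwa [e1] at this

end grp

section main

variable {p : ℕ} [hp : Fact p.Prime] {k : Type u} [Field k] [IsAlgClosed k] [CharP k p]
  {G : Type} [Group G] [Fintype G] {D : Subgroup G} {l : (G → k) → k}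

/-- the block of `C_G(P)` below the pair, as a function on `G` -/
noncomputable abbrev eP (P : Subgroup G) (l : (G → k) → k) : G → k :=
  eH (centralizer (P : Set G)) l

theorem cj_eP (hl : BP p D l) (hD : IsPGroup p D) (hab : D ≤ centralizer (D : Set G))
    {P : Subgroup G} (hPD : P ≤ D) {t : G} (ht : t ∈ stabT D l)
    (htP : t ∈ normalizer (P : Set G)) : P179Y.cj t (eP P l) = eP P l := by
  have hCC : centralizer (D : Set G) ≤ centralizer (P : Set G) := centralizer_le hPD
  have hm : MulH (centralizer (P : Set G)) l := BP.mulH hl hD hab hCC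
  obtain ⟨b, hb, hlb, he⟩ := eH_spec hm
  unfold eP
  rw [he]
  exact (mem_stH_iff hm hb hlb (norm_cent htP)).1 (stabT_le_stH hl hCC ht (norm_cent htP))

/-- **composition** -/
theorem fQ_comp (hl : BP p D l) (hD : IsPGroup p D) (hab : D ≤ centralizer (D : Set G))
    {P X X' : Subgroup G} (hPD : P ≤ D) (hX'D : X' ≤ D) (hXX' : X ≤ X') {z : G → k}
    (hz : ∀ d ∈ D, ∀ h, z (d * h * d⁻¹) = z h) :
    fQ X' (eP (P ⊔ X') l) (fQ X (eP (P ⊔ X) l) z) = fQ X' (eP (P ⊔ X') l) z := by
  have hXD : X ≤ D := hXX'.trans hX'D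
  have hP1 : P ⊔ X ≤ D := sup_le hPD hXD
  have hP2 : P ⊔ X' ≤ D := sup_le hPD hX'D
  have hm1 : MulH (centralizer ((P ⊔ X : Subgroup G) : Set G)) l :=
    BP.mulH hl hD hab (centralizer_le hP1)
  have hinv := invOn_eH hm1
  have hDC : D ≤ centralizer ((P ⊔ X : Subgroup G) : Set G) := hab.trans (centralizer_le hP1)
  have hcX : ∀ d ∈ D, ∀ h, cutC X z (d * h * d⁻¹) = cutC X z h := by
    intro d hd h
    unfold cutC
    have hdn : d ∈ normalizer (X : Set G) := norm_of_cent fun q hq => by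
      have := mem_centralizer_iff.1 (hab hd) q (hXD hq)
      rw [← this, mul_inv_cancel_right]
    have h1 := conj_mem_cent hdn h
    by_cases hh : h ∈ centralizer (X : Set G)
    · rw [if_pos hh, if_pos (h1.2 hh), hz d hd]
    · rw [if_neg hh, if_neg fun h' => hh (h1.1 h')]
  rw [fQ_apply, fQ_apply, fQ_apply, cutC_conv p (hD.to_le hX'D) (fun d hd h => hcX d (hX'D hd) h)
    (fun d hd h => hinv.1 d (hDC (hX'D hd)) h), conv_assoc']
  have h1 : cutC X' (eP (P ⊔ X) l) = cutC (P ⊔ X') (eP (P ⊔ X) l) := by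
    funext g
    unfold cutC
    by_cases hg : g ∈ centralizer ((P ⊔ X : Subgroup G) : Set G)
    · have h2 : g ∈ centralizer (X' : Set G) ↔ g ∈ centralizer ((P ⊔ X' : Subgroup G) : Set G) := by
        constructor
        · intro h3
          have h4 : P ⊔ X' ≤ centralizer ({g} : Set G) := by
            refine sup_le (fun q hq => ?_) fun q hq => ?_
            · rw [mem_centralizer_singleton_iff]
              exact mem_centralizer_iff.1 hg q (mem_sup_left hq)
            · rw [mem_centralizer_singleton_iff]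
              exact mem_centralizer_iff.1 h3 q hq
          rw [mem_centralizer_iff]
          intro q hq
          exact mem_centralizer_singleton_iff.1 (h4 hq)
        · intro h3
          exact centralizer_le (show (X' : Set G) ⊆ ((P ⊔ X' : Subgroup G) : Set G) from
            fun q hq => mem_sup_right hq) h3
      by_cases h3 : g ∈ centralizer (X' : Set G)
      · rw [if_pos h3, if_pos (h2.1 h3)]
      · rw [if_neg h3, if_neg fun h => h3 (h2.2 h)]
    · have h4 : eP (P ⊔ X) l g = 0 := hinv.2 g hg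
      rw [h4]
      split_ifs <;> rfl
  have h2 : conv (cutC X' (eP (P ⊔ X) l)) (eP (P ⊔ X') l) = eP (P ⊔ X') l := by
    rw [h1]
    refine cut_eH hl hD hab hP2 (hP2.trans hDC) (centralizer_le (sup_le_sup_left hXX' P))
  have h3 : cutC X' (cutC X z) = cutC X' z := by
    funext g
    unfold cutC
    by_cases hg : g ∈ centralizer (X' : Set G)
    · rw [if_pos hg, if_pos hg, if_pos (centralizer_le hXX' hg)]
    · rw [if_neg hg, if_neg hg]
  rw [h2, h3]

variable (p k) in
/-- the one-step bijection -/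
def StepS : Prop :=
  ∀ (G : Type) [Group G] [Fintype G] (D P : Subgroup G) (l : (G → k) → k), BP p D l →
    IsPGroup p D → D ≤ centralizer (D : Set G) →
    ¬ p ∣ (centralizer (D : Set G)).relIndex (stabT D l) → P ≤ D → ∀ a ∈ stabT D l,
    a ∈ normalizer (P : Set G) → ∀ x ∈ D, a * x = x * a →
    (∀ t ∈ stabT D l, t ∈ centralizer (P : Set G) → t * x = x * t) →
    Set.BijOn (fun z : G → k => conv (cutC (zpowers x) z)
        (eH (centralizer ((P ⊔ zpowers x : Subgroup G) : Set G)) l))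
      (VG p (centralizer (P : Set G)) (eH (centralizer (P : Set G)) l) a : Set (G → k))
      (VG p (centralizer ((P ⊔ zpowers x : Subgroup G) : Set G))
        (eH (centralizer ((P ⊔ zpowers x : Subgroup G) : Set G)) l) a : Set (G → k))

omit [Fintype G] [IsAlgClosed k] in
theorem cutC_bot (z : G → k) : cutC (⊥ : Subgroup G) z = z := by
  funext x
  unfold cutC
  rw [if_pos]
  rw [mem_centralizer_iff]
  intro y hy
  rw [SetLike.mem_coe, mem_bot] at hy
  rw [hy, one_mul, mul_one]

/-- **the bijection for a subgroup centralised by `a`** -/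
theorem bij_Q (hS : StepS p k) (hl : BP p D l) (hD : IsPGroup p D)
    (hab : D ≤ centralizer (D : Set G))
    (hT : ¬ p ∣ (centralizer (D : Set G)).relIndex (stabT D l)) {P Q : Subgroup G} (hPD : P ≤ D)
    {a : G} (ha : a ∈ stabT D l) (haP : a ∈ normalizer (P : Set G)) (hQD : Q ≤ D)
    (hQa : ∀ q ∈ Q, a * q = q * a)
    (hQT : ∀ q ∈ Q, ∀ t ∈ stabT D l, t ∈ centralizer (P : Set G) → t * q = q * t) :
    Set.BijOn (fQ Q (eP (P ⊔ Q) l)) (VG p (centralizer (P : Set G)) (eP P l) a : Set (G → k))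
      (VG p (centralizer ((P ⊔ Q : Subgroup G) : Set G)) (eP (P ⊔ Q) l) a : Set (G → k)) := by
  let PS : Set (Subgroup G) := {X | X ≤ Q ∧ Set.BijOn (fQ X (eP (P ⊔ X) l))
    (VG p (centralizer (P : Set G)) (eP P l) a : Set (G → k))
    (VG p (centralizer ((P ⊔ X : Subgroup G) : Set G)) (eP (P ⊔ X) l) a : Set (G → k))}
  have hbot : (⊥ : Subgroup G) ∈ PS := by
    refine ⟨bot_le, ?_⟩
    rw [sup_bot_eq]
    have h1 : Set.EqOn id (fQ ⊥ (eP P l))
        (VG p (centralizer (P : Set G)) (eP P l) a : Set (G → k)) := by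
      intro z hz
      have h2 := (mem_VG.1 hz).2.2.2
      rw [fQ_apply, cutC_bot, h2]
      rfl
    exact (Set.bijOn_id _).congr h1
  obtain ⟨X, ⟨hXQ, hX⟩, hmax⟩ := (Set.toFinite PS).exists_maximal ⟨⊥, hbot⟩
  have hle : Q ≤ X := by
    intro x hxQ
    have hXD : X ≤ D := hXQ.trans hQD
    have hX'Q : X ⊔ zpowers x ≤ Q := sup_le hXQ ((zpowers_le).2 hxQ)
    have hmem : X ⊔ zpowers x ∈ PS := by
      refine ⟨hX'Q, ?_⟩
      have h1 := hS G D (P ⊔ X) l hl hD hab hT (sup_le hPD hXD) a ha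
        (norm_sup' haP (norm_of_cent fun q hq => by
          rw [hQa q (hXQ hq), mul_inv_cancel_right])) x (hQD hxQ) (hQa x hxQ)
        (fun t ht htP => hQT x hxQ t ht (centralizer_le
          (show (P : Set G) ⊆ ((P ⊔ X : Subgroup G) : Set G) from
            fun q hq => mem_sup_left hq) htP))
      rw [sup_assoc] at h1
      refine (h1.comp hX).congr ?_
      intro z hz
      have hzV := mem_VG.1 hz
      have h2 := fQ_comp (l := l) hl hD hab hPD (hX'Q.trans hQD) (le_sup_left : X ≤ X ⊔ zpowers x)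
        (z := z) (fun d hd h => hzV.2.1 d (hab.trans (centralizer_le hPD) hd) h)
      rw [← h2]
      have hw := mem_VG.1 (hX.mapsTo hz)
      change conv (cutC (zpowers x) (fQ X (eP (P ⊔ X) l) z)) (eP (P ⊔ (X ⊔ zpowers x)) l) =
        conv (cutC (X ⊔ zpowers x) (fQ X (eP (P ⊔ X) l) z)) (eP (P ⊔ (X ⊔ zpowers x)) l)
      congr 1
      funext g
      unfold cutC
      by_cases hg : a⁻¹ * g ∈ centralizer ((P ⊔ X : Subgroup G) : Set G)
      · have h3 : g ∈ centralizer ((zpowers x : Subgroup G) : Set G) ↔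
            g ∈ centralizer ((X ⊔ zpowers x : Subgroup G) : Set G) := by
          constructor
          · intro h4
            have h5 : X ⊔ zpowers x ≤ centralizer ({g} : Set G) := by
              refine sup_le (fun q hq => ?_) fun q hq => ?_
              · rw [mem_centralizer_singleton_iff]
                have h6 := mem_centralizer_iff.1 hg q (mem_sup_right hq)
                have h7 := hQa q (hXQ hq)
                calc q * g = q * a * (a⁻¹ * g) := by group
                  _ = a * (q * (a⁻¹ * g)) := by rw [← h7]; group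
                  _ = g * q := by rw [h6]; group
              · rw [mem_centralizer_singleton_iff]
                exact mem_centralizer_iff.1 h4 q hq
            rw [mem_centralizer_iff]
            intro q hq
            exact mem_centralizer_singleton_iff.1 (h5 hq)
          · intro h4
            exact centralizer_le (show ((zpowers x : Subgroup G) : Set G) ⊆
              ((X ⊔ zpowers x : Subgroup G) : Set G) from fun q hq => mem_sup_right hq) h4
        by_cases h4 : g ∈ centralizer ((zpowers x : Subgroup G) : Set G)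
        · rw [if_pos h4, if_pos (h3.1 h4)]
        · rw [if_neg h4, if_neg fun h => h4 (h3.2 h)]
      · rw [hw.1 g hg]
        split_ifs <;> rfl
    exact hmax hmem le_sup_left (mem_sup_right (mem_zpowers x))
  rw [le_antisymm hle hXQ]
  exact hX

/-- `ivF` as a linear map -/
def ivL : (G → k) →ₗ[k] (G → k) where
  toFun := ivF
  map_add' _ _ := rfl
  map_smul' _ _ := rfl

/-- **(W1)** from the one-step bijection -/
theorem w1_of (hS : StepS p k) : W1S p k := by
  intro L ζ n G _ _ D P l hl hD hab hT hPD a ha t ht haP htP hat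
  set Q : Subgroup G := D ⊓ centralizer
    ((stabT D l ⊓ centralizer (P : Set G) : Subgroup G) : Set G) ⊓ centralizer {a} with hQ
  have hQD : Q ≤ D := inf_le_left.trans inf_le_left
  have hQa : ∀ q ∈ Q, a * q = q * a := fun q hq =>
    (mem_centralizer_singleton_iff.1 (Subgroup.mem_inf.1 hq).2).symm
  have hQT : ∀ q ∈ Q, ∀ t ∈ stabT D l, t ∈ centralizer (P : Set G) → t * q = q * t :=
    fun q hq t ht htP => mem_centralizer_iff.1
      (Subgroup.mem_inf.1 (Subgroup.mem_inf.1 hq).1).2 t ⟨ht, htP⟩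
  have haQ : a ∈ normalizer (Q : Set G) := norm_of_cent fun q hq => by
    rw [hQa q hq, mul_inv_cancel_right]
  have htQ : t ∈ normalizer (Q : Set G) := norm_Q ht.1 ht htP ha hat
  have hb := bij_Q hS hl hD hab hT hPD (inv_mem ha) (inv_mem haP) hQD
    (fun q hq => by
      have := hQa q hq
      calc a⁻¹ * q = a⁻¹ * (q * a) * a⁻¹ := by group
        _ = q * a⁻¹ := by rw [← this]; group) hQT
  have hPQ : P ⊔ Q ≤ D := sup_le hPD hQD
  have haC : a ∈ normalizer ((centralizer (P : Set G) : Subgroup G) : Set G) := norm_cent haP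
  have haC' : a ∈ normalizer ((centralizer ((P ⊔ Q : Subgroup G) : Set G) : Subgroup G) :
      Set G) := norm_cent (norm_sup' haP haQ)
  have hmaps : ∀ ψ ∈ LG p (centralizer (P : Set G)) (eH (centralizer (P : Set G)) l) a,
      (ivL.comp ((fQ Q (eP (P ⊔ Q) l)).comp ivL)) ψ ∈
        LG p (centralizer ((P ⊔ Q : Subgroup G) : Set G))
          (eH (centralizer ((P ⊔ Q : Subgroup G) : Set G)) l) a := by
    intro ψ hψ
    rw [← ivF_mem_iff haC']
    change ivF (ivF (fQ Q (eP (P ⊔ Q) l) (ivF ψ))) ∈ _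
    rw [ivF_ivF]
    exact hb.mapsTo ((ivF_mem_iff haC).2 hψ)
  let F := (ivL.comp ((fQ Q (eP (P ⊔ Q) l)).comp ivL)).restrict hmaps
  have hF : ∀ ψ, (F ψ : G → k) = ivF (fQ Q (eP (P ⊔ Q) l) (ivF (ψ : G → k))) := fun _ => rfl
  have hbij : Function.Bijective F := by
    constructor
    · intro ψ ψ' h
      have h1 := congrArg Subtype.val h
      rw [hF, hF] at h1
      have h2 := congrArg ivF h1
      rw [ivF_ivF, ivF_ivF] at h2
      have h3 := hb.injOn ((ivF_mem_iff haC).2 ψ.2) ((ivF_mem_iff haC).2 ψ'.2) h2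
      have h4 := congrArg ivF h3
      rw [ivF_ivF, ivF_ivF] at h4
      exact Subtype.ext h4
    · intro ψ'
      obtain ⟨z, hz, hzz⟩ := hb.surjOn ((ivF_mem_iff haC').2 ψ'.2)
      refine ⟨⟨ivF z, ?_⟩, ?_⟩
      · rw [← ivF_mem_iff haC, ivF_ivF]
        exact hz
      · refine Subtype.ext ?_
        rw [hF]
        change ivF (fQ Q (eP (P ⊔ Q) l) (ivF (ivF z))) = _
        rw [ivF_ivF, hzz, ivF_ivF]
  have hetP : P179Y.cj t (eP P l) = eP P l := cj_eP hl hD hab hPD ht htP
  have hetPQ : P179Y.cj t (eP (P ⊔ Q) l) = eP (P ⊔ Q) l :=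
    cj_eP hl hD hab hPQ ht (norm_sup' htP htQ)
  refine bt_congr (LinearEquiv.ofBijective F hbij)
    (fun ψ hψ => cj_mem_LG (norm_cent htP) hetP hat haC hψ) (fun ψ => ?_) L ζ n
  change (F ⟨P179Y.cj t ψ, _⟩ : G → k) = P179Y.cj t (F ψ : G → k)
  rw [hF, hF]
  change ivF (fQ Q (eP (P ⊔ Q) l) (ivF (P179Y.cj t (ψ : G → k)))) = _
  rw [ivF_cj, fQ_cj htQ hetPQ, ivF_cj]

end main

end P179H46
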