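import Mathlib

/-!
# Theorem M, the arithmetic
-/

namespace P179H46

theorem arith_three_lt {p e q w : ℕ} (hp : 3 ≤ p) (he1 : 1 ≤ e) (he : e + 1 < p)
    (hwq : w ≤ q) (h3 : p ^ 3 * (q - w) ≤ (e - 1) * q) :
    q * (p ^ 3 - (p - 1) * (p - 3)) + p ^ 3 * (q * e) ≤ p ^ 3 * ((p - 1) * w) := by
  obtain ⟨c, rfl⟩ : ∃ c, q = w + c := ⟨q - w, by omega⟩
  obtain ⟨f, rfl⟩ : ∃ f, e = f + 1 := ⟨e - 1, by omega⟩
  obtain ⟨t, rfl⟩ : ∃ t, p = f + 3 + t := ⟨p - f - 3, by omega⟩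
  have e1 : w + c - w = c := by omega
  have e2 : f + 1 - 1 = f := by omega
  have e3 : f + 3 + t - 1 = f + t + 2 := by omega
  have e4 : f + 3 + t - 3 = f + t := by omega
  rw [e1, e2] at h3
  rw [e3, e4]
  have h5 : (f + t + 2) * (f + t) ≤ (f + 3 + t) ^ 3 := by
    have h6 : (f + t + 2) * (f + t) ≤ (f + 3 + t) * (f + 3 + t) :=
      Nat.mul_le_mul (by omega) (by omega)
    refine h6.trans ?_
    rw [pow_succ, pow_two]
    exact Nat.le_mul_of_pos_right _ (by omega)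
  generalize (f + 3 + t) ^ 3 = P at h3 h5 ⊢
  zify [h5] at h3 ⊢
  have h7 : (0 : ℤ) ≤ (f + t + 2 : ℤ) := by positivity
  have h8 := mul_le_mul_of_nonneg_left h3 h7
  have h9 : (0 : ℤ) ≤ (w + c : ℤ) * (P * t + (f + t + 2) * t) := by positivity
  nlinarith [h8, h9]

/-- **the arithmetic of Theorem M** -/
theorem arith_three {p e q w l : ℕ} (hp : 3 ≤ p) (he1 : 1 ≤ e) (he : e + 1 < p) (hq : 0 < q)
    (hwq : w ≤ q) (h3 : p ^ 3 * (q - w) ≤ (e - 1) * q)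
    (hl : e * q < (p - 1) * w →
      l * ((p - 1) * w - q * e) ^ 2 ≤ (p - 2) ^ 2 * (q * e * w)) : l ≤ p ^ 3 := by
  have hlt := arith_three_lt hp he1 he hwq h3
  obtain ⟨r, rfl⟩ : ∃ r, p = r + 3 := ⟨p - 3, by omega⟩
  have e1 : r + 3 - 1 = r + 2 := by omega
  have e2 : r + 3 - 2 = r + 1 := by omega
  have e3 : r + 3 - 3 = r := by omega
  rw [e1, e3] at hlt
  rw [e1, e2] at hl
  have h5 : (r + 2) * r < (r + 3) ^ 3 := by
    have h6 : (r + 3) ^ 3 = (r + 2) * r + (r ^ 3 + 8 * r ^ 2 + 25 * r + 27) := by ring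
    omega
  obtain ⟨s, hs⟩ : ∃ s, (r + 3) ^ 3 = (r + 2) * r + s := ⟨(r + 3) ^ 3 - (r + 2) * r, by omega⟩
  have hs0 : 0 < s := by omega
  have hs1 : (r + 3) ^ 3 - (r + 2) * r = s := by omega
  rw [hs1] at hlt
  have hP : 0 < (r + 3) ^ 3 := by positivity
  -- the strict inequality
  have hlt2 : q * e < (r + 2) * w := by
    by_contra h
    push Not at h
    have h6 := Nat.mul_le_mul_left ((r + 3) ^ 3) h
    have h7 : 0 < q * s := Nat.mul_pos hq hs0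
    omega
  have hl1 := hl (by rwa [mul_comm e q])
  obtain ⟨d, hd⟩ : ∃ d, (r + 2) * w = q * e + d := ⟨(r + 2) * w - q * e, by omega⟩
  have hd1 : (r + 2) * w - q * e = d := by omega
  rw [hd1] at hl1
  rw [hd] at hlt
  have hqs : q * s ≤ (r + 3) ^ 3 * d := by
    have h6 : (r + 3) ^ 3 * (q * e + d) = (r + 3) ^ 3 * (q * e) + (r + 3) ^ 3 * d := mul_add _ _ _
    omega
  -- `s ^ 2 ≥ p ^ 3 (p - 2) ^ 3`
  have hs2 : (r + 3) ^ 3 * (r + 1) ^ 3 ≤ s ^ 2 := by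
    have h6 : s = (r + 3) ^ 3 - (r + 2) * r := hs1.symm
    have h7 : (s : ℤ) = (r + 3) ^ 3 - (r + 2) * r := by
      have := congrArg (fun x : ℕ => (x : ℤ)) hs
      push_cast at this
      linarith
    have h8 : ((r : ℤ) + 3) ^ 3 * (r + 1) ^ 3 ≤ (s : ℤ) ^ 2 := by
      rw [h7]
      have hr : (0 : ℤ) ≤ r := by positivity
      have h9 : (((r : ℤ) + 3) ^ 3 - (r + 2) * r) ^ 2 - ((r : ℤ) + 3) ^ 3 * (r + 1) ^ 3 =
          ((r : ℤ) + 3) ^ 3 * (((r : ℤ) + 3) ^ 3 - 2 * ((r + 2) * r) - (r + 1) ^ 3) +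
            ((r + 2) * r) ^ 2 := by ring
      have h10 : ((r : ℤ) + 3) ^ 3 - 2 * ((r + 2) * r) - (r + 1) ^ 3 =
          4 * r ^ 2 + 20 * r + 26 := by ring
      have h11 : (0 : ℤ) ≤ ((r : ℤ) + 3) ^ 3 * (4 * r ^ 2 + 20 * r + 26) + ((r + 2) * r) ^ 2 := by
        positivity
      rw [h10] at h9
      linarith
    exact_mod_cast h8
  -- `q ^ 2 (p - 2) ^ 3 ≤ p ^ 3 d ^ 2`
  have h12 : q ^ 2 * (r + 1) ^ 3 ≤ (r + 3) ^ 3 * d ^ 2 := by
    have h13 : (r + 3) ^ 3 * (q ^ 2 * (r + 1) ^ 3) ≤ (r + 3) ^ 3 * ((r + 3) ^ 3 * d ^ 2) := by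
      calc (r + 3) ^ 3 * (q ^ 2 * (r + 1) ^ 3) = q ^ 2 * ((r + 3) ^ 3 * (r + 1) ^ 3) := by ring
        _ ≤ q ^ 2 * s ^ 2 := Nat.mul_le_mul_left _ hs2
        _ = (q * s) ^ 2 := by ring
        _ ≤ ((r + 3) ^ 3 * d) ^ 2 := Nat.pow_le_pow_left hqs 2
        _ = _ := by ring
    exact Nat.le_of_mul_le_mul_left h13 hP
  have h14 : (r + 1) ^ 2 * (q * e * w) ≤ (r + 3) ^ 3 * d ^ 2 := by
    refine le_trans ?_ h12
    calc (r + 1) ^ 2 * (q * e * w) ≤ (r + 1) ^ 2 * (q * (r + 1) * q) :=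
          Nat.mul_le_mul_left _ (Nat.mul_le_mul (Nat.mul_le_mul_left _ (by omega)) hwq)
      _ = _ := by ring
  have hd0 : 0 < d := by omega
  have h15 : l * d ^ 2 ≤ (r + 3) ^ 3 * d ^ 2 := hl1.trans h14
  exact Nat.le_of_mul_le_mul_right h15 (by positivity)

end P179H46
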