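import Vale.Agent.P179.R2.H46.Low22
import Vale.Agent.P179.R2.H443.LemA

/-!
# The upper bound of the count for `C_{p²} × C_{p²}`
-/

namespace P179H46

open Finset P179P P179I Polynomial

open scoped Classical

section

variable {ι : Type*} [Fintype ι]

/-- the norm of a vector, restricted to a subset -/
theorem sum_norm_le (X : Finset ι) (v : ι → ℂ) {M : ℝ}
    (h : ∑ χ, v χ * (starRingEnd ℂ) (v χ) = (M : ℂ)) : ∑ χ ∈ X, ‖v χ‖ ^ 2 ≤ M := by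
  have h1 : ((∑ χ, ‖v χ‖ ^ 2 : ℝ) : ℂ) = (M : ℂ) := by
    rw [← h]
    push_cast
    refine sum_congr rfl fun χ _ => ?_
    rw [Complex.mul_conj, Complex.normSq_eq_norm_sq]
    push_cast
    rfl
  have h2 : ∑ χ, ‖v χ‖ ^ 2 = M := by exact_mod_cast h1
  rw [← h2]
  exact Finset.sum_le_sum_of_subset_of_nonneg (subset_univ _) fun _ _ _ => sq_nonneg _

/-- **(b)**: columns indexed by `Y`, with Gram matrix counting coincidences, all equal to `C0`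
on `X` -/
theorem bes_b {Y A : Type*} [Fintype Y] [Fintype A] (X : Finset ι) (c : Y → ι → ℂ) (q : ℕ)
    (act : A → Y → Y) (hG : ∀ y y', ∑ χ, c y χ * (starRingEnd ℂ) (c y' χ) =
      (q : ℂ) * ((univ.filter fun a => act a y = y').card : ℂ))
    (C0 : ι → ℂ) (hc : ∀ χ ∈ X, ∀ y, c y χ = C0 χ) :
    (Fintype.card Y : ℝ) * ∑ χ ∈ X, ‖C0 χ‖ ^ 2 ≤ q * Fintype.card A := by
  rcases Nat.eq_zero_or_pos (Fintype.card Y) with h0 | h0
  · rw [h0]
    simp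
    positivity
  have h1 := P179H443.norm_comb c (q : ℂ) act hG (fun _ => 1)
  have h2 := sum_norm_le X (fun χ => ∑ y, 1 * c y χ) (M := (q * (Fintype.card A * Fintype.card Y) : ℕ))
    (by
      rw [h1]
      simp [card_univ])
  have h3 : ∑ χ ∈ X, ‖∑ y, 1 * c y χ‖ ^ 2 = (Fintype.card Y : ℝ) ^ 2 * ∑ χ ∈ X, ‖C0 χ‖ ^ 2 := by
    rw [mul_sum]
    refine sum_congr rfl fun χ hχ => ?_
    have h4 : ∑ y, 1 * c y χ = (Fintype.card Y : ℂ) * C0 χ := by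
      simp only [one_mul]
      rw [sum_congr rfl fun y _ => hc χ hχ y, sum_const, card_univ, nsmul_eq_mul]
    rw [h4, norm_mul, Complex.norm_natCast, mul_pow]
  rw [h3] at h2
  have h5 : (0 : ℝ) < Fintype.card Y := by exact_mod_cast h0
  push_cast at h2
  have h6 : (Fintype.card Y : ℝ) * ((Fintype.card Y : ℝ) * ∑ χ ∈ X, ‖C0 χ‖ ^ 2) ≤
      (Fintype.card Y : ℝ) * (q * Fintype.card A) := by
    calc (Fintype.card Y : ℝ) * ((Fintype.card Y : ℝ) * ∑ χ ∈ X, ‖C0 χ‖ ^ 2) =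
        (Fintype.card Y : ℝ) ^ 2 * ∑ χ ∈ X, ‖C0 χ‖ ^ 2 := by ring
      _ ≤ _ := h2
      _ = _ := by ring
  exact le_of_mul_le_mul_left h6 h5

/-- **(c)**: differences of the columns -/
theorem bes_c {I : Type*} [Fintype I] [Nonempty I] (X : Finset ι) (v : I → ι → ℂ) {M : ℝ}
    (hv : ∀ i j, ∑ χ, v i χ * (starRingEnd ℂ) (v j χ) = if i = j then (M : ℂ) else 0)
    (v0 : ι → ℂ) (hv0 : ∀ χ ∈ X, ∀ i, v i χ = v0 χ) :
    (Fintype.card I : ℝ) * ∑ χ ∈ X, ‖v0 χ‖ ^ 2 ≤ M := by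
  have h0 : 0 < Fintype.card I := Fintype.card_pos
  have h1 : ∑ χ, (∑ i, v i χ) * (starRingEnd ℂ) (∑ i, v i χ) =
      (((Fintype.card I : ℝ) * M : ℝ) : ℂ) := by
    have h2 : ∀ χ, (∑ i, v i χ) * (starRingEnd ℂ) (∑ i, v i χ) =
        ∑ i, ∑ j, v i χ * (starRingEnd ℂ) (v j χ) := by
      intro χ
      rw [map_sum, sum_mul_sum]
    rw [sum_congr rfl fun χ _ => h2 χ, sum_comm]
    have h3 : ∀ i, ∑ χ, ∑ j, v i χ * (starRingEnd ℂ) (v j χ) = (M : ℂ) := by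
      intro i
      rw [sum_comm, sum_congr rfl fun j _ => hv i j, sum_ite_eq]
      simp
    rw [sum_congr rfl fun i _ => h3 i, sum_const, card_univ, nsmul_eq_mul]
    push_cast
    rfl
  have h2 := sum_norm_le X _ h1
  have h3 : ∑ χ ∈ X, ‖∑ i, v i χ‖ ^ 2 = (Fintype.card I : ℝ) ^ 2 * ∑ χ ∈ X, ‖v0 χ‖ ^ 2 := by
    rw [mul_sum]
    refine sum_congr rfl fun χ hχ => ?_
    have h4 : ∑ i, v i χ = (Fintype.card I : ℂ) * v0 χ := by
      rw [sum_congr rfl fun i _ => hv0 χ hχ i, sum_const, card_univ, nsmul_eq_mul]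
    rw [h4, norm_mul, Complex.norm_natCast, mul_pow]
  rw [h3] at h2
  have h5 : (0 : ℝ) < Fintype.card I := by exact_mod_cast h0
  have h6 : (Fintype.card I : ℝ) * ((Fintype.card I : ℝ) * ∑ χ ∈ X, ‖v0 χ‖ ^ 2) ≤
      (Fintype.card I : ℝ) * M := by
    calc (Fintype.card I : ℝ) * ((Fintype.card I : ℝ) * ∑ χ ∈ X, ‖v0 χ‖ ^ 2) =
        (Fintype.card I : ℝ) ^ 2 * ∑ χ ∈ X, ‖v0 χ‖ ^ 2 := by ring
      _ ≤ _ := h2
  exact le_of_mul_le_mul_left h6 h5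

/-- **the upper bound of the count** -/
theorem hle22 {Y A I : Type*} [Fintype Y] [Fintype A] [Fintype I] (X : Finset ι) {p s : ℕ}
    (hp : 0 < p) (c : Y → ι → ℂ) (act : A → Y → Y) (hY : Fintype.card Y = p ^ 2)
    (hA : Fintype.card A = s) (hI : Fintype.card I = p)
    (hG : ∀ y y', ∑ χ, c y χ * (starRingEnd ℂ) (c y' χ) =
      ((p ^ 4 : ℕ) : ℂ) * ((univ.filter fun a => act a y = y').card : ℂ))
    (C0 : ι → ℂ) (hc : ∀ χ ∈ X, ∀ y, c y χ = C0 χ)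
    (x : I → Fin s → ι → ℂ) (x0 : Fin s → ι → ℂ) (hx0 : ∀ χ ∈ X, ∀ i k, x i k χ = x0 k χ) {m : ℕ}
    (hx : ∀ i j k l, ∑ χ, x i k χ * (starRingEnd ℂ) (x j l χ) =
      if i = j then (p : ℂ) ^ 2 * ((if k = l then 1 else 0) + m) else 0) :
    ∑ χ ∈ X, (‖C0 χ‖ ^ 2 + (p : ℝ) / 2 * ∑ k, ∑ l, ‖x0 k χ - x0 l χ‖ ^ 2) ≤
      (p : ℝ) ^ 2 * (s : ℝ) ^ 2 := by
  have hp' : (0 : ℝ) < p := by exact_mod_cast hp
  have hne : Nonempty I := Fintype.card_pos_iff.1 (by rw [hI]; exact hp)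
  -- (b)
  have hb : ∑ χ ∈ X, ‖C0 χ‖ ^ 2 ≤ (p : ℝ) ^ 2 * s := by
    have h1 := bes_b X c (p ^ 4) act hG C0 hc
    rw [hY, hA] at h1
    push_cast at h1
    have h2 : (p : ℝ) ^ 2 * ∑ χ ∈ X, ‖C0 χ‖ ^ 2 ≤ (p : ℝ) ^ 2 * ((p : ℝ) ^ 2 * s) := by
      calc _ ≤ _ := h1
        _ = _ := by ring
    exact le_of_mul_le_mul_left h2 (by positivity)
  -- (c)
  have hcc : ∀ k l, k ≠ l → ∑ χ ∈ X, ‖x0 k χ - x0 l χ‖ ^ 2 ≤ 2 * (p : ℝ) := by
    intro k l hkl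
    have h1 := bes_c X (fun i χ => x i k χ - x i l χ) (M := 2 * (p : ℝ) ^ 2) (by
      intro i j
      have h2 : ∀ χ, (x i k χ - x i l χ) * (starRingEnd ℂ) (x j k χ - x j l χ) =
          x i k χ * (starRingEnd ℂ) (x j k χ) - x i k χ * (starRingEnd ℂ) (x j l χ) -
            (x i l χ * (starRingEnd ℂ) (x j k χ) - x i l χ * (starRingEnd ℂ) (x j l χ)) := by
        intro χ
        rw [map_sub]
        ring
      rw [sum_congr rfl fun χ _ => h2 χ, sum_sub_distrib, sum_sub_distrib, sum_sub_distrib,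
        hx, hx, hx, hx]
      by_cases hij : i = j
      · rw [if_pos hij, if_pos hij, if_pos hij, if_pos hij, if_pos hij, if_pos rfl, if_pos rfl,
          if_neg hkl, if_neg (Ne.symm hkl)]
        push_cast
        ring
      · rw [if_neg hij, if_neg hij, if_neg hij, if_neg hij, if_neg hij]
        ring) (fun χ => x0 k χ - x0 l χ) (fun χ hχ i => by
          rw [hx0 χ hχ, hx0 χ hχ])
    rw [hI] at h1
    have h2 : (p : ℝ) * ∑ χ ∈ X, ‖x0 k χ - x0 l χ‖ ^ 2 ≤ (p : ℝ) * (2 * p) := by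
      calc _ ≤ _ := h1
        _ = _ := by ring
    exact le_of_mul_le_mul_left h2 hp'
  have hsum : ∑ χ ∈ X, ∑ k, ∑ l, ‖x0 k χ - x0 l χ‖ ^ 2 ≤ (s : ℝ) * ((s : ℝ) - 1) * (2 * p) := by
    rw [sum_comm]
    have h1 : ∀ k : Fin s, ∑ χ ∈ X, ∑ l, ‖x0 k χ - x0 l χ‖ ^ 2 ≤ ((s : ℝ) - 1) * (2 * p) := by
      intro k
      rw [sum_comm]
      have h2 : ∀ l : Fin s, ∑ χ ∈ X, ‖x0 k χ - x0 l χ‖ ^ 2 ≤ if l = k then 0 else 2 * (p : ℝ) := by
        intro l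
        by_cases hl : l = k
        · rw [if_pos hl, hl]
          simp
        · rw [if_neg hl]
          exact hcc k l (Ne.symm hl)
      refine (sum_le_sum fun l _ => h2 l).trans (le_of_eq ?_)
      rw [Finset.sum_ite, sum_const_zero, zero_add, sum_const, nsmul_eq_mul]
      congr 1
      have h3 : (univ.filter fun l : Fin s => ¬ l = k) = univ.erase k := by
        ext l
        simp
      rw [h3, card_erase_of_mem (mem_univ _), card_univ, Fintype.card_fin]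
      have hs : 1 ≤ s := by
        have := k.2
        omega
      push_cast [Nat.cast_sub hs]
      ring
    refine (sum_le_sum fun k _ => h1 k).trans (le_of_eq ?_)
    rw [sum_const, card_univ, Fintype.card_fin, nsmul_eq_mul]
    ring
  rw [sum_add_distrib, ← mul_sum]
  have h3 : (p : ℝ) / 2 * ∑ χ ∈ X, ∑ k, ∑ l, ‖x0 k χ - x0 l χ‖ ^ 2 ≤
      (p : ℝ) / 2 * ((s : ℝ) * ((s : ℝ) - 1) * (2 * p)) :=
    mul_le_mul_of_nonneg_left hsum (by positivity)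
  have e : (p : ℝ) ^ 2 * (s : ℝ) ^ 2 =
      (p : ℝ) ^ 2 * s + (p : ℝ) / 2 * ((s : ℝ) * ((s : ℝ) - 1) * (2 * p)) := by ring
  rw [e]
  linarith

/-- **the upper bound of the count**, with the sign -/
theorem bes22 {Y A I : Type*} [Fintype Y] [Fintype A] [Fintype I] (X : Finset ι) {p s : ℕ}
    (hp : 0 < p) (c : Y → ι → ℂ) (act : A → Y → Y) (hY : Fintype.card Y = p ^ 2)
    (hA : Fintype.card A = s) (hI : Fintype.card I = p)
    (hG : ∀ y y', ∑ χ, c y χ * (starRingEnd ℂ) (c y' χ) =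
      (p : ℂ) ^ 4 * ((univ.filter fun a => act a y = y').card : ℂ))
    (x : I → Fin s → ι → ℂ) {m : ℕ}
    (hx : ∀ i j k l, ∑ χ, x i k χ * (starRingEnd ℂ) (x j l χ) =
      if i = j then (p : ℂ) ^ 2 * ((if k = l then 1 else 0) + m) else 0)
    (i₀ : I) {τ : ℂ} (hτ : ‖τ‖ = 1) (hx0 : ∀ χ ∈ X, ∀ i k, x i k χ = x i₀ k χ)
    (hc : ∀ χ ∈ X, ∀ y, c y χ = τ * ∑ k, x i₀ k χ) :
    ∑ χ ∈ X, (‖∑ k, x i₀ k χ‖ ^ 2 +
        (p : ℝ) / 2 * ∑ k, ∑ l, ‖x i₀ k χ - x i₀ l χ‖ ^ 2) ≤ (p : ℝ) ^ 2 * (s : ℝ) ^ 2 := by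
  have h1 := hle22 X hp c act hY hA hI (by
    intro y y'
    rw [hG]
    push_cast
    rfl) (fun χ => τ * ∑ k, x i₀ k χ) hc x (x i₀) hx0 hx
  have h2 : ∀ χ, ‖τ * ∑ k, x i₀ k χ‖ = ‖∑ k, x i₀ k χ‖ := fun χ => by rw [norm_mul, hτ, one_mul]
  simpa only [h2] using h1

end

end P179H46
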