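import Vale.Agent.P179.R2.H452.MDef

/-!
# The sums over the cosets: integrality and norm
-/

namespace P179H46

open Finset P179P P179C P179Y Subgroup P179H524 P179I P179H452

open P179X (pp SameSec)

open scoped Classical IsMulCommutative

universe v

set_option linter.unusedSectionVars false

section

variable {p : ℕ} [hp : Fact p.Prime] {k : Type v} [Field k] [CharP k p] {red : AA →+* k}
  {G : Type} [Group G] [Fintype G] {D : Subgroup G} {l : (G → k) → k}
  {Φ : ∀ H : Subgroup G, Irr H} {aH bH : Subgroup G → ℕ} {ε : Subgroup G → ℤ} {κ₀ : k}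

/-- sums over a coset -/
theorem sum_over_coset (Y : Subgroup D) (w : D) (F : Additive D → AA) :
    ∑ b : Additive D, (if w⁻¹ * b.toMul ∈ Y then F b else 0) =
      ∑ y : Y, F (Additive.ofMul (w * (y : D))) := by
  rw [← Finset.sum_filter]
  symm
  refine Finset.sum_bij (fun y _ => Additive.ofMul (w * (y : D))) ?_ ?_ ?_ ?_
  · intro y _
    rw [mem_filter]
    refine ⟨mem_univ _, ?_⟩
    rw [toMul_ofMul, inv_mul_cancel_left]
    exact y.2
  · intro y _ y' _ hyy
    exact Subtype.ext (mul_left_cancel (Additive.ofMul.injective hyy))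
  · intro b hb
    refine ⟨⟨w⁻¹ * b.toMul, (mem_filter.1 hb).2⟩, mem_univ _, ?_⟩
    change Additive.ofMul (w * (w⁻¹ * b.toMul)) = b
    rw [mul_inv_cancel_left, ofMul_toMul]
  · intro y _
    rfl

/-- the function `|D : Y| 1_{w Y}` is an integral combination of linear characters -/
theorem RI_coset [IsMulCommutative D] {a n : ℕ} (ha : Nat.card D = p ^ a) (Y : Subgroup D)
    (hY : Nat.card Y = p ^ n) (w : D) :
    RI (fun b : Additive D => if w⁻¹ * b.toMul ∈ Y then ((p ^ (a - n) : ℕ) : AA) else 0) := by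
  have hna : n ≤ a := by
    have h1 : Nat.card Y ∣ Nat.card D := Subgroup.card_subgroup_dvd_card Y
    rw [hY, ha] at h1
    exact (Nat.pow_dvd_pow_iff_le_right hp.out.one_lt).1 h1
  have hcardA : Fintype.card (Additive D) = p ^ a := by
    rw [← ha, Nat.card_eq_fintype_card, Fintype.card_congr (Additive.toMul (α := D))]
  refine RI.of_coeff fun ψ => ?_
  set ρ : AddChar (Additive Y) ℂ := (-ψ).compAddMonoidHom (MonoidHom.toAdditive Y.subtype) with hρ
  refine ⟨lamA ψ (-(Additive.ofMul w)) * (if ρ = 0 then 1 else 0), ?_⟩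
  have h1 : ∑ b : Additive D, (if w⁻¹ * b.toMul ∈ Y then ((p ^ (a - n) : ℕ) : AA) else 0) *
      lamA ψ (-b) = ∑ b : Additive D, (if w⁻¹ * b.toMul ∈ Y then
        ((p ^ (a - n) : ℕ) : AA) * lamA ψ (-b) else 0) := by
    refine Finset.sum_congr rfl fun b _ => ?_
    split_ifs
    · rfl
    · rw [zero_mul]
  rw [h1, sum_over_coset Y w]
  have h2 : ∀ y : Y, ((p ^ (a - n) : ℕ) : AA) * lamA ψ (-(Additive.ofMul (w * (y : D)))) =
      ((p ^ (a - n) : ℕ) : AA) * lamA ψ (-(Additive.ofMul w)) * lamA ρ (Additive.ofMul y) := by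
    intro y
    rw [ofMul_mul, neg_add, lamA_map_add, mul_assoc]
    congr 2
  rw [Finset.sum_congr rfl fun y _ => h2 y, ← Finset.mul_sum]
  have h3 : ∑ y : Y, lamA ρ (Additive.ofMul y) = if ρ = 0 then ((p ^ n : ℕ) : AA) else 0 := by
    have h4 : ∑ y : Y, lamA ρ (Additive.ofMul y) = ∑ y : Additive Y, lamA ρ y :=
      Fintype.sum_equiv Additive.ofMul _ _ fun _ => rfl
    rw [h4]
    apply Subtype.ext
    push_cast
    simp only [lamA_coe]
    rw [AddChar.sum_eq_ite]
    have h5 : Fintype.card (Additive Y) = p ^ n := by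
      rw [← hY, Nat.card_eq_fintype_card, Fintype.card_congr (Additive.toMul (α := Y))]
    rw [h5]
    split_ifs
    · push_cast; rfl
    · rfl
  rw [h3, hcardA]
  split_ifs
  · rw [mul_one]
    have h6 : ((p ^ a : ℕ) : AA) = ((p ^ (a - n) : ℕ) : AA) * ((p ^ n : ℕ) : AA) := by
      rw [← Nat.cast_mul, ← pow_add, Nat.sub_add_cancel hna]
    rw [h6]
    ring
  · rw [mul_zero, mul_zero, mul_zero]

include hp in
/-- **integrality of the sums over the cosets** -/
theorem sY_mem [IsAlgClosed k] [IsMulCommutative D] (h : LocR p red D l Φ aH bH ε κ₀)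
    (hl : BP p D l) (hD : IsPGroup p D) (hab : D ≤ centralizer (D : Set G)) (hp2 : p ≠ 2)
    (he : ((centralizer (D : Set G)).relIndex (stabT D l) : k) ≠ 0) (Y : Subgroup D) {n : ℕ}
    (hY : Nat.card Y = p ^ n) (w : D)
    (hW : ∀ y ∈ Y, RegT D l ((w * y : D) : G) ∧ ((w * y : D) : G) ≠ 1) (χ : Irr G) :
    sY p D Φ ε Y w χ ∈ QN p red n := by
  obtain ⟨a, ha⟩ := IsPGroup.iff_card.1 hD
  have hna : n ≤ a := by
    have h1 : Nat.card Y ∣ Nat.card D := Subgroup.card_subgroup_dvd_card Y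
    rw [hY, ha] at h1
    exact (Nat.pow_dvd_pow_iff_le_right hp.out.one_lt).1 h1
  have h1 := h.int hl hD hab hp2 he ha _ (RI_coset (p := p) ha Y hY w) (by
    intro b hb
    rw [if_neg]
    intro hb2
    apply hb
    have := hW _ hb2
    rw [mul_inv_cancel_left] at this
    exact this) χ
  have h2 : ∑ b : Additive D, (if w⁻¹ * b.toMul ∈ Y then ((p ^ (a - n) : ℕ) : AA) else 0) *
      Ad p D Φ ε (b.toMul : G) χ = (p : AA) ^ (a - n) * sY p D Φ ε Y w χ := by
    have h3 : ∑ b : Additive D, (if w⁻¹ * b.toMul ∈ Y then ((p ^ (a - n) : ℕ) : AA) else 0) *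
        Ad p D Φ ε (b.toMul : G) χ = ∑ b : Additive D, (if w⁻¹ * b.toMul ∈ Y then
          ((p ^ (a - n) : ℕ) : AA) * Ad p D Φ ε (b.toMul : G) χ else 0) := by
      refine Finset.sum_congr rfl fun b _ => ?_
      split_ifs
      · rfl
      · rw [zero_mul]
    rw [h3, sum_over_coset Y w, ← Finset.mul_sum]
    push_cast
    rfl
  rw [h2] at h1
  refine mem_QN_of_mul (a := a - n) ?_
  rw [Nat.add_sub_cancel' hna]
  exact h1

/-- the `i`-th powers of the elements of the coset `w Y` -/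
theorem coset_pow [IsMulCommutative D] {Y : Subgroup D} {w : D} {i : ℕ}
    (hi : (Nat.card D).Coprime i) {y : D} (hy : y ∈ Y) :
    ∃ y' ∈ Y, w ^ i * y = (w * y') ^ i := by
  have hi' : (Nat.card Y).Coprime i :=
    Nat.Coprime.coprime_dvd_left (Subgroup.card_subgroup_dvd_card Y) hi
  obtain ⟨y', hy'⟩ := (powCoprime hi').surjective ⟨y, hy⟩
  refine ⟨y', y'.2, ?_⟩
  rw [mul_pow]
  congr 1
  exact (congrArg Subtype.val hy').symm

/-- the coset of a power -/
theorem coset_reg [IsMulCommutative D] {Y : Subgroup D} {w : D}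
    (hW : ∀ y ∈ Y, RegT D l ((w * y : D) : G) ∧ ((w * y : D) : G) ≠ 1) {i : ℕ}
    (hi : (Nat.card D).Coprime i) :
    ∀ y ∈ Y, RegT D l ((w ^ i * y : D) : G) ∧ ((w ^ i * y : D) : G) ≠ 1 := by
  intro y hy
  obtain ⟨y', hy', e⟩ := coset_pow (w := w) hi hy
  have h1 := hW y' hy'
  have hcop : (orderOf ((w * y' : D) : G)).Coprime i := by
    refine Nat.Coprime.coprime_dvd_left ?_ hi
    rw [Subgroup.orderOf_coe]
    exact orderOf_dvd_natCard _
  have e' : ((w ^ i * y : D) : G) = ((w * y' : D) : G) ^ i := by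
    rw [e]
    rfl
  rw [e']
  exact ⟨RegT.pow' h1.1 hcop, ne_one_of_coprime hcop h1.2⟩

include hp in
/-- **the norm of the sums over the cosets** -/
theorem sY_norm [IsAlgClosed k] [IsMulCommutative D] (h : LocR p red D l Φ aH bH ε κ₀)
    (hl : BP p D l) (hD : IsPGroup p D) (hab : D ≤ centralizer (D : Set G)) (hp2 : p ≠ 2)
    (he : ((centralizer (D : Set G)).relIndex (stabT D l) : k) ≠ 0) (Y : Subgroup D) {n : ℕ}
    (hY : Nat.card Y = p ^ n) (w : D)
    (hW : ∀ y ∈ Y, RegT D l ((w * y : D) : G) ∧ ((w * y : D) : G) ≠ 1) (χ : Irr G)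
    (hne : sY p D Φ ε Y w χ ≠ 0) [NeZero (ordProj[p] (Nat.card G))] :
    (Fintype.card (ZMod (ordProj[p] (Nat.card G)))ˣ : ℝ) * (p : ℝ) ^ (2 * n) ≤
      ∑ δ : (ZMod (ordProj[p] (Nat.card G)))ˣ,
        ‖(sY p D Φ ε Y (w ^ (δ : ZMod (ordProj[p] (Nat.card G))).val) χ : ℂ)‖ ^ 2 := by
  set q := Nat.card D with hqdef
  have hq : q ≠ 0 := Nat.card_pos.ne'
  set N := ordProj[p] (Nat.card G) with hN
  have hN0 : N ≠ 0 := pow_ne_zero _ hp.out.ne_zero
  have huN : ∀ u ∈ D, u ^ N = 1 := fun u hu => pow_ordProj_eq_one hD hu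
  set ζ : ℂ := Complex.exp (2 * Real.pi * Complex.I / N) with hζdef
  have hζ : IsPrimitiveRoot ζ N := Complex.isPrimitiveRoot_exp N hN0
  obtain ⟨m₀, hm₀, -, hgen₀⟩ := P179P.exists_exponent (p := p) hp2 (Nat.card G) Nat.card_pos.ne'
  have hm₀N : m₀.Coprime N := Nat.Coprime.coprime_dvd_right (Nat.ordProj_dvd _ _) hm₀
  have hgen₀' : ∀ j : ℕ, j.Coprime N → ∃ i : ℕ, m₀ ^ i ≡ j [MOD N] := by
    intro j hj
    by_cases hf : (Nat.card G).factorization p = 0
    · refine ⟨0, ?_⟩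
      have : N = 1 := by rw [hN, hf, pow_zero]
      rw [this]
      exact Nat.modEq_one
    · apply hgen₀
      intro hpj
      have h1 : p ∣ Nat.gcd j N := Nat.dvd_gcd hpj (dvd_pow_self p hf)
      rw [hj] at h1
      exact hp.out.one_lt.ne' (Nat.dvd_one.1 h1)
  -- coprimality
  have hcopD : ∀ δ : (ZMod N)ˣ, (Nat.card D).Coprime (δ : ZMod N).val := by
    intro δ
    obtain ⟨a, ha⟩ := IsPGroup.iff_card.1 hD
    have h1 := ZMod.val_coe_unit_coprime δ
    have hdvd : Nat.card D ∣ N := by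
      rw [ha, hN]
      refine pow_dvd_pow _ ?_
      have h2 : p ^ a ∣ Nat.card G := by rw [← ha]; exact Subgroup.card_subgroup_dvd_card D
      exact (hp.out.pow_dvd_iff_le_factorization Nat.card_pos.ne').1 h2
    exact Nat.Coprime.coprime_dvd_left hdvd h1.symm
  -- the values
  have hP : ∀ y : Y, ∃ P : Polynomial ℤ, ∀ δ : (ZMod N)ˣ,
      (Ad p D Φ ε (((w * (y : D)) : D) ^ (δ : ZMod N).val : D) χ : ℂ) =
        Polynomial.aeval (ζ ^ (δ : ZMod N).val) P := by
    intro y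
    have hy := hW y y.2
    set u : G := ((w * (y : D) : D) : G) with hu
    obtain ⟨P, hP⟩ := dn_poly p red _ hq (h.nd u hy.1 hy.2) u (huN _ hy.1.1) hN0 (mem_cz _) χ hζ
    refine ⟨Polynomial.C (ε (centralizer {u})) * P, fun δ => ?_⟩
    have hcop : (orderOf u).Coprime (δ : ZMod N).val := coprime_val (huN _ hy.1.1) δ
    have e1 : ((((w * (y : D)) : D) ^ (δ : ZMod N).val : D) : G) = u ^ (δ : ZMod N).val := rfl
    have hr := RegT.pow' hy.1 hcop
    have hr1 := ne_one_of_coprime hcop hy.2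
    rw [e1]
    unfold Ad
    push_cast
    rw [h.dn_coe hr hr1, cz_pow hcop, map_mul, Polynomial.aeval_C, ← hP]
    simp [hqdef]
  choose P hP using hP
  have hsum : ∀ δ : (ZMod N)ˣ, (sY p D Φ ε Y (w ^ (δ : ZMod N).val) χ : ℂ) =
      Polynomial.aeval (ζ ^ (δ : ZMod N).val) (∑ y, P y) := by
    intro δ
    rw [map_sum]
    unfold sY
    push_cast
    have hi' : (Nat.card Y).Coprime (δ : ZMod N).val :=
      Nat.Coprime.coprime_dvd_left (Subgroup.card_subgroup_dvd_card Y) (hcopD δ)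
    rw [← Equiv.sum_comp (powCoprime hi')]
    refine Finset.sum_congr rfl fun y _ => ?_
    rw [← hP y δ]
    congr 2
    change ((w ^ (δ : ZMod N).val * (y : D) ^ (δ : ZMod N).val : D) : G) = _
    rw [← mul_pow]
  have hval1 : (sY p D Φ ε Y w χ : ℂ) = Polynomial.aeval ζ (∑ y, P y) := by
    have h1 := hsum 1
    have hv : ((1 : (ZMod N)ˣ) : ZMod N).val ≡ 1 [MOD N] := by
      rw [← ZMod.natCast_eq_natCast_iff]
      simp
    have e1 : ζ ^ ((1 : (ZMod N)ˣ) : ZMod N).val = ζ := by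
      conv_rhs => rw [← pow_one ζ]
      exact pow_eq_pow_of_modEq hv hζ.pow_eq_one
    have e2 : w ^ ((1 : (ZMod N)ˣ) : ZMod N).val = w := by
      conv_rhs => rw [← pow_one w]
      refine pow_eq_pow_of_modEq hv (Subtype.ext ?_)
      exact huN _ w.2
    rw [e1, e2] at h1
    exact h1
  have h1 := sum_norm_ge (p := p) (red := red) hζ (∑ y, P y) hm₀N hgen₀'
    (fun δ => sY p D Φ ε Y (w ^ (δ : ZMod N).val) χ) (fun δ => hsum δ) (J := n)
    (fun δ => sY_mem h hl hD hab hp2 he Y hY _ (coset_reg hW (hcopD δ)) χ) (by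
      rw [← hval1]
      intro h0
      exact hne (Subtype.ext h0))
  set φ : ℝ := (Fintype.card (ZMod N)ˣ : ℝ) with hφ
  have hφ0 : 0 < φ := by
    rw [hφ]
    exact_mod_cast Fintype.card_pos
  have h2 := sq_sum_le_card_mul_sum_sq (s := (univ : Finset (ZMod N)ˣ))
    (f := fun δ => ‖(sY p D Φ ε Y (w ^ (δ : ZMod N).val) χ : ℂ)‖)
  have h3 : (φ * (p : ℝ) ^ n) ^ 2 ≤
      φ * ∑ δ : (ZMod N)ˣ, ‖(sY p D Φ ε Y (w ^ (δ : ZMod N).val) χ : ℂ)‖ ^ 2 := by
    refine le_trans ?_ h2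
    exact pow_le_pow_left₀ (by positivity) h1 2
  have h4 : φ * (φ * (p : ℝ) ^ (2 * n)) ≤
      φ * ∑ δ : (ZMod N)ˣ, ‖(sY p D Φ ε Y (w ^ (δ : ZMod N).val) χ : ℂ)‖ ^ 2 := by
    refine le_trans (le_of_eq ?_) h3
    rw [mul_comm 2 n, pow_mul]
    ring
  exact le_of_mul_le_mul_left h4 hφ0

end

end P179H46
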