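import Vale.Agent.P179.H905.I1

/-!
# Integral combinations of characters which are invariant under the powers `≡ 1` modulo `p`
-/

namespace P179H46

open Finset P179P P179I

open scoped Classical

section

set_option linter.unusedSectionVars false

variable {p : ℕ} [hp : Fact p.Prime] {A : Type*} [AddCommGroup A] [Fintype A]

/-- the class of `ψ` under the multiples by the numbers `≡ 1` modulo `p` -/
noncomputable def cls (p s : ℕ) (ψ : AddChar A ℂ) : Finset (AddChar A ℂ) :=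
  (range (p ^ s)).image fun n => (1 + p * n) • ψ

theorem add_order {s : ℕ} {ψ : AddChar A ℂ} (h1 : p ^ (s + 1) • ψ = 0) (h2 : p ^ s • ψ ≠ 0) :
    addOrderOf ψ = p ^ (s + 1) := addOrderOf_eq_prime_pow h2 h1

theorem inj_cls {s : ℕ} {ψ : AddChar A ℂ} (h1 : p ^ (s + 1) • ψ = 0) (h2 : p ^ s • ψ ≠ 0) :
    Set.InjOn (fun n : ℕ => (1 + p * n) • ψ) (range (p ^ s)) := by
  intro a ha b hb hab
  have h3 : (1 + p * a) • ψ = (1 + p * b) • ψ := hab
  rw [nsmul_eq_nsmul_iff_modEq, add_order h1 h2] at h3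
  have h4 : p * a ≡ p * b [MOD p ^ (s + 1)] := Nat.ModEq.add_left_cancel' 1 h3
  rw [pow_succ'] at h4
  have h5 : a ≡ b [MOD p ^ s] := Nat.ModEq.mul_left_cancel' hp.out.ne_zero h4
  have ha' : a < p ^ s := by simpa using ha
  have hb' : b < p ^ s := by simpa using hb
  have := h5
  rw [Nat.ModEq, Nat.mod_eq_of_lt ha', Nat.mod_eq_of_lt hb'] at this
  exact this

theorem card_cls {s : ℕ} {ψ : AddChar A ℂ} (h1 : p ^ (s + 1) • ψ = 0) (h2 : p ^ s • ψ ≠ 0) :
    (cls p s ψ).card = p ^ s := by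
  unfold cls
  rw [card_image_of_injOn (inj_cls h1 h2), card_range]

theorem mem_self_cls (s : ℕ) (ψ : AddChar A ℂ) : ψ ∈ cls p s ψ := by
  unfold cls
  rw [mem_image]
  exact ⟨0, mem_range.2 (pow_pos hp.out.pos s), by simp⟩

theorem mul_cls {s : ℕ} {ψ : AddChar A ℂ} (h1 : p ^ (s + 1) • ψ = 0) (n : ℕ) :
    (1 + p * n) • ψ ∈ cls p s ψ := by
  unfold cls
  rw [mem_image]
  refine ⟨n % p ^ s, mem_range.2 (Nat.mod_lt _ (pow_pos hp.out.pos s)), ?_⟩
  conv_rhs => rw [← Nat.mod_add_div n (p ^ s)]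
  have e : (1 + p * (n % p ^ s + p ^ s * (n / p ^ s))) • ψ =
      (1 + p * (n % p ^ s)) • ψ + (n / p ^ s) • (p ^ (s + 1) • ψ) := by
    rw [smul_smul, ← add_smul]
    congr 1
    ring
  rw [e, h1, nsmul_zero, add_zero]

theorem cls_mem {s : ℕ} {ψ φ : AddChar A ℂ} (h1 : p ^ (s + 1) • ψ = 0) (h2 : p ^ s • ψ ≠ 0)
    (h : φ ∈ cls p s ψ) : p ^ (s + 1) • φ = 0 ∧ p ^ s • φ ≠ 0 := by
  unfold cls at h
  rw [mem_image] at h
  obtain ⟨n, -, rfl⟩ := h
  constructor
  · rw [smul_comm, h1, nsmul_zero]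
  · rw [smul_comm, add_smul, one_smul]
    have : (p * n) • p ^ s • ψ = n • (p ^ (s + 1) • ψ) := by
      rw [smul_smul, smul_smul]
      congr 1
      ring
    rw [this, h1, nsmul_zero, add_zero]
    exact h2

theorem cls_eq {s : ℕ} {ψ φ : AddChar A ℂ} (h1 : p ^ (s + 1) • ψ = 0) (h2 : p ^ s • ψ ≠ 0)
    (h : φ ∈ cls p s ψ) : cls p s φ = cls p s ψ := by
  obtain ⟨h3, h4⟩ := cls_mem h1 h2 h
  apply Finset.eq_of_subset_of_card_le
  · intro x hx
    unfold cls at h hx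
    rw [mem_image] at h hx
    obtain ⟨n, -, rfl⟩ := h
    obtain ⟨m, -, rfl⟩ := hx
    rw [smul_smul]
    have e : (1 + p * m) * (1 + p * n) = 1 + p * (m + n + p * m * n) := by ring
    rw [e]
    exact mul_cls h1 _
  · rw [card_cls h1 h2, card_cls h3 h4]

theorem lamA_nsmul (n : ℕ) (ψ : AddChar A ℂ) (x : A) : lamA (n • ψ) x = lamA ψ x ^ n := by
  induction n with
  | zero => rw [zero_nsmul, lamA_zero, pow_zero]
  | succ n ih => rw [succ_nsmul, lamA_add, ih, pow_succ]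

theorem sum_cls {s : ℕ} {ψ : AddChar A ℂ} (h1 : p ^ (s + 1) • ψ = 0) (h2 : p ^ s • ψ ≠ 0)
    (c : AddChar A ℂ → ℤ) (hc : ∀ n : ℕ, ∀ φ, c ((1 + p * n) • φ) = c φ) (x : A) :
    (p : AA) ^ s ∣ ∑ φ ∈ cls p s ψ, (c φ : AA) * lamA φ x := by
  unfold cls
  rw [sum_image (inj_cls h1 h2)]
  simp only [hc, lamA_nsmul, pow_add, pow_one, pow_mul]
  rw [← mul_sum, ← mul_sum]
  refine Dvd.dvd.mul_left (Dvd.dvd.mul_left ?_ _) _
  set ζ : AA := lamA ψ x ^ p with hζ
  have hζ1 : ζ ^ p ^ s = 1 := by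
    rw [hζ, ← pow_mul, ← pow_succ', ← lamA_nsmul, h1, lamA_zero]
  by_cases hz : ζ = 1
  · rw [hz]
    simp
  · have h3 : (∑ n ∈ range (p ^ s), ζ ^ n) * (ζ - 1) = 0 := by
      rw [geom_sum_mul, hζ1, sub_self]
    rcases mul_eq_zero.1 h3 with h4 | h4
    · rw [h4]; exact dvd_zero _
    · exact absurd (sub_eq_zero.1 h4) hz

/-- the characters of order `p ^ (s + 1)` -/
theorem sum_exact (s : ℕ) (c : AddChar A ℂ → ℤ) (hc : ∀ n : ℕ, ∀ φ, c ((1 + p * n) • φ) = c φ)
    (x : A) : (p : AA) ^ s ∣ ∑ φ ∈ univ.filter (fun φ : AddChar A ℂ => p ^ (s + 1) • φ = 0 ∧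
      p ^ s • φ ≠ 0), (c φ : AA) * lamA φ x := by
  set Λ := univ.filter (fun φ : AddChar A ℂ => p ^ (s + 1) • φ = 0 ∧ p ^ s • φ ≠ 0) with hΛ
  rw [← sum_fiberwise_of_maps_to (s := Λ) (t := Λ.image (cls p s)) (g := cls p s)
    (fun x hx => mem_image_of_mem _ hx)]
  refine dvd_sum fun K hK => ?_
  obtain ⟨ψ, hψ, rfl⟩ := mem_image.1 hK
  obtain ⟨h1, h2⟩ := (mem_filter.1 hψ).2
  have h3 : Λ.filter (fun φ => cls p s φ = cls p s ψ) = cls p s ψ := by
    ext φ
    rw [mem_filter]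
    constructor
    · rintro ⟨-, h⟩
      rw [← h]
      exact mem_self_cls s φ
    · intro h
      exact ⟨mem_filter.2 ⟨mem_univ _, cls_mem h1 h2 h⟩, cls_eq h1 h2 h⟩
  rw [h3]
  exact sum_cls h1 h2 c hc x

/-- the characters of order at least `p ^ (j + 1)` -/
theorem sum_large {j n : ℕ} (hjn : j ≤ n) (c : AddChar A ℂ → ℤ)
    (hc : ∀ n : ℕ, ∀ φ, c ((1 + p * n) • φ) = c φ) (x : A) :
    (p : AA) ^ j ∣ ∑ φ ∈ univ.filter (fun φ : AddChar A ℂ => p ^ n • φ = 0 ∧ p ^ j • φ ≠ 0),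
      (c φ : AA) * lamA φ x := by
  induction n, hjn using Nat.le_induction with
  | base =>
    rw [sum_eq_zero]
    · exact dvd_zero _
    · intro φ hφ
      obtain ⟨h1, h2⟩ := (mem_filter.1 hφ).2
      exact absurd h1 h2
  | succ n hjn ih =>
    have h1 : univ.filter (fun φ : AddChar A ℂ => p ^ (n + 1) • φ = 0 ∧ p ^ j • φ ≠ 0) =
        univ.filter (fun φ : AddChar A ℂ => p ^ n • φ = 0 ∧ p ^ j • φ ≠ 0) ∪
        univ.filter (fun φ : AddChar A ℂ => p ^ (n + 1) • φ = 0 ∧ p ^ n • φ ≠ 0) := by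
      ext φ
      simp only [mem_union, mem_filter, mem_univ, true_and]
      constructor
      · rintro ⟨h1, h2⟩
        by_cases h3 : p ^ n • φ = 0
        · exact Or.inl ⟨h3, h2⟩
        · exact Or.inr ⟨h1, h3⟩
      · rintro (⟨h1, h2⟩ | ⟨h1, h2⟩)
        · refine ⟨?_, h2⟩
          rw [pow_succ', mul_smul, h1, nsmul_zero]
        · refine ⟨h1, fun h3 => h2 ?_⟩
          obtain ⟨d, rfl⟩ := Nat.exists_eq_add_of_le hjn
          rw [pow_add, mul_comm, mul_smul, h3, nsmul_zero]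
    rw [h1, sum_union]
    · refine dvd_add ih ((pow_dvd_pow _ hjn).trans (sum_exact n c hc x))
    · rw [disjoint_filter]
      rintro φ - ⟨h1, -⟩ ⟨-, h2⟩
      exact h2 h1

/-- the sum over a coset of `p ^ j A` -/
theorem sum_coset (q : ℕ) (c : AddChar A ℂ → AA) (x : A) :
    ∑ y ∈ univ.filter (fun y : A => ∃ z, q • z = y), ∑ φ, c φ * lamA φ (x + y) =
      ((univ.filter (fun y : A => ∃ z, q • z = y)).card : AA) *
        ∑ φ ∈ univ.filter (fun φ : AddChar A ℂ => q • φ = 0), c φ * lamA φ x := by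
  rw [sum_comm, mul_sum, sum_filter]
  refine sum_congr rfl fun φ _ => ?_
  by_cases h : q • φ = 0
  · rw [if_pos h]
    have h1 : ∀ y ∈ univ.filter (fun y : A => ∃ z, q • z = y), c φ * lamA φ (x + y) =
        c φ * lamA φ x := by
      intro y hy
      obtain ⟨z, rfl⟩ := (mem_filter.1 hy).2
      rw [lamA_map_add]
      have h2 : lamA φ (q • z) = 1 := by
        have h3 : lamA (q • φ) z = lamA φ (q • z) := by
          rw [lamA_nsmul]
          apply Subtype.ext
          push_cast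
          rw [lamA_coe, lamA_coe, AddChar.map_nsmul_eq_pow]
        rw [← h3, h, lamA_zero]
      rw [h2, mul_one]
    rw [sum_congr rfl h1, sum_const, nsmul_eq_mul]
  · rw [if_neg h]
    -- a nontrivial character of the subgroup
    obtain ⟨z₀, hz₀⟩ : ∃ z₀ : A, lamA φ (q • z₀) ≠ 1 := by
      by_contra hcon
      push Not at hcon
      apply h
      ext z
      have h3 : lamA (q • φ) z = lamA φ (q • z) := by
        rw [lamA_nsmul]
        apply Subtype.ext
        push_cast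
        rw [lamA_coe, lamA_coe, AddChar.map_nsmul_eq_pow]
      have h4 := congrArg (fun x : AA => (x : ℂ)) (h3.trans (hcon z))
      simpa [lamA_coe] using h4
    have h1 : ∑ y ∈ univ.filter (fun y : A => ∃ z, q • z = y), lamA φ y = 0 := by
      have h2 : lamA φ (q • z₀) * ∑ y ∈ univ.filter (fun y : A => ∃ z, q • z = y), lamA φ y =
          ∑ y ∈ univ.filter (fun y : A => ∃ z, q • z = y), lamA φ y := by
        rw [mul_sum]
        refine sum_bij' (fun y _ => q • z₀ + y) (fun y _ => y - q • z₀) ?_ ?_ ?_ ?_ ?_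
        · intro y hy
          obtain ⟨z, rfl⟩ := (mem_filter.1 hy).2
          exact mem_filter.2 ⟨mem_univ _, z₀ + z, by rw [smul_add]⟩
        · intro y hy
          obtain ⟨z, rfl⟩ := (mem_filter.1 hy).2
          exact mem_filter.2 ⟨mem_univ _, z - z₀, by rw [smul_sub]⟩
        · intro y _; simp
        · intro y _; simp
        · intro y _
          rw [lamA_map_add]
      have h3 : (lamA φ (q • z₀) - 1) *
          ∑ y ∈ univ.filter (fun y : A => ∃ z, q • z = y), lamA φ y = 0 := by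
        rw [sub_mul, h2, one_mul, sub_self]
      exact (mul_eq_zero.1 h3).resolve_left (sub_ne_zero.2 hz₀)
    have h2 : ∀ y ∈ univ.filter (fun y : A => ∃ z, q • z = y), c φ * lamA φ (x + y) =
        c φ * lamA φ x * lamA φ y := by
      intro y _
      rw [lamA_map_add, mul_assoc]
    rw [sum_congr rfl h2, ← mul_sum, h1, mul_zero]

end

end P179H46
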