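import Vale.Agent.P179.H905.I16
import Vale.Agent.P179.R2.H46.Orb

/-!
# The generalised decomposition numbers and the centraliser of a regular element

For `v ∈ D` with `C_G(v) ≤ C_G(u₀)` the generalised decomposition number of `χ` at `v` in `G` is
that of the restriction of `χ` in `C_G(u₀)`.
-/

namespace P179H46

open Finset P179P P179C P179Y Subgroup P179H524 P179I

open P179X (pp SameSec)

open scoped Classical IsMulCommutative

universe v

set_option linter.unusedSectionVars false

section Lin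

variable {p : ℕ} [hp : Fact p.Prime] {G : Type*} [Group G] [Fintype G]

theorem dn_sum (H : Subgroup G) (q : ℕ) (φ : H → ℂ) (u : G) {ι : Type*} (s : Finset ι) (n : ι → ℂ)
    (f : ι → G → ℂ) : dn p H q φ u (fun g => ∑ i ∈ s, n i * f i g) =
      ∑ i ∈ s, n i * dn p H q φ u (f i) := by
  unfold dn
  simp only [rsum_eq]
  have h1 : ∀ t : H, (∑ i ∈ s, n i * f i (u * t)) * φ t⁻¹ =
      ∑ i ∈ s, n i * (f i (u * t) * φ t⁻¹) := by
    intro t
    rw [Finset.sum_mul]
    exact Finset.sum_congr rfl fun i _ => by ring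
  simp only [h1]
  rw [Finset.sum_comm, Finset.mul_sum]
  refine Finset.sum_congr rfl fun i _ => ?_
  rw [← Finset.mul_sum]
  ring

theorem dn_pow (H : Subgroup G) (q : ℕ) (φ : H → ℂ) (u : G) (hH : ∀ x, x ∈ H → x * u = u * x)
    (f : G → ℂ) {m : ℕ} (hm : ∀ t : G, ¬ p ∣ orderOf t → t ^ m = t) (hf : ∀ g, f (g ^ m) = f g) :
    dn p H q φ (u ^ m) f = dn p H q φ u f := by
  rw [dn, dn]
  congr 1
  rw [rsum_eq, rsum_eq]
  refine Finset.sum_congr rfl fun t ht => ?_
  congr 1
  have h1 : (t : G) ^ m = t := by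
    apply hm
    rw [Subgroup.orderOf_coe]
    exact (mem_filter.1 ht).2
  have h2 : Commute u (t : G) := (hH t t.2).symm
  rw [← hf (u * t), h2.mul_pow, h1]

end Lin

section Transfer

variable {G : Type*} [Group G]

/-- the centralisers of `v` in `G` and in `C_G(u)`, if `C_G(v) ≤ C_G(u)` -/
def cE (u v : G) (hv : v ∈ (centralizer {u} : Subgroup G))
    (hle : (centralizer {v} : Subgroup G) ≤ centralizer {u}) :
    (centralizer {v} : Subgroup G) ≃* (centralizer {(⟨v, hv⟩ : (centralizer {u} : Subgroup G))} :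
      Subgroup (centralizer {u} : Subgroup G)) where
  toFun x := ⟨⟨x, hle x.2⟩, mem_centralizer_singleton_iff.2
    (Subtype.ext (mem_centralizer_singleton_iff.1 x.2))⟩
  invFun x := ⟨((x : (centralizer {u} : Subgroup G)) : G), mem_centralizer_singleton_iff.2
    (congrArg Subtype.val (mem_centralizer_singleton_iff.1 x.2))⟩
  left_inv _ := rfl
  right_inv _ := rfl
  map_mul' _ _ := rfl

theorem cE_coe (u v : G) (hv : v ∈ (centralizer {u} : Subgroup G))
    (hle : (centralizer {v} : Subgroup G) ≤ centralizer {u}) (x : (centralizer {v} : Subgroup G)) :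
    ((cE u v hv hle x : (centralizer {u} : Subgroup G)) : G) = x := rfl

theorem lres_cE {k : Type*} [Field k] (u v : G) (hv : v ∈ (centralizer {u} : Subgroup G))
    (hle : (centralizer {v} : Subgroup G) ≤ centralizer {u}) (l : (G → k) → k)
    (z : (centralizer {(⟨v, hv⟩ : (centralizer {u} : Subgroup G))} :
      Subgroup (centralizer {u} : Subgroup G)) → k) :
    lres (centralizer {v}) l (fun x => z (cE u v hv hle x)) =
      lres (centralizer {(⟨v, hv⟩ : (centralizer {u} : Subgroup G))})
        (lres (centralizer {u}) l) z := by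
  unfold lres
  congr 1
  funext g
  unfold P179Y.ext
  by_cases h1 : g ∈ (centralizer {v} : Subgroup G)
  · rw [dif_pos h1, dif_pos (hle h1), dif_pos (mem_centralizer_singleton_iff.2
        (Subtype.ext (mem_centralizer_singleton_iff.1 h1)))]
    rfl
  · rw [dif_neg h1]
    by_cases h2 : g ∈ (centralizer {u} : Subgroup G)
    · rw [dif_pos h2, dif_neg]
      intro h
      exact h1 (mem_centralizer_singleton_iff.2
        (congrArg Subtype.val (mem_centralizer_singleton_iff.1 h)))
    · rw [dif_neg h2]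

end Transfer

section

variable {p : ℕ} [hp : Fact p.Prime] {k : Type v} [Field k] [CharP k p] {red : AA →+* k}
  {G : Type} [Group G] [Fintype G] {D : Subgroup G} {l : (G → k) → k}

theorem dn_cE (u v : G) (hv : v ∈ (centralizer {u} : Subgroup G))
    (hle : (centralizer {v} : Subgroup G) ≤ centralizer {u}) {q : ℕ}
    {φ : (centralizer {v} : Subgroup G) → ℂ} (hφ : ND red p (lres (centralizer {v}) l) q φ)
    {ψ : (centralizer {(⟨v, hv⟩ : (centralizer {u} : Subgroup G))} :
      Subgroup (centralizer {u} : Subgroup G)) → ℂ}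
    (hψ : ND red p (lres (centralizer {(⟨v, hv⟩ : (centralizer {u} : Subgroup G))})
      (lres (centralizer {u}) l)) q ψ) (f : G → ℂ) :
    dn p (centralizer {(⟨v, hv⟩ : (centralizer {u} : Subgroup G))}) q ψ ⟨v, hv⟩
      (fun h : (centralizer {u} : Subgroup G) => f h) = dn p (centralizer {v}) q φ v f := by
  have h1 := hψ.comp p red (cE u v hv hle) (l' := lres (centralizer {v}) l)
    (fun z => lres_cE u v hv hle l z)
  have h2 : ∀ s : (centralizer {v} : Subgroup G), ¬ p ∣ orderOf s → ψ (cE u v hv hle s) = φ s :=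
    fun s hs => hφ.eq ⟨_, h1.irr⟩ h1.mem s hs
  unfold dn
  rw [← Nat.card_congr (cE u v hv hle).toEquiv, rsum_eq, rsum_eq]
  congr 1
  symm
  refine Finset.sum_bij (fun s _ => cE u v hv hle s) ?_ ?_ ?_ ?_
  · intro s hs
    rw [mem_filter] at hs ⊢
    rw [MulEquiv.orderOf_eq]
    exact ⟨mem_univ _, hs.2⟩
  · intro s _ t _ h
    exact (cE u v hv hle).injective h
  · intro s hs
    refine ⟨(cE u v hv hle).symm s, ?_, by simp⟩
    rw [mem_filter] at hs ⊢
    refine ⟨mem_univ _, ?_⟩
    rw [MulEquiv.orderOf_eq]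
    exact hs.2
  · intro s hs
    have hs' := (mem_filter.1 hs).2
    rw [← map_inv, h2 _ (by rwa [orderOf_inv])]
    rfl

/-- the data for the centraliser of a regular element -/
theorem exists_coef [IsAlgClosed k] (hl : BP p D l) (hD : IsPGroup p D)
    (hab : D ≤ centralizer (D : Set G)) (hp2 : p ≠ 2) {u₀ : G} (hu₀ : RegT D l u₀)
    [hcomm : IsMulCommutative (D.subgroupOf (centralizer {u₀}))] :
    ∃ s : Subgroup (centralizer {u₀} : Subgroup G) → ℤ, (∀ v : (centralizer {u₀} : Subgroup G),
        (v : G) ∈ D → v ≠ 1 → s (centralizer {v}) = 1 ∨ s (centralizer {v}) = -1) ∧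
      ∀ χ : Irr G, ∃ (c : AddChar (Additive (D.subgroupOf (centralizer {u₀}))) ℂ → ℤ)
        (g : Additive (D.subgroupOf (centralizer {u₀})) → AA),
        (∀ b, b ≠ 0 → g b = ∑ ψ, (c ψ : AA) * lamA ψ b) ∧
        (∀ b : Additive (D.subgroupOf (centralizer {u₀})), b ≠ 0 →
          ∃ ψ, ND red p (lres (centralizer {(b.toMul : (centralizer {u₀} : Subgroup G))})
            (lres (centralizer {u₀}) l)) (Nat.card D) ψ ∧
          (g b : ℂ) = s (centralizer {(b.toMul : (centralizer {u₀} : Subgroup G))}) *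
            dn p (centralizer {(b.toMul : (centralizer {u₀} : Subgroup G))}) (Nat.card D) ψ
              (b.toMul : (centralizer {u₀} : Subgroup G)) (fun h => χ.1 h)) ∧
        ∀ m : ℕ, m.Coprime (Nat.card G) → (∀ t : G, ¬ p ∣ orderOf t → t ^ m = t) →
          (∀ g, χ.1 (g ^ m) = χ.1 g) → ∀ ψ, c (m • ψ) = c ψ := by
  have hDH := le_cent_of_mem hu₀.1 hab
  have hCH := cent_le_of_mem (D := D) hu₀.1
  have hlH := hl.restrict hDH hCH
  have hDp : IsPGroup p (D.subgroupOf (centralizer {u₀})) := hD.comap_subtype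
  have habH : D.subgroupOf (centralizer {u₀}) ≤
      centralizer ((D.subgroupOf (centralizer {u₀}) : Subgroup (centralizer {u₀} : Subgroup G)) :
        Set (centralizer {u₀} : Subgroup G)) := by
    intro x hx
    rw [mem_cent_subgroupOf hDH]
    exact hab (by simpa [Subgroup.mem_subgroupOf] using hx)
  set H : Subgroup G := centralizer {u₀} with hHdef
  set DH : Subgroup H := D.subgroupOf H with hDHdef
  have hstab := hu₀.stab_le' hab
  have hreg : ∀ u ∈ DH, u ≠ 1 → RegT DH (lres H l) u := fun u hu _ =>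
    ⟨hu, fun n hn _ => hstab hn⟩
  have hcard : Nat.card DH = Nat.card D :=
    Nat.card_congr (Subgroup.subgroupOfEquivOfLe hDH).toEquiv
  have he : ((centralizer (DH : Set H)).relIndex (stabT DH (lres H l)) : k) ≠ 0 := by
    rw [hu₀.relIndex_stabT hab, Nat.cast_one]
    exact one_ne_zero
  obtain ⟨Φ, aH, bH, ε, κ₀, h⟩ := exists_Loc (red := red) hlH hDp habH hreg
  refine ⟨ε, fun v hv hv1 => h.sgn v (Subgroup.mem_subgroupOf.2 hv) hv1, fun χ => ?_⟩
  obtain ⟨n, hn⟩ := restr_decomp χ H
  have hint : ∀ (ψ : AddChar (Additive DH) ℂ) (χ' : Irr H), ∃ c : ℤ,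
      ∑ b : Additive DH, (if b = 0 then 0 else (lamA ψ b - 1) *
        Ad p DH Φ ε (b.toMul : H) χ') = (Nat.card DH : AA) * c := by
    intro ψ χ'
    obtain ⟨c, hc⟩ := h.INT hlH hDp habH hreg hp2 he ψ χ'
    refine ⟨c, ?_⟩
    rw [← hc]
    refine Finset.sum_congr rfl fun b _ => ?_
    congr
  choose V hV using hint
  have hb1 : ∀ b : Additive DH, b ≠ 0 → (b.toMul : H) ≠ 1 := by
    intro b hb h1
    apply hb
    apply Additive.toMul.injective
    exact Subtype.ext h1
  obtain ⟨g, hg⟩ : ∃ g : Additive DH → AA, ∀ b, g b = ∑ χ' : Irr H, (n χ' : AA) *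
    Ad p DH Φ ε (b.toMul : H) χ' := ⟨_, fun _ => rfl⟩
  obtain ⟨d, hd⟩ : ∃ d : AddChar (Additive DH) ℂ → ℤ, ∀ ψ, d ψ = ∑ χ' : Irr H, (n χ' : ℤ) * V ψ χ' :=
    ⟨_, fun _ => rfl⟩
  have hd1 : ∀ ψ, ∑ b : Additive DH, (if b = 0 then 0 else (lamA ψ b - 1) * g b) =
      (Nat.card DH : AA) * d ψ := by
    intro ψ
    rw [hd]
    push_cast
    rw [Finset.mul_sum]
    have h1 : ∀ χ' : Irr H, (Nat.card DH : AA) * ((n χ' : AA) * (V ψ χ' : AA)) =
        (n χ' : AA) * ∑ b : Additive DH, (if b = 0 then 0 else (lamA ψ b - 1) *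
          Ad p DH Φ ε (b.toMul : H) χ') := by
      intro χ'
      rw [hV ψ χ']
      push_cast
      ring
    rw [Finset.sum_congr rfl fun χ' _ => h1 χ']
    simp only [Finset.mul_sum]
    rw [Finset.sum_comm]
    refine Finset.sum_congr rfl fun b _ => ?_
    by_cases hb : b = 0
    · simp [hb]
    · simp only [if_neg hb]
      rw [hg, Finset.mul_sum]
      exact Finset.sum_congr rfl fun χ' _ => by ring
  have hcardA : (Fintype.card (Additive DH) : AA) = (Nat.card DH : AA) := by
    rw [Nat.card_eq_fintype_card, Fintype.card_congr (Additive.toMul (α := DH))]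
  have hq0 : (Nat.card DH : AA) ≠ 0 := by
    intro h0
    have := congrArg (fun x : AA => (x : ℂ)) h0
    have h2 : (Nat.card DH : ℂ) ≠ 0 := by exact_mod_cast Nat.card_pos.ne'
    apply h2
    simpa using this
  -- the inversion
  have hsumψ : ∀ a : Additive DH, ∑ ψ : AddChar (Additive DH) ℂ, lamA ψ a =
      if a = 0 then (Nat.card DH : AA) else 0 := by
    intro a
    rw [← hcardA]
    apply Subtype.ext
    push_cast
    simp only [lamA_coe]
    rw [AddChar.sum_apply_eq_ite]
    by_cases ha : a = 0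
    · rw [if_pos ha, if_pos ha]
      simp
    · rw [if_neg ha, if_neg ha]
      rfl
  have hinv : ∀ b : Additive DH, b ≠ 0 → g b = ∑ ψ, (d ψ : AA) * lamA ψ (-b) := by
    intro b hb
    apply mul_left_cancel₀ hq0
    rw [Finset.mul_sum]
    have h1 : ∀ ψ : AddChar (Additive DH) ℂ, (Nat.card DH : AA) * ((d ψ : AA) * lamA ψ (-b)) =
        ∑ b' : Additive DH, (if b' = 0 then 0 else (lamA ψ (b' - b) - lamA ψ (-b)) * g b') := by
      intro ψ
      rw [← mul_assoc, ← hd1 ψ, Finset.sum_mul]
      refine Finset.sum_congr rfl fun b' _ => ?_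
      by_cases hb' : b' = 0
      · simp [hb']
      · rw [if_neg hb', if_neg hb', sub_eq_add_neg b' b, lamA_map_add]
        ring
    rw [Finset.sum_congr rfl fun ψ _ => h1 ψ, Finset.sum_comm]
    have h2 : ∀ b' : Additive DH, ∑ ψ : AddChar (Additive DH) ℂ,
        (if b' = 0 then 0 else (lamA ψ (b' - b) - lamA ψ (-b)) * g b') =
        if b' = b then (Nat.card DH : AA) * g b else 0 := by
      intro b'
      by_cases hb' : b' = 0
      · simp only [if_pos hb', Finset.sum_const_zero]
        rw [if_neg]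
        intro h3
        exact hb (h3 ▸ hb')
      · simp only [if_neg hb']
        rw [← Finset.sum_mul, Finset.sum_sub_distrib, hsumψ, hsumψ,
          if_neg (fun h3 : -b = 0 => hb (neg_eq_zero.1 h3)), sub_zero]
        by_cases h3 : b' = b
        · rw [if_pos (by rw [h3, sub_self]), if_pos h3, h3]
        · rw [if_neg (fun h4 => h3 (sub_eq_zero.1 h4)), if_neg h3, zero_mul]
    rw [Finset.sum_congr rfl fun b' _ => h2 b']
    simp
  refine ⟨fun ψ => d (-ψ), g, ?_, ?_, ?_⟩
  · intro b hb
    rw [hinv b hb, ← Equiv.sum_comp (Equiv.neg (AddChar (Additive DH) ℂ))]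
    refine Finset.sum_congr rfl fun ψ _ => ?_
    rw [Equiv.neg_apply]
    congr 1
    apply Subtype.ext
    rw [lamA_coe, lamA_coe, AddChar.neg_apply, neg_neg]
  · intro b hb
    have hbD : (b.toMul : H) ∈ DH := b.toMul.2
    refine ⟨(Φ (centralizer {(b.toMul : H)})).1, ?_, ?_⟩
    · rw [← hcard]
      exact h.nd _ hbD (hb1 b hb)
    · rw [hg]
      have h1 : (fun h : H => χ.1 (h : G)) = fun h => ∑ χ' ∈ univ, (n χ' : ℂ) * χ'.1 h := by
        funext x
        exact hn x
      rw [h1, dn_sum, Finset.mul_sum, ← hcard]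
      push_cast
      refine Finset.sum_congr rfl fun χ' _ => ?_
      unfold Ad
      push_cast
      rw [h.dn_coe hbD (hb1 b hb)]
      ring
  · intro m hmG hmt hχm ψ
    have hcop : (Nat.card (Additive DH)).Coprime m := by
      rw [Nat.card_congr (Additive.toMul (α := DH))]
      exact Nat.Coprime.coprime_dvd_left ((Subgroup.card_subgroup_dvd_card DH).trans
        (Subgroup.card_subgroup_dvd_card H)) (Nat.Coprime.symm hmG)
    have hbm : ∀ b : Additive DH, m • b = 0 ↔ b = 0 := by
      intro b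
      constructor
      · intro h2
        have := (nsmulCoprime hcop).injective (a₁ := b) (a₂ := 0) (by
          change m • b = m • 0
          rw [h2, nsmul_zero])
        exact this
      · rintro rfl
        exact nsmul_zero _
    -- invariance of `g`
    have hgm : ∀ b : Additive DH, b ≠ 0 → g (m • b) = g b := by
      intro b hb
      have hbD : (b.toMul : H) ∈ DH := b.toMul.2
      have hbm' : m • b ≠ 0 := fun h2 => hb ((hbm b).1 h2)
      have hbmD : (b.toMul : H) ^ m ∈ DH := pow_mem hbD m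
      have hcoe : (((m • b : Additive DH).toMul : DH) : H) = (b.toMul : H) ^ m := rfl
      have hb1m : (b.toMul : H) ^ m ≠ 1 := by
        rw [← hcoe]
        exact hb1 _ hbm'
      have hco : (orderOf (b.toMul : H)).Coprime m :=
        Nat.Coprime.coprime_dvd_left ((_root_.orderOf_dvd_natCard _).trans
          (Subgroup.card_subgroup_dvd_card H)) (Nat.Coprime.symm hmG)
      apply Subtype.ext
      rw [hg, hg, hcoe]
      have h1 : ∀ u : H, u ∈ DH → u ≠ 1 → ((∑ χ' : Irr H, (n χ' : AA) * Ad p DH Φ ε u χ' : AA) : ℂ) =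
          ε (centralizer {u}) * dn p (centralizer {u}) (Nat.card DH) (Φ (centralizer {u})).1 u
            (fun h => χ.1 h) := by
        intro u hu hu1
        have h1 : (fun h : H => χ.1 (h : G)) = fun h => ∑ χ' ∈ univ, (n χ' : ℂ) * χ'.1 h := by
          funext x
          exact hn x
        rw [h1, dn_sum, Finset.mul_sum]
        push_cast
        refine Finset.sum_congr rfl fun χ' _ => ?_
        unfold Ad
        push_cast
        rw [h.dn_coe hu hu1]
        ring
      rw [h1 _ hbmD hb1m, h1 _ hbD (hb1 b hb), cz_pow hco]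
      congr 1
      exact dn_pow _ _ _ _ (fun x hx => mem_centralizer_singleton_iff.1 hx) _ (fun t ht => by
        apply Subtype.ext
        push_cast
        exact hmt t (by rwa [Subgroup.orderOf_coe])) (fun x => hχm x)
    have hkey : ∀ ψ, d (m • ψ) = d ψ := by
      intro ψ
      have h1 : (Nat.card DH : AA) * (d (m • ψ) : AA) = (Nat.card DH : AA) * (d ψ : AA) := by
        rw [← hd1, ← hd1, ← Equiv.sum_comp (nsmulCoprime hcop)
          (fun b => if b = 0 then 0 else (lamA ψ b - 1) * g b)]
        refine Finset.sum_congr rfl fun b _ => ?_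
        change _ = if m • b = 0 then 0 else (lamA ψ (m • b) - 1) * g (m • b)
        by_cases hb : b = 0
        · rw [if_pos hb, if_pos ((hbm b).2 hb)]
        · rw [if_neg hb, if_neg (fun h2 => hb ((hbm b).1 h2)), hgm b hb]
          congr 2
          rw [lamA_nsmul]
          apply Subtype.ext
          push_cast
          rw [lamA_coe, lamA_coe, AddChar.map_nsmul_eq_pow]
      have h2 := mul_left_cancel₀ hq0 h1
      have h3 := congrArg (fun x : AA => (x : ℂ)) h2
      push_cast at h3
      exact_mod_cast h3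
    have e : -(m • ψ) = m • (-ψ) := by rw [neg_nsmul]
    change d (-(m • ψ)) = d (-ψ)
    rw [e]
    exact hkey _

end

end P179H46
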