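import Vale.Agent.P179.R2.H452.N1
import Vale.Agent.P179.R2.H46.Sa
import Vale.Agent.P179.R2.H46.Tran

/-!
# The columns for `C_{p²} × C_{p²}`: Galois conjugates and rationality
-/

namespace P179H46

open Finset P179P P179C P179Y Subgroup P179H524 P179I P179H452 Polynomial

open P179X (pp SameSec)

open scoped Classical IsMulCommutative

universe v

set_option linter.unusedSectionVars false

section Iter

variable {p : ℕ} [hp : Fact p.Prime] {G : Type*} [Group G] [Fintype G]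

theorem iter_inv {f : G → ℂ} {m : ℕ} (hf : ∀ g, f (g ^ m) = f g) (n : ℕ) :
    ∀ g, f (g ^ m ^ n) = f g := by
  induction n with
  | zero => intro g; simp
  | succ n ih =>
    intro g
    rw [pow_succ, pow_mul, hf, ih]

theorem iter_fix {t : G} {m : ℕ} (hm : t ^ m = t) (n : ℕ) : t ^ m ^ n = t := by
  induction n with
  | zero => simp
  | succ n ih => rw [pow_succ, pow_mul, ih, hm]

theorem reg_fix {m : ℕ} (hm : m ≡ 1 [MOD ordCompl[p] (Nat.card G)]) {t : G}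
    (ht : ¬ p ∣ orderOf t) : t ^ m = t := by
  conv_rhs => rw [← pow_one t]
  rw [pow_eq_pow_iff_modEq]
  refine hm.of_dvd ?_
  have h3 : orderOf t ∣ Nat.card G := orderOf_dvd_natCard t
  have h4 : (orderOf t).Coprime (ordProj[p] (Nat.card G)) :=
    Nat.Coprime.pow_right _ ((Nat.Prime.coprime_iff_not_dvd hp.out).2 ht).symm
  have h5 := Nat.ordProj_mul_ordCompl_eq_self (Nat.card G) p
  rw [← h5] at h3
  exact h4.dvd_of_dvd_mul_left h3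

/-- rationality: for `i` in the group generated by `m` modulo the order of `u` -/
theorem dn_rat (H : Subgroup G) (q : ℕ) (φ : H → ℂ) {u : G} (hH : ∀ x, x ∈ H → x * u = u * x)
    {f : G → ℂ} {m : ℕ} (hm : m ≡ 1 [MOD ordCompl[p] (Nat.card G)]) (hf : ∀ g, f (g ^ m) = f g)
    (hu : u ^ ordProj[p] (Nat.card G) = 1) {i : ℕ}
    (hi : ∃ t, m ^ t ≡ i [MOD ordProj[p] (Nat.card G)]) :
    dn p H q φ (u ^ i) f = dn p H q φ u f := by
  obtain ⟨t, ht⟩ := hi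
  rw [← pow_eq_pow_of_modEq ht hu]
  exact dn_pow H q φ u hH f (fun s hs => iter_fix (reg_fix hm hs) t) (iter_inv hf t)

theorem dnA_congr {H : Subgroup G} {q : ℕ} {φ : H → ℂ} {u u' : G} {f f' : G → ℂ}
    (h : dn p H q φ u f = dn p H q φ u' f') : dnA p H q φ u f = dnA p H q φ u' f' := by
  unfold dnA
  simp only [h]

end Iter

section

variable {p : ℕ} [hp : Fact p.Prime] {k : Type v} [Field k] [CharP k p] {red : AA →+* k}
  {G : Type} [Group G] [Fintype G] {D : Subgroup G} {l : (G → k) → k}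
  {Φ : ∀ H : Subgroup G, Irr H} {aH bH : Subgroup G → ℕ} {ε : Subgroup G → ℤ} {κ₀ : k}
  {H : Subgroup G} {s : ℕ}

/-- **(P1)**: the Galois conjugates of the numbers of the dual basis -/
theorem _root_.P179H452.NDat.poly {ψ : Fin s → Irr H} {σ : Fin s → ℤ} {m a1 a2 : ℕ}
    (h : NDat p red D l H ψ σ m a1 a2) {u : G} {N : ℕ} (hw : u ^ N = 1) (hN : N ≠ 0)
    (hH : ∀ x, x ∈ H ↔ x * u = u * x) {ζ : ℂ} (hζ : IsPrimitiveRoot ζ N) (i : Fin s) (χ : Irr G) :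
    ∃ Q : ℤ[X], ∀ j : ℕ, dn p H (p ^ a1) (Pk ψ σ m i) (u ^ j) χ.1 = aeval (ζ ^ j) Q := by
  have : NeZero N := ⟨hN⟩
  have huH : u ∈ H := (hH u).2 rfl
  obtain ⟨n, hn⟩ := restr_decomp χ H
  obtain ⟨M, hM⟩ := h.exists_N
  have hc : ∀ θ : Irr H, ∃ i : ℕ, ∀ (j : ℕ) (t : H),
      θ.1 ((⟨u, huH⟩ : H) ^ j * t) = (ζ ^ j) ^ i * θ.1 t := by
    intro θ
    obtain ⟨d, hd, h⟩ := central_scalar θ (⟨u, huH⟩ : H)
      (fun x => Subtype.ext ((hH x).1 x.2)) (Subtype.ext (by push_cast; exact hw) :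
        (⟨u, huH⟩ : H) ^ N = 1)
    obtain ⟨i, -, rfl⟩ := hζ.eq_pow_of_pow_eq_one hd
    exact ⟨i, fun j t => by rw [h, ← pow_mul, ← pow_mul, mul_comm i j]⟩
  choose e he using hc
  refine ⟨∑ θ : Irr H, if InL red (lres H l) θ.1 then C ((n θ : ℤ) * M θ i) * X ^ e θ else 0,
    fun j => ?_⟩
  rw [h.dn_eq M hM i (pow_mem huH j) χ n hn (fun θ => (ζ ^ j) ^ e θ) (fun θ t => he θ j t),
    map_sum]
  refine Finset.sum_congr rfl fun θ _ => ?_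
  split_ifs
  · rw [map_mul, map_pow, aeval_X, aeval_C]
    simp
    ring
  · rw [map_zero]

/-- **(P2)**: the Galois conjugates of the numbers at the regular elements -/
theorem _root_.P179I.LocR.poly (h : LocR p red D l Φ aH bH ε κ₀) {u : G} (hu : RegT D l u)
    (hu1 : u ≠ 1) {N : ℕ} (hw : u ^ N = 1) (hN : N ≠ 0) {ζ : ℂ} (hζ : IsPrimitiveRoot ζ N)
    (χ : Irr G) : ∃ Q : ℤ[X], ∀ j : ℕ, (orderOf u).Coprime j →
      (Ad p D Φ ε (u ^ j) χ : ℂ) = aeval (ζ ^ j) Q := by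
  have hq : Nat.card D ≠ 0 := Nat.card_pos.ne'
  obtain ⟨P, hP⟩ := dn_poly p red _ hq (h.nd u hu hu1) u hw hN (mem_cz _) χ hζ
  refine ⟨Polynomial.C (ε (centralizer {u})) * P, fun j hcop => ?_⟩
  have hr := RegT.pow' hu hcop
  have hr1 := ne_one_of_coprime hcop hu1
  unfold Ad
  push_cast
  rw [h.dn_coe hr hr1, cz_pow hcop, map_mul, Polynomial.aeval_C, ← hP]
  simp

/-- **(R1)** -/
theorem XA_rat (ψ : Fin s → Irr H) (σ : Fin s → ℤ) (m a1 : ℕ) (hDp : IsPGroup p D) {u : G}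
    (hu : u ∈ D) (hH : ∀ x, x ∈ H → x * u = u * x) (r : Fin s) {χ : Irr G} {m₁ : ℕ}
    (hm₁ : m₁ ≡ 1 [MOD ordCompl[p] (Nat.card G)]) (hχ : ∀ g, χ.1 (g ^ m₁) = χ.1 g) {i : ℕ}
    (hi : ∃ t, m₁ ^ t ≡ i [MOD ordProj[p] (Nat.card G)]) :
    XA p ψ σ m a1 r (u ^ i) χ = XA p ψ σ m a1 r u χ :=
  dnA_congr (dn_rat H _ _ hH hm₁ hχ (pow_ordProj_eq_one hDp hu) hi)

/-- **(R2)** -/
theorem Ad_rat (hDp : IsPGroup p D) {u : G} (hu : u ∈ D) {χ : Irr G} {m₁ : ℕ}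
    (hm₁ : m₁ ≡ 1 [MOD ordCompl[p] (Nat.card G)]) (hχ : ∀ g, χ.1 (g ^ m₁) = χ.1 g) {i : ℕ}
    (hcop : (orderOf u).Coprime i) (hi : ∃ t, m₁ ^ t ≡ i [MOD ordProj[p] (Nat.card G)]) :
    Ad p D Φ ε (u ^ i) χ = Ad p D Φ ε u χ := by
  unfold Ad
  rw [cz_pow hcop]
  congr 1
  exact dnA_congr (dn_rat _ _ _ (fun x hx => (mem_cz u x).1 hx) hm₁ hχ
    (pow_ordProj_eq_one hDp hu) hi)

/-- an element of `D` and a number which is `1` modulo `p` -/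
theorem coprime_of_modEq_one (hDp : IsPGroup p D) {u : G} (hu : u ∈ D) {i : ℕ}
    (hi : i ≡ 1 [MOD p]) : (orderOf u).Coprime i := by
  obtain ⟨a, ha⟩ := hDp ⟨u, hu⟩
  have ha' : u ^ p ^ a = 1 := by simpa using congrArg Subtype.val ha
  refine Nat.Coprime.coprime_dvd_left (orderOf_dvd_of_pow_eq_one ha') ?_
  refine Nat.Coprime.pow_left _ ((Nat.Prime.coprime_iff_not_dvd hp.out).2 fun h => ?_)
  have h1 : (0 : ℕ) ≡ 1 [MOD p] := ((Nat.modEq_zero_iff_dvd.2 h).symm).trans hi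
  have h2 : p ∣ 1 - 0 := (Nat.modEq_iff_dvd' (by omega)).1 h1
  exact hp.out.one_lt.ne' (Nat.dvd_one.1 h2)

/-- **(R1)**, for the numbers which are `1` modulo `p` -/
theorem XA_rat' (ψ : Fin s → Irr H) (σ : Fin s → ℤ) (m a1 : ℕ) (hDp : IsPGroup p D) {u : G}
    (hu : u ∈ D) (hH : ∀ x, x ∈ H → x * u = u * x) (r : Fin s) {χ : Irr G} {m₁ : ℕ}
    (hm₁ : m₁ ≡ 1 [MOD ordCompl[p] (Nat.card G)]) (hχ : ∀ g, χ.1 (g ^ m₁) = χ.1 g)
    (hgen : ∀ i : ℕ, i ≡ 1 [MOD p] → ∃ t, m₁ ^ t ≡ i [MOD ordProj[p] (Nat.card G)]) {i : ℕ}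
    (hi : i ≡ 1 [MOD p]) : XA p ψ σ m a1 r (u ^ i) χ = XA p ψ σ m a1 r u χ :=
  XA_rat ψ σ m a1 hDp hu hH r hm₁ hχ (hgen i hi)

/-- **(R2)**, for the numbers which are `1` modulo `p` -/
theorem Ad_rat' (hDp : IsPGroup p D) {u : G} (hu : u ∈ D) {χ : Irr G} {m₁ : ℕ}
    (hm₁ : m₁ ≡ 1 [MOD ordCompl[p] (Nat.card G)]) (hχ : ∀ g, χ.1 (g ^ m₁) = χ.1 g)
    (hgen : ∀ i : ℕ, i ≡ 1 [MOD p] → ∃ t, m₁ ^ t ≡ i [MOD ordProj[p] (Nat.card G)]) {i : ℕ}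
    (hi : i ≡ 1 [MOD p]) : Ad p D Φ ε (u ^ i) χ = Ad p D Φ ε u χ :=
  Ad_rat hDp hu hm₁ hχ (coprime_of_modEq_one hDp hu hi) (hgen i hi)

end

end P179H46
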