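import Vale.Agent.P179.R2.H452.Norm

/-!
# The lower bound of the count for `C_{p²} × C_{p²}`
-/

namespace P179H46

open Finset P179P P179I Polynomial

open scoped Classical

section

variable {N : ℕ} {ζ : ℂ}

/-- the conjugates of a nonzero algebraic integer are large on average -/
theorem avg_sq [NeZero N] (hζ : IsPrimitiveRoot ζ N) {m₀ : ℕ} (hm : m₀.Coprime N)
    (hgen : ∀ j : ℕ, j.Coprime N → ∃ i : ℕ, m₀ ^ i ≡ j [MOD N]) (P : ℤ[X]) (h : aeval ζ P ≠ 0) :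
    (Fintype.card (ZMod N)ˣ : ℝ) ≤ ∑ δ : (ZMod N)ˣ, ‖aeval (ζ ^ (δ : ZMod N).val) P‖ ^ 2 := by
  have hN := Nat.pos_of_ne_zero (NeZero.ne N)
  obtain ⟨z, hz⟩ := P179H452.norm_int hζ P hm hgen
  have hne : ∀ δ : (ZMod N)ˣ, aeval (ζ ^ (δ : ZMod N).val) P ≠ 0 := fun δ h' =>
    h (P179H452.aeval_zero_of_pow hN hζ P (ZMod.val_coe_unit_coprime δ) h')
  have hz0 : z ≠ 0 := by
    intro h0
    rw [h0, Int.cast_zero] at hz
    rw [Finset.prod_eq_zero_iff] at hz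
    obtain ⟨δ, -, h⟩ := hz
    exact hne δ h
  have h1 : (1 : ℝ) ^ Fintype.card (ZMod N)ˣ ≤
      ∏ δ : (ZMod N)ˣ, ‖aeval (ζ ^ (δ : ZMod N).val) P‖ ^ 2 := by
    rw [Finset.prod_pow, ← norm_prod, hz, one_pow, Complex.norm_intCast]
    have h2 : (1 : ℝ) ≤ |(z : ℝ)| := by exact_mod_cast Int.one_le_abs hz0
    exact one_le_pow₀ h2
  have h3 := P179H452.am_gm _ (fun δ => sq_nonneg _) zero_le_one h1
  rwa [mul_one] at h3

/-- the conjugates of zero -/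
theorem conj_zero [NeZero N] (hζ : IsPrimitiveRoot ζ N) (P : ℤ[X]) (h : aeval ζ P = 0)
    (δ : (ZMod N)ˣ) : aeval (ζ ^ (δ : ZMod N).val) P = 0 := by
  obtain ⟨R, hR⟩ := (minpoly.isIntegrallyClosed_dvd (hζ.isIntegral (Nat.pos_of_ne_zero
    (NeZero.ne N))) h)
  rw [hR, map_mul]
  have h2 := hζ.minpoly_eq_pow_coprime (ZMod.val_coe_unit_coprime δ)
  rw [h2, minpoly.aeval, zero_mul]

/-- a function which is not constant has many pairs of different values -/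
theorem pairs_ge {s : ℕ} (f : Fin s → ℂ) (h : ∃ k l, f k ≠ f l) :
    2 * (s - 1) ≤ ∑ k : Fin s, (univ.filter fun l => f k ≠ f l).card := by
  obtain ⟨k₀, l₀, hkl⟩ := h
  set A := univ.filter fun l : Fin s => f k₀ = f l with hA
  set B := univ.filter fun l : Fin s => ¬ f k₀ = f l with hB
  have hAB : A.card + B.card = s := by
    have := Finset.card_filter_add_card_filter_not (s := (univ : Finset (Fin s)))
      (fun l => f k₀ = f l)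
    rwa [card_univ, Fintype.card_fin] at this
  have hA1 : 1 ≤ A.card := card_pos.2 ⟨k₀, by simp [hA]⟩
  have hB1 : 1 ≤ B.card := card_pos.2 ⟨l₀, by simp [hB, hkl]⟩
  have h1 : ∀ k ∈ A, B.card ≤ (univ.filter fun l => f k ≠ f l).card := by
    intro k hk
    refine card_le_card fun l hl => ?_
    have e1 := (mem_filter.1 hk).2
    have e2 := (mem_filter.1 hl).2
    rw [mem_filter]
    exact ⟨mem_univ _, by rw [← e1]; exact e2⟩
  have h2 : ∀ k ∈ B, A.card ≤ (univ.filter fun l => f k ≠ f l).card := by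
    intro k hk
    refine card_le_card fun l hl => ?_
    have e1 := (mem_filter.1 hk).2
    have e2 := (mem_filter.1 hl).2
    rw [mem_filter]
    exact ⟨mem_univ _, by rw [← e2]; exact fun h => e1 h.symm⟩
  have h3 : ∑ k : Fin s, (univ.filter fun l => f k ≠ f l).card =
      ∑ k ∈ A, (univ.filter fun l => f k ≠ f l).card +
        ∑ k ∈ B, (univ.filter fun l => f k ≠ f l).card := by
    rw [hA, hB, Finset.sum_filter_add_sum_filter_not]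
  have h4 := Finset.card_nsmul_le_sum A _ _ h1
  have h5 := Finset.card_nsmul_le_sum B _ _ h2
  rw [smul_eq_mul] at h4 h5
  rw [h3]
  have h6 : s - 1 ≤ A.card * B.card := by
    obtain ⟨a, ha⟩ : ∃ a, A.card = a + 1 := ⟨A.card - 1, by omega⟩
    obtain ⟨b, hb⟩ : ∃ b, B.card = b + 1 := ⟨B.card - 1, by omega⟩
    rw [ha, hb] at hAB ⊢
    have e : (a + 1) * (b + 1) = a * b + (a + b + 1) := by ring
    rw [e]
    omega
  have e : B.card * A.card = A.card * B.card := mul_comm _ _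
  omega

/-- **the lower bound**: the conjugates of algebraic integers `x k` with nonzero sum -/
theorem low22 [NeZero N] (hζ : IsPrimitiveRoot ζ N) {m₀ : ℕ} (hm : m₀.Coprime N)
    (hgen : ∀ j : ℕ, j.Coprime N → ∃ i : ℕ, m₀ ^ i ≡ j [MOD N]) {s p : ℕ} (hsp : s + 1 ≤ p)
    (Q : Fin s → ℤ[X]) (x : (ZMod N)ˣ → Fin s → ℂ)
    (hx : ∀ δ k, x δ k = aeval (ζ ^ (δ : ZMod N).val) (Q k)) {δ₀ : (ZMod N)ˣ}
    (h : ∑ k, x δ₀ k ≠ 0) :
    (Fintype.card (ZMod N)ˣ : ℝ) * (s : ℝ) ^ 2 ≤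
      ∑ δ, (‖∑ k, x δ k‖ ^ 2 + (p : ℝ) / 2 * ∑ k, ∑ l, ‖x δ k - x δ l‖ ^ 2) := by
  have hsum : ∀ δ, ∑ k, x δ k = aeval (ζ ^ (δ : ZMod N).val) (∑ k, Q k) := by
    intro δ
    rw [map_sum]
    exact Finset.sum_congr rfl fun k _ => hx δ k
  have h0 : aeval ζ (∑ k, Q k) ≠ 0 := by
    intro h1
    apply h
    rw [hsum]
    exact conj_zero hζ _ h1 δ₀
  have hs1 : 1 ≤ s := by
    rcases Nat.eq_zero_or_pos s with h1 | h1
    · subst h1
      simp at h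
    · exact h1
  by_cases hc : ∀ k l, aeval ζ (Q k) = aeval ζ (Q l)
  · -- all the values are equal
    let k₀ : Fin s := ⟨0, hs1⟩
    have heq : ∀ δ k, x δ k = x δ k₀ := by
      intro δ k
      have h1 : aeval ζ (Q k - Q k₀) = 0 := by rw [map_sub, hc k k₀, sub_self]
      have h2 := conj_zero hζ _ h1 δ
      rw [map_sub, sub_eq_zero, ← hx, ← hx] at h2
      exact h2
    have h1 : aeval ζ (Q k₀) ≠ 0 := by
      intro h1
      apply h0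
      rw [map_sum]
      exact Finset.sum_eq_zero fun k _ => by rw [hc k k₀, h1]
    have h2 := avg_sq hζ hm hgen (Q k₀) h1
    have h3 : ∀ δ : (ZMod N)ˣ, (s : ℝ) ^ 2 * ‖aeval (ζ ^ (δ : ZMod N).val) (Q k₀)‖ ^ 2 ≤
        ‖∑ k, x δ k‖ ^ 2 + (p : ℝ) / 2 * ∑ k, ∑ l, ‖x δ k - x δ l‖ ^ 2 := by
      intro δ
      have e1 : ∑ k, x δ k = (s : ℂ) * x δ k₀ := by
        rw [Finset.sum_congr rfl fun k _ => heq δ k]
        simp
      have e2 : 0 ≤ (p : ℝ) / 2 * ∑ k, ∑ l, ‖x δ k - x δ l‖ ^ 2 := by positivity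
      rw [e1, norm_mul, ← hx, Complex.norm_natCast, mul_pow]
      linarith
    calc (Fintype.card (ZMod N)ˣ : ℝ) * (s : ℝ) ^ 2 = (s : ℝ) ^ 2 * Fintype.card (ZMod N)ˣ := by
          ring
      _ ≤ (s : ℝ) ^ 2 * ∑ δ : (ZMod N)ˣ, ‖aeval (ζ ^ (δ : ZMod N).val) (Q k₀)‖ ^ 2 :=
          mul_le_mul_of_nonneg_left h2 (by positivity)
      _ = ∑ δ : (ZMod N)ˣ, (s : ℝ) ^ 2 * ‖aeval (ζ ^ (δ : ZMod N).val) (Q k₀)‖ ^ 2 := by
          rw [Finset.mul_sum]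
      _ ≤ _ := Finset.sum_le_sum fun δ _ => h3 δ
  · -- two values are different
    push Not at hc
    have h1 := pairs_ge (fun k => aeval ζ (Q k)) hc
    have h2 := avg_sq hζ hm hgen _ h0
    have h3 : ∀ k l, aeval ζ (Q k) ≠ aeval ζ (Q l) →
        (Fintype.card (ZMod N)ˣ : ℝ) ≤ ∑ δ, ‖x δ k - x δ l‖ ^ 2 := by
      intro k l hkl
      have h4 : aeval ζ (Q k - Q l) ≠ 0 := by
        rw [map_sub]
        exact sub_ne_zero.2 hkl
      refine (avg_sq hζ hm hgen _ h4).trans (le_of_eq ?_)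
      refine Finset.sum_congr rfl fun δ _ => ?_
      rw [map_sub, hx, hx]
    have h4 : ∑ δ, (‖∑ k, x δ k‖ ^ 2 + (p : ℝ) / 2 * ∑ k, ∑ l, ‖x δ k - x δ l‖ ^ 2) =
        ∑ δ, ‖∑ k, x δ k‖ ^ 2 + (p : ℝ) / 2 * ∑ k, ∑ l, ∑ δ, ‖x δ k - x δ l‖ ^ 2 := by
      rw [Finset.sum_add_distrib, ← Finset.mul_sum]
      congr 2
      rw [Finset.sum_comm]
      refine Finset.sum_congr rfl fun k _ => ?_
      rw [Finset.sum_comm]
    have h5 : (Fintype.card (ZMod N)ˣ : ℝ) * (2 * (s - 1)) ≤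
        ∑ k, ∑ l, ∑ δ, ‖x δ k - x δ l‖ ^ 2 := by
      have h6 : ∀ k, (Fintype.card (ZMod N)ˣ : ℝ) *
          ((univ.filter fun l => aeval ζ (Q k) ≠ aeval ζ (Q l)).card : ℝ) ≤
            ∑ l, ∑ δ, ‖x δ k - x δ l‖ ^ 2 := by
        intro k
        calc (Fintype.card (ZMod N)ˣ : ℝ) *
            ((univ.filter fun l => aeval ζ (Q k) ≠ aeval ζ (Q l)).card : ℝ) =
            ∑ l ∈ univ.filter fun l => aeval ζ (Q k) ≠ aeval ζ (Q l),
              (Fintype.card (ZMod N)ˣ : ℝ) := by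
              rw [Finset.sum_const, nsmul_eq_mul, mul_comm]
          _ ≤ ∑ l ∈ univ.filter fun l => aeval ζ (Q k) ≠ aeval ζ (Q l),
              ∑ δ, ‖x δ k - x δ l‖ ^ 2 :=
              Finset.sum_le_sum fun l hl => h3 k l (mem_filter.1 hl).2
          _ ≤ _ := Finset.sum_le_sum_of_subset_of_nonneg (filter_subset _ _)
              fun _ _ _ => by positivity
      refine le_trans ?_ (Finset.sum_le_sum fun k _ => h6 k)
      rw [← Finset.mul_sum]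
      refine mul_le_mul_of_nonneg_left ?_ (by positivity)
      have h7 : ((2 * (s - 1) : ℕ) : ℝ) ≤
          ((∑ k : Fin s, (univ.filter fun l => aeval ζ (Q k) ≠ aeval ζ (Q l)).card : ℕ) : ℝ) := by
        exact_mod_cast h1
      push_cast [Nat.cast_sub hs1] at h7
      exact h7
    have h6 : (Fintype.card (ZMod N)ˣ : ℝ) ≤ ∑ δ, ‖∑ k, x δ k‖ ^ 2 := by
      refine h2.trans (le_of_eq ?_)
      exact Finset.sum_congr rfl fun δ _ => by rw [hsum]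
    rw [h4]
    have hc0 : (0 : ℝ) ≤ Fintype.card (ZMod N)ˣ := by positivity
    have hs1' : (0 : ℝ) ≤ (s : ℝ) - 1 := by
      have : (1 : ℝ) ≤ s := by exact_mod_cast hs1
      linarith
    have hsp' : (s : ℝ) + 1 ≤ p := by exact_mod_cast hsp
    have h7 : (p : ℝ) / 2 * ((Fintype.card (ZMod N)ˣ : ℝ) * (2 * (s - 1))) ≤
        (p : ℝ) / 2 * ∑ k, ∑ l, ∑ δ, ‖x δ k - x δ l‖ ^ 2 :=
      mul_le_mul_of_nonneg_left h5 (by positivity)
    have h8 : (Fintype.card (ZMod N)ˣ : ℝ) * (((s : ℝ) + 1) * (s - 1)) ≤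
        (Fintype.card (ZMod N)ˣ : ℝ) * ((p : ℝ) * (s - 1)) :=
      mul_le_mul_of_nonneg_left (mul_le_mul_of_nonneg_right hsp' hs1') hc0
    have e1 : (p : ℝ) / 2 * ((Fintype.card (ZMod N)ˣ : ℝ) * (2 * (s - 1))) =
        (Fintype.card (ZMod N)ˣ : ℝ) * ((p : ℝ) * (s - 1)) := by ring
    have e2 : (Fintype.card (ZMod N)ˣ : ℝ) * (s : ℝ) ^ 2 =
        Fintype.card (ZMod N)ˣ + (Fintype.card (ZMod N)ˣ : ℝ) * (((s : ℝ) + 1) * (s - 1)) := by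
      ring
    rw [e2]
    linarith

/-- **the count**: `x δ k χ` are the conjugates of algebraic integers, with nonzero sum over `k`
for the `χ` in `X` -/
theorem card_le22 [NeZero N] (hζ : IsPrimitiveRoot ζ N) {m₀ : ℕ} (hm : m₀.Coprime N)
    (hgen : ∀ j : ℕ, j.Coprime N → ∃ i : ℕ, m₀ ^ i ≡ j [MOD N]) {s p : ℕ} (hs : 1 ≤ s)
    (hsp : s + 1 ≤ p) {ι : Type*} (X : Finset ι) (x : (ZMod N)ˣ → Fin s → ι → ℂ)
    (hx : ∀ χ ∈ X, ∀ k, ∃ Q : ℤ[X], ∀ δ : (ZMod N)ˣ,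
      x δ k χ = aeval (ζ ^ (δ : ZMod N).val) Q)
    (h : ∀ χ ∈ X, ∃ δ, ∑ k, x δ k χ ≠ 0)
    (hle : ∀ δ, ∑ χ ∈ X, (‖∑ k, x δ k χ‖ ^ 2 + (p : ℝ) / 2 * ∑ k, ∑ l, ‖x δ k χ - x δ l χ‖ ^ 2) ≤
      (p : ℝ) ^ 2 * (s : ℝ) ^ 2) : X.card ≤ p ^ 2 := by
  have hcard : (0 : ℝ) < Fintype.card (ZMod N)ˣ := by
    exact_mod_cast Fintype.card_pos
  have h1 : ∀ χ ∈ X, (Fintype.card (ZMod N)ˣ : ℝ) * (s : ℝ) ^ 2 ≤
      ∑ δ, (‖∑ k, x δ k χ‖ ^ 2 + (p : ℝ) / 2 * ∑ k, ∑ l, ‖x δ k χ - x δ l χ‖ ^ 2) := by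
    intro χ hχ
    choose Q hQ using hx χ hχ
    obtain ⟨δ₀, hδ₀⟩ := h χ hχ
    exact low22 hζ hm hgen hsp Q (fun δ k => x δ k χ) (fun δ k => hQ k δ) hδ₀
  have h2 : (X.card : ℝ) * ((Fintype.card (ZMod N)ˣ : ℝ) * (s : ℝ) ^ 2) ≤
      ∑ χ ∈ X, ∑ δ, (‖∑ k, x δ k χ‖ ^ 2 +
        (p : ℝ) / 2 * ∑ k, ∑ l, ‖x δ k χ - x δ l χ‖ ^ 2) := by
    rw [← nsmul_eq_mul]
    exact Finset.card_nsmul_le_sum _ _ _ h1
  rw [Finset.sum_comm] at h2
  have h3 : ∑ δ, ∑ χ ∈ X, (‖∑ k, x δ k χ‖ ^ 2 +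
      (p : ℝ) / 2 * ∑ k, ∑ l, ‖x δ k χ - x δ l χ‖ ^ 2) ≤
      (Fintype.card (ZMod N)ˣ : ℝ) * ((p : ℝ) ^ 2 * (s : ℝ) ^ 2) := by
    refine (Finset.sum_le_sum fun δ _ => hle δ).trans (le_of_eq ?_)
    rw [Finset.sum_const, card_univ, nsmul_eq_mul]
  have hs' : (0 : ℝ) < (s : ℝ) ^ 2 := by
    have : (0 : ℝ) < s := by exact_mod_cast hs
    positivity
  have h4 : (X.card : ℝ) * ((Fintype.card (ZMod N)ˣ : ℝ) * (s : ℝ) ^ 2) ≤
      (p : ℝ) ^ 2 * ((Fintype.card (ZMod N)ˣ : ℝ) * (s : ℝ) ^ 2) := by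
    refine (h2.trans h3).trans (le_of_eq (by ring))
  have h5 := le_of_mul_le_mul_right h4 (mul_pos hcard hs')
  exact_mod_cast h5

end

end P179H46
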