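import Vale.Agent.P179.H143.Dn
import Vale.Agent.P179.H905.I1

/-!
# Adams operations: `x ↦ ψ(x ^ q)` is an integral combination of characters
-/

namespace P179H46

open Finset P179P P179C P179Y P179H524 P179A

open scoped Classical

section Path

variable {n R : Type*} [Fintype n] [DecidableEq n] [CommRing R]

theorem sum_path (M : Matrix n n R) (k : ℕ) (f : n → n → R) :
    ∑ b : Fin (k + 1) → n, f (b 0) (b (Fin.last k)) *
      ∏ i : Fin k, M (b i.castSucc) (b i.succ) = ∑ u, ∑ v, f u v * (M ^ k) u v := by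
  induction k generalizing f with
  | zero =>
    simp only [Finset.univ_eq_empty, Finset.prod_empty, mul_one, pow_zero]
    rw [← (Equiv.funUnique (Fin 1) n).symm.sum_comp]
    refine Finset.sum_congr rfl fun u _ => ?_
    rw [Finset.sum_eq_single u]
    · simp
    · intro v _ hv
      rw [Matrix.one_apply_ne' hv, mul_zero]
    · intro h
      exact absurd (mem_univ u) h
  | succ k ih =>
    rw [← (Fin.consEquiv (fun _ : Fin (k + 2) => n)).sum_comp, Fintype.sum_prod_type]
    have h1 : ∀ u : n, ∑ b : Fin (k + 1) → n,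
        f ((Fin.consEquiv fun _ => n) (u, b) 0) ((Fin.consEquiv fun _ => n) (u, b) (Fin.last (k + 1))) *
          ∏ i : Fin (k + 1), M ((Fin.consEquiv fun _ => n) (u, b) i.castSucc)
            ((Fin.consEquiv fun _ => n) (u, b) i.succ) =
        ∑ b : Fin (k + 1) → n, (fun x y => f u y * M u x) (b 0) (b (Fin.last k)) *
          ∏ i : Fin k, M (b i.castSucc) (b i.succ) := by
      intro u
      refine Finset.sum_congr rfl fun b _ => ?_
      rw [Fin.prod_univ_succ]
      simp only [Fin.consEquiv_apply, Fin.castSucc_zero, Fin.cons_zero, Fin.cons_succ]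
      have h2 : Fin.cons (α := fun _ => n) u b (Fin.last (k + 1)) = b (Fin.last k) := by
        rw [← Fin.succ_last, Fin.cons_succ]
      have h3 : ∀ i : Fin k, Fin.cons (α := fun _ => n) u b i.succ.castSucc = b i.castSucc := by
        intro i
        rw [← Fin.succ_castSucc, Fin.cons_succ]
      rw [h2]
      simp only [h3]
      ring
    rw [Finset.sum_congr rfl fun u _ => h1 u]
    refine Finset.sum_congr rfl fun u _ => ?_
    refine (ih fun x y => f u y * M u x).trans ?_
    simp only [pow_succ', Matrix.mul_apply]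
    rw [Finset.sum_comm]
    refine Finset.sum_congr rfl fun y _ => ?_
    rw [Finset.mul_sum]
    refine Finset.sum_congr rfl fun x _ => ?_
    ring

theorem trace_pow (M : Matrix n n R) (k : ℕ) :
    ∑ b : Fin (k + 1) → n, ∏ i : Fin (k + 1), M (b i) (b (i + 1)) = (M ^ (k + 1)).trace := by
  have h1 : ∀ b : Fin (k + 1) → n, ∏ i : Fin (k + 1), M (b i) (b (i + 1)) =
      M (b (Fin.last k)) (b 0) * ∏ i : Fin k, M (b i.castSucc) (b i.succ) := by
    intro b
    rw [Fin.prod_univ_castSucc, mul_comm]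
    congr 1
    · simp
    · refine Finset.prod_congr rfl fun i _ => ?_
      congr 2
      exact Fin.coeSucc_eq_succ
  rw [Finset.sum_congr rfl fun b _ => h1 b, sum_path M k (fun u v => M v u), Matrix.trace,
    Finset.sum_comm]
  refine Finset.sum_congr rfl fun v _ => ?_
  rw [Matrix.diag_apply, pow_succ', Matrix.mul_apply]

end Path

section Tensor

variable {K : Type*} [Group K] {n : Type*} [Fintype n] [DecidableEq n]

/-- the tensor power with the cyclic shift -/
noncomputable def tens (M : K →* Matrix n n ℂ) (k : ℕ) :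
    K × Multiplicative (Fin (k + 1)) →* Matrix (Fin (k + 1) → n) (Fin (k + 1) → n) ℂ where
  toFun x := Matrix.of fun a b => ∏ i, M x.1 (a i) (b (i + x.2.toAdd))
  map_one' := by
    ext a b
    simp only [Matrix.of_apply, Prod.fst_one, map_one, Prod.snd_one, toAdd_one, add_zero]
    by_cases h : a = b
    · subst h
      simp
    · rw [Matrix.one_apply_ne h]
      obtain ⟨i, hi⟩ := Function.ne_iff.1 h
      exact Finset.prod_eq_zero (mem_univ i) (Matrix.one_apply_ne hi)
  map_mul' x y := by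
    ext a c
    simp only [Matrix.of_apply, Prod.fst_mul, map_mul, Prod.snd_mul, toAdd_mul, Matrix.mul_apply]
    rw [Finset.prod_univ_sum, Fintype.piFinset_univ]
    rw [← (Equiv.arrowCongr (Equiv.addRight x.2.toAdd) (Equiv.refl n)).symm.sum_comp]
    refine Finset.sum_congr rfl fun b _ => ?_
    rw [Finset.prod_mul_distrib]
    congr 1
    rw [← Equiv.prod_comp (Equiv.addRight x.2.toAdd) (fun i => M y.1 (b i) (c (i + y.2.toAdd)))]
    refine Finset.prod_congr rfl fun i _ => ?_
    simp [Equiv.arrowCongr, add_assoc]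

theorem tens_trace (M : K →* Matrix n n ℂ) (k : ℕ) (x : K) :
    (tens M k (x, Multiplicative.ofAdd 1)).trace = (M x ^ (k + 1)).trace := by
  rw [← trace_pow]
  rfl

end Tensor

section Decomp

/-- the character of a representation is a sum of irreducible characters -/
theorem char_decomp {H : Type*} [Group H] [Finite H] {V : Type*} [AddCommGroup V] [Module ℂ V]
    [FiniteDimensional ℂ V] (ρ : Representation ℂ H V) :
    ∃ n : Irr H → ℕ, ∀ h : H, ρ.character h = ∑ ψ : Irr H, (n ψ : ℂ) * ψ.1 h := by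
  have := Fintype.ofFinite H
  have : Invertible (Nat.card H : ℂ) := invertibleOfNonzero (by exact_mod_cast Nat.card_pos.ne')
  have h1 : ∀ ψ : Irr H, ∃ n : ℕ, (Fintype.card H : ℂ)⁻¹ * ∑ g : H, ρ.character g * ψ.1 g⁻¹ =
      n := by
    rintro ⟨ψ, e, σ, hσ, rfl⟩
    have h2 := Representation.card_inv_mul_sum_char_mul_char_eq_finrank σ ρ
    rw [Nat.card_eq_fintype_card] at h2
    exact ⟨_, h2⟩
  choose n hn using h1
  refine ⟨n, fun h => ?_⟩
  have hcf : IsCF fun h : H => ρ.character h := by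
    intro t x
    exact Representation.char_conj ρ x t
  have h2 := cf_expand hcf h
  refine Eq.trans h2 ?_
  exact Finset.sum_congr rfl fun ψ _ => by rw [hn]

/-- **Adams operations** -/
theorem adams_int {K : Type*} [Group K] [Finite K] (ψ : Irr K) {q : ℕ} (hq : q ≠ 0) :
    ∃ c : Irr K → AA, ∀ x : K, ψ.1 (x ^ q) = ∑ j : Irr K, (c j : ℂ) * j.1 x := by
  obtain ⟨k, rfl⟩ : ∃ k, q = k + 1 := ⟨q - 1, by omega⟩
  obtain ⟨ψ, d, ρ, hρ, rfl⟩ := ψ
  let M : K →* Matrix (Fin d) (Fin d) ℂ :=
    (LinearMap.toMatrixAlgEquiv' : _ ≃ₐ[ℂ] _).toAlgHom.toRingHom.toMonoidHom.comp ρ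
  let R : Representation ℂ (K × Multiplicative (Fin (k + 1))) ((Fin (k + 1) → Fin d) → ℂ) :=
    (Matrix.toLinAlgEquiv' : _ ≃ₐ[ℂ] _).toAlgHom.toRingHom.toMonoidHom.comp (tens M k)
  obtain ⟨n, hn⟩ := char_decomp R
  set c₀ : K × Multiplicative (Fin (k + 1)) := (1, Multiplicative.ofAdd 1) with hc₀
  have hcen : ∀ x : K × Multiplicative (Fin (k + 1)), x * c₀ = c₀ * x := by
    intro x
    rw [hc₀]
    ext
    · simp
    · simp [mul_comm]
  have hpow : c₀ ^ (Nat.card (K × Multiplicative (Fin (k + 1)))) = 1 := pow_card_eq_one'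
  have hsc : ∀ Ψ : Irr (K × Multiplicative (Fin (k + 1))), ∃ μ : AA, ∀ x,
      Ψ.1 (c₀ * x) = (μ : ℂ) * Ψ.1 x := by
    intro Ψ
    obtain ⟨c, hc, h⟩ := central_scalar Ψ c₀ hcen hpow
    refine ⟨⟨c, ?_⟩, fun x => ?_⟩
    · refine IsIntegral.of_pow (n := Nat.card (K × Multiplicative (Fin (k + 1)))) Nat.card_pos ?_
      rw [hc]
      exact isIntegral_one
    · have := h 1 x
      rwa [pow_one, pow_one] at this
  choose μ hμ using hsc
  have hres : ∀ Ψ : Irr (K × Multiplicative (Fin (k + 1))), ∃ m : Irr K → ℕ, ∀ x : K,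
      Ψ.1 (x, 1) = ∑ j : Irr K, (m j : ℂ) * j.1 x := by
    rintro ⟨Ψ, e, σ, hσ, rfl⟩
    let σK : Representation ℂ K (Fin e → ℂ) := σ.comp (MonoidHom.inl K _)
    obtain ⟨m, hm⟩ := char_decomp σK
    exact ⟨m, fun x => hm x⟩
  choose m hm using hres
  refine ⟨fun j => ∑ Ψ, (n Ψ : AA) * μ Ψ * (m Ψ j : AA), fun x => ?_⟩
  have h1 : R.character (x, Multiplicative.ofAdd 1) = ρ.character (x ^ (k + 1)) := by
    change LinearMap.trace ℂ _ (Matrix.toLin' (tens M k (x, Multiplicative.ofAdd 1))) =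
      LinearMap.trace ℂ _ (ρ (x ^ (k + 1)))
    rw [Matrix.trace_toLin'_eq, tens_trace, ← map_pow]
    have h3 : Matrix.toLin' (M (x ^ (k + 1))) = ρ (x ^ (k + 1)) :=
      Matrix.toLin'_toMatrix' (ρ (x ^ (k + 1)))
    rw [← h3, Matrix.trace_toLin'_eq]
  change ρ.character (x ^ (k + 1)) = _
  rw [← h1, hn]
  push_cast
  simp only [Finset.sum_mul]
  rw [Finset.sum_comm]
  refine Finset.sum_congr rfl fun Ψ _ => ?_
  have h2 : (x, Multiplicative.ofAdd 1) = c₀ * (x, (1 : Multiplicative (Fin (k + 1)))) := by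
    rw [hc₀]
    ext
    · simp
    · simp
  rw [h2, hμ, hm, Finset.mul_sum, Finset.mul_sum]
  refine Finset.sum_congr rfl fun j _ => ?_
  ring

end Decomp

end P179H46
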