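import Vale.Agent.P179.R2.H292.Cop
import Vale.Agent.P179.R2.H92.RegElt

/-!
# Coprime linear groups in dimension three have a base of size two

Assume that `T` acts coprimely on the elementary abelian group `V` of order `p ^ 3` and that no two
elements of `V` have a common stabiliser acting trivially (`NoBase`). Then every plane `H` has a
nontrivial stabiliser, `H ↦ [V, C(H)]` is a bijection from planes to lines, `L ↦ [V, C(L)]` a
bijection from lines to planes, and both reverse the incidence. The matrix `M` of the relation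
`z ∈ [V, C(x)]` over `ZMod p` satisfies `(M - J) ^ 2 = 0`, so its trace is `-1`; but `x` never
lies in `[V, C(x)]`.
-/

namespace P179H46.Base

open Subgroup

section

variable {p : ℕ} [hp : Fact p.Prime] {G : Type*} [Group G] [Finite G] {V T : Subgroup G}

/-- the stabiliser -/
def sS (T X : Subgroup G) : Subgroup G := T ⊓ centralizer (X : Set G)

omit [Finite G] in
theorem sS_le {X : Subgroup G} : sS T X ≤ T := inf_le_left

omit [Finite G] in
theorem sS_anti {X Y : Subgroup G} (h : X ≤ Y) : sS T Y ≤ sS T X :=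
  inf_le_inf_left _ (centralizer_le h)

/-- the commutator -/
def cC (T V X : Subgroup G) : Subgroup G := ⁅sS T X, V⁆

omit [Finite G] in
theorem cC_anti {X Y : Subgroup G} (h : X ≤ Y) : cC T V Y ≤ cC T V X :=
  commutator_mono (sS_anti h) le_rfl

/-- the fixed points -/
def fF (T V X : Subgroup G) : Subgroup G := V ⊓ centralizer (sS T X : Set G)

omit [Finite G] in
theorem le_fF {X : Subgroup G} (hX : X ≤ V) : X ≤ fF T V X := by
  refine le_inf hX fun x hx => ?_
  rw [mem_centralizer_iff]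
  intro t ht
  exact (mem_centralizer_iff.1 ht.2 x hx).symm

omit [Finite G] in
theorem fF_mono {X Y : Subgroup G} (h : X ≤ Y) : fF T V X ≤ fF T V Y :=
  inf_le_inf_left _ (centralizer_le (sS_anti h))

/-- an elementary abelian group of order `p ^ 3` with a coprime action -/
structure Dat (p : ℕ) (V T : Subgroup G) : Prop where
  ex : ∀ v ∈ V, v ^ p = 1
  ab : ∀ a ∈ V, ∀ b ∈ V, a * b = b * a
  card : Nat.card V = p ^ 3
  norm : T ≤ normalizer (V : Set G)
  idx : ¬ p ∣ (centralizer (V : Set G)).relIndex T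

theorem card_mul_of {A B : Subgroup G} (hA : A ≤ V) (hB : B ≤ V) (hab : A ⊓ B = ⊥)
    (hsup : ∀ x ∈ V, ∃ a ∈ A, ∃ b ∈ B, x = a * b) : Nat.card A * Nat.card B = Nat.card V := by
  rw [← Nat.card_prod]
  refine Nat.card_congr (Equiv.ofBijective
    (fun x : A × B => (⟨x.1 * x.2, V.mul_mem (hA x.1.2) (hB x.2.2)⟩ : V)) ⟨?_, ?_⟩)
  · rintro ⟨a, b⟩ ⟨a', b'⟩ he
    have h1 : (a : G) * b = a' * b' := congrArg Subtype.val he
    have h2 : (a' : G)⁻¹ * a = b' * (b : G)⁻¹ := by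
      calc (a' : G)⁻¹ * a = (a' : G)⁻¹ * (a * b) * (b : G)⁻¹ := by group
        _ = b' * (b : G)⁻¹ := by rw [h1]; group
    have h3 : (a' : G)⁻¹ * a ∈ A ⊓ B := by
      refine ⟨A.mul_mem (A.inv_mem a'.2) a.2, ?_⟩
      rw [h2]
      exact B.mul_mem b'.2 (B.inv_mem b.2)
    rw [hab, mem_bot] at h3
    rw [h3] at h2
    have h4 : a = a' := Subtype.ext (inv_mul_eq_one.1 h3).symm
    have h5 : b = b' := Subtype.ext (mul_inv_eq_one.1 h2.symm).symm
    rw [h4, h5]
  · rintro ⟨x, hx⟩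
    obtain ⟨a, ha, b, hb, rfl⟩ := hsup x hx
    exact ⟨(⟨a, ha⟩, ⟨b, hb⟩), rfl⟩

theorem Dat.isP (h : Dat p V T) : IsPGroup p V := IsPGroup.of_card h.card

theorem Dat.idx' (h : Dat p V T) {S : Subgroup G} (hS : S ≤ T) :
    ¬ p ∣ (centralizer (V : Set G)).relIndex S := fun hd =>
  h.idx (hd.trans (P179H92.relIndex_dvd h.norm hS))

theorem Dat.cle (h : Dat p V T) {S : Subgroup G} (hS : S ≤ T) : ⁅S, V⁆ ≤ V :=
  P179H292.comm_le (hS.trans h.norm)

theorem Dat.disj (h : Dat p V T) {S : Subgroup G} (hS : S ≤ T) :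
    (V ⊓ centralizer (S : Set G)) ⊓ ⁅S, V⁆ = ⊥ := by
  rw [eq_bot_iff]
  rintro x ⟨hx1, hx2⟩
  rw [mem_bot]
  refine P179H292.comm_inf_fix h.isP h.ab (hS.trans h.norm) (h.idx' hS) hx2 fun t ht => ?_
  have h1 := mem_centralizer_iff.1 (Subgroup.mem_inf.1 hx1).2 t ht
  rw [h1, mul_inv_cancel_right]

theorem Dat.split (h : Dat p V T) {S : Subgroup G} (hS : S ≤ T) {x : G} (hx : x ∈ V) :
    ∃ a ∈ (V ⊓ centralizer (S : Set G) : Subgroup G), ∃ b ∈ (⁅S, V⁆ : Subgroup G),
      x = a * b := by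
  obtain ⟨y, hy, hyt, z, hz, he⟩ := P179H292.mem_fix_mul h.isP h.ab (hS.trans h.norm)
    (h.idx' hS) hx
  refine ⟨y, Subgroup.mem_inf.2 ⟨hy, ?_⟩, z, hz, he⟩
  rw [mem_centralizer_iff]
  intro t ht
  calc t * y = t * y * t⁻¹ * t := by group
    _ = y * t := by rw [hyt t ht]

theorem Dat.mulc (h : Dat p V T) {S : Subgroup G} (hS : S ≤ T) :
    Nat.card (V ⊓ centralizer (S : Set G) : Subgroup G) *
      Nat.card (⁅S, V⁆ : Subgroup G) = p ^ 3 := by
  rw [← h.card]
  exact card_mul_of inf_le_left (h.cle hS) (h.disj hS) fun x hx => h.split hS hx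

/-- orders of subgroups -/
theorem Dat.card_sub (h : Dat p V T) {A : Subgroup G} (hA : A ≤ V) :
    ∃ i, i ≤ 3 ∧ Nat.card A = p ^ i := by
  have h1 : Nat.card A ∣ p ^ 3 := by
    rw [← h.card]
    exact card_dvd_of_le hA
  obtain ⟨i, hi, h2⟩ := (Nat.dvd_prime_pow hp.out).1 h1
  exact ⟨i, hi, h2⟩

theorem Dat.eq_of_card (h : Dat p V T) {A : Subgroup G} (hA : A ≤ V)
    (hc : Nat.card A = p ^ 3) : A = V := by
  refine Subgroup.eq_of_le_of_card_ge hA ?_
  rw [h.card, hc]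

/-- cyclic subgroups -/
theorem Dat.card_z (h : Dat p V T) {v : G} (hv : v ∈ V) (hv1 : v ≠ 1) :
    Nat.card (zpowers v) = p := by
  rw [Nat.card_zpowers]
  exact orderOf_eq_prime (h.ex v hv) hv1

theorem Dat.eq_z (h : Dat p V T) {A : Subgroup G} (hA : A ≤ V) (hc : Nat.card A = p) {v : G}
    (hv : v ∈ A) (hv1 : v ≠ 1) : A = zpowers v := by
  symm
  refine Subgroup.eq_of_le_of_card_ge ((zpowers_le).2 hv) ?_
  rw [hc, h.card_z (hA hv) hv1]

theorem exists_ne {A : Subgroup G} (hc : 1 < Nat.card A) : ∃ v ∈ A, v ≠ 1 := by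
  by_contra hne
  push Not at hne
  have : A = ⊥ := by
    rw [eq_bot_iff]
    intro v hv
    rw [mem_bot]
    exact hne v hv
  rw [this, card_bot] at hc
  exact lt_irrefl _ hc

/-- the order of a product -/
theorem Dat.card_sup (h : Dat p V T) {A B : Subgroup G} (hA : A ≤ V) (hB : B ≤ V) :
    Nat.card (A ⊔ B : Subgroup G) * Nat.card (A ⊓ B : Subgroup G) =
      Nat.card A * Nat.card B := by
  let _ : CommGroup V := { (inferInstance : Group V) with
    mul_comm := fun a b => Subtype.ext (h.ab a a.2 b b.2) }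
  have key : ∀ K L : Subgroup V, K ≤ L → Nat.card K * K.relIndex L = Nat.card L := by
    intro K L hKL
    have := relIndex_mul_relIndex ⊥ K L bot_le hKL
    rwa [relIndex_bot_left, relIndex_bot_left] at this
  have hcard : ∀ K : Subgroup G, K ≤ V → Nat.card (K.subgroupOf V) = Nat.card K := fun K hK =>
    Nat.card_congr (subgroupOfEquivOfLe hK).toEquiv
  have h1 := key (B.subgroupOf V) (A.subgroupOf V ⊔ B.subgroupOf V) le_sup_right
  rw [relIndex_sup_right] at h1
  have h2 := key (B.subgroupOf V ⊓ A.subgroupOf V) (A.subgroupOf V) inf_le_right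
  rw [inf_relIndex_right] at h2
  have h3 : (B.subgroupOf V ⊓ A.subgroupOf V) = (A ⊓ B : Subgroup G).subgroupOf V := by
    ext x
    rw [Subgroup.mem_inf, mem_subgroupOf, mem_subgroupOf, mem_subgroupOf, Subgroup.mem_inf]
    exact and_comm
  rw [← subgroupOf_sup hA hB, hcard _ (sup_le hA hB), hcard _ hB] at h1
  rw [h3, hcard _ (inf_le_left.trans hA), hcard _ hA] at h2
  rw [← h1, ← h2]
  ring


theorem Dat.inf_bot (h : Dat p V T) {A B : Subgroup G} (hA : A ≤ V) (hc : Nat.card A = p)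
    (hAB : ¬ A ≤ B) : A ⊓ B = ⊥ := by
  by_contra hne
  have h1 : 1 < Nat.card (A ⊓ B : Subgroup G) := by
    rw [one_lt_card_iff_ne_bot]
    exact hne
  obtain ⟨w, hw, hw1⟩ := exists_ne h1
  apply hAB
  rw [h.eq_z hA hc (Subgroup.mem_inf.1 hw).1 hw1, zpowers_le]
  exact (Subgroup.mem_inf.1 hw).2

theorem Dat.card_sup' (h : Dat p V T) {A B : Subgroup G} (hA : A ≤ V) (hB : B ≤ V)
    (hc : Nat.card A = p) (hAB : ¬ A ≤ B) : Nat.card (A ⊔ B : Subgroup G) = p * Nat.card B := by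
  have h1 := h.card_sup hA hB
  rwa [h.inf_bot hA hc hAB, card_bot, mul_one, hc] at h1

/-- **the assumption**: no base of size two -/
def NoBase (V T : Subgroup G) : Prop :=
  ∀ v₁ ∈ V, ∀ v₂ ∈ V, ∃ t ∈ T, t * v₁ = v₁ * t ∧ t * v₂ = v₂ * t ∧
    t ∉ centralizer (V : Set G)

theorem Dat.two_gen (h : Dat p V T) {X : Subgroup G} (hX : X ≤ V)
    (hc : Nat.card X ≤ p ^ 2) : ∃ v₁ ∈ X, ∃ v₂ ∈ X, X = zpowers v₁ ⊔ zpowers v₂ := by
  by_cases h0 : X = ⊥
  · exact ⟨1, one_mem _, 1, one_mem _, by rw [h0]; simp⟩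
  · have h00 : 1 < Nat.card X := by
      rw [one_lt_card_iff_ne_bot]
      exact h0
    obtain ⟨v₁, hv₁, hv1⟩ := exists_ne h00
    by_cases h1 : X ≤ zpowers v₁
    · refine ⟨v₁, hv₁, 1, one_mem _, ?_⟩
      rw [zpowers_one_eq_bot, sup_bot_eq]
      exact le_antisymm h1 ((zpowers_le).2 hv₁)
    · obtain ⟨v₂, hv₂, hv2⟩ := SetLike.not_le_iff_exists.1 h1
      refine ⟨v₁, hv₁, v₂, hv₂, ?_⟩
      symm
      have h2 : v₂ ≠ 1 := fun h2 => hv2 (h2 ▸ one_mem _)
      refine Subgroup.eq_of_le_of_card_ge (sup_le ((zpowers_le).2 hv₁) ((zpowers_le).2 hv₂)) ?_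
      rw [sup_comm, h.card_sup' ((zpowers_le).2 (hX hv₂)) ((zpowers_le).2 (hX hv₁))
        (h.card_z (hX hv₂) h2) (fun h3 => hv2 (h3 (mem_zpowers v₂))), h.card_z (hX hv₁) hv1]
      rwa [pow_two] at hc

theorem Dat.fF_ne (h : Dat p V T) (hN : NoBase V T) {X : Subgroup G} (hX : X ≤ V)
    (hc : Nat.card X ≤ p ^ 2) : fF T V X ≠ V := by
  -- `X` is generated by two elements
  obtain ⟨v₁, hv₁, v₂, hv₂, hgen⟩ := h.two_gen hX hc
  intro hf
  obtain ⟨t, ht, h1, h2, h3⟩ := hN v₁ (hX hv₁) v₂ (hX hv₂)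
  apply h3
  have hts : t ∈ sS T X := by
    refine Subgroup.mem_inf.2 ⟨ht, ?_⟩
    have h4 : X ≤ centralizer ({t} : Set G) := by
      rw [hgen]
      refine sup_le ?_ ?_
      · rw [zpowers_le, mem_centralizer_singleton_iff]
        exact h1.symm
      · rw [zpowers_le, mem_centralizer_singleton_iff]
        exact h2.symm
    rw [mem_centralizer_iff]
    intro x hx
    exact mem_centralizer_singleton_iff.1 (h4 hx)
  rw [mem_centralizer_iff]
  intro v hv
  rw [SetLike.mem_coe, ← hf] at hv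
  exact (mem_centralizer_iff.1 (Subgroup.mem_inf.1 hv).2 t hts).symm

theorem Dat.card_fF (h : Dat p V T) (hN : NoBase V T) {X : Subgroup G} (hX : X ≤ V)
    (hc : Nat.card X ≤ p ^ 2) : Nat.card (fF T V X) ≤ p ^ 2 := by
  obtain ⟨i, hi, hci⟩ := h.card_sub (A := fF T V X) inf_le_left
  rw [hci]
  refine Nat.pow_le_pow_right hp.out.pos ?_
  by_contra h3
  have h4 : i = 3 := by omega
  rw [h4] at hci
  exact h.fF_ne hN hX hc (h.eq_of_card inf_le_left hci)

/-- planes -/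
theorem Dat.plane (h : Dat p V T) (hN : NoBase V T) {H : Subgroup G} (hH : H ≤ V)
    (hc : Nat.card H = p ^ 2) : fF T V H = H ∧ Nat.card (cC T V H) = p := by
  have h1 : H = fF T V H := Subgroup.eq_of_le_of_card_ge (le_fF hH)
    (by rw [hc]; exact h.card_fF hN hH hc.le)
  refine ⟨h1.symm, ?_⟩
  have h2 := h.mulc (S := sS T H) sS_le
  change Nat.card (fF T V H) * Nat.card (cC T V H) = p ^ 3 at h2
  rw [← h1, hc, show p ^ 3 = p ^ 2 * p by ring] at h2
  exact mul_left_cancel₀ (pow_ne_zero _ hp.out.ne_zero) h2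

/-- lines -/
theorem Dat.line (h : Dat p V T) (hN : NoBase V T) {L : Subgroup G} (hL : L ≤ V)
    (hc : Nat.card L = p) : fF T V L = L ∧ Nat.card (cC T V L) = p ^ 2 := by
  have hcL : Nat.card L ≤ p ^ 2 := by
    rw [hc]
    exact Nat.le_self_pow (by norm_num) p
  have h0 := h.card_fF hN hL hcL
  have h2 := h.mulc (S := sS T L) sS_le
  change Nat.card (fF T V L) * Nat.card (cC T V L) = p ^ 3 at h2
  obtain ⟨i, hi, hci⟩ := h.card_sub (A := fF T V L) inf_le_left
  have hi2 : i ≤ 2 := by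
    rw [hci] at h0
    exact (Nat.pow_le_pow_iff_right hp.out.one_lt).1 h0
  have hi1 : 1 ≤ i := by
    have h3 := Subgroup.card_le_of_le (le_fF (T := T) hL)
    rw [hci, hc] at h3
    by_contra h4
    have h5 : i = 0 := by omega
    rw [h5, pow_zero] at h3
    exact absurd hp.out.one_lt (by omega)
  rcases (by omega : i = 1 ∨ i = 2) with h5 | h5
  · rw [h5, pow_one] at hci
    refine ⟨(Subgroup.eq_of_le_of_card_ge (le_fF hL) (by rw [hc, hci])).symm, ?_⟩
    rw [hci, pow_succ'] at h2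
    exact mul_left_cancel₀ hp.out.ne_zero h2
  · exfalso
    rw [h5] at hci
    rw [hci, show p ^ 3 = p ^ 2 * p by ring] at h2
    have h3 : Nat.card (cC T V L) = p := mul_left_cancel₀ (pow_ne_zero _ hp.out.ne_zero) h2
    obtain ⟨u, hu, hu1⟩ := exists_ne (A := cC T V L) (by rw [h3]; exact hp.out.one_lt)
    have hcV : cC T V L ≤ V := h.cle sS_le
    have hcz := h.eq_z hcV h3 hu hu1
    have hXV : zpowers u ⊔ L ≤ V := sup_le (hcz ▸ hcV) hL
    have hX : Nat.card (zpowers u ⊔ L : Subgroup G) ≤ p ^ 2 := by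
      rw [h.card_sup' ((zpowers_le).2 (hcV hu)) hL (h.card_z (hcV hu) hu1), hc, pow_two]
      intro h6
      have h7 : u ∈ fF T V L ⊓ cC T V L := ⟨le_fF hL (h6 (mem_zpowers u)), hu⟩
      rw [show fF T V L ⊓ cC T V L = ⊥ from h.disj sS_le, mem_bot] at h7
      exact hu1 h7
    apply h.fF_ne hN hXV hX
    refine le_antisymm inf_le_left fun x hx => ?_
    obtain ⟨a, ha, b, hb, rfl⟩ := h.split (S := sS T L) sS_le hx
    refine Subgroup.mul_mem _ (fF_mono le_sup_right ha) (le_fF hXV (mem_sup_left ?_))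
    rw [← hcz]
    exact hb

theorem comm_conj {S : Subgroup G} {s : G} (hs : s ∈ S) {x : G}
    (hx : x ∈ (⁅S, V⁆ : Subgroup G)) : s * x * s⁻¹ ∈ (⁅S, V⁆ : Subgroup G) := by
  have h1 : (⁅S, V⁆ : Subgroup G) ≤ (⁅S, V⁆ : Subgroup G).comap (MulAut.conj s).toMonoidHom := by
    rw [commutator_le]
    intro t ht v hv
    rw [mem_comap]
    change s * (t * v * t⁻¹ * v⁻¹) * s⁻¹ ∈ _
    have h2 : s * (t * v * t⁻¹ * v⁻¹) * s⁻¹ =
        (s * t * v * (s * t)⁻¹ * v⁻¹) * (s * v * s⁻¹ * v⁻¹)⁻¹ := by group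
    rw [h2]
    exact mul_mem (commutator_mem_commutator (mul_mem hs ht) hv)
      (inv_mem (commutator_mem_commutator hs hv))
  exact h1 hx

theorem comm_sup_le {S₁ S₂ c : Subgroup G} (h₁ : (⁅S₁, V⁆ : Subgroup G) = c)
    (h₂ : (⁅S₂, V⁆ : Subgroup G) = c) : (⁅S₁ ⊔ S₂, V⁆ : Subgroup G) ≤ c := by
  have key : ∀ k ∈ S₁ ⊔ S₂, (∀ x ∈ c, k * x * k⁻¹ ∈ c) ∧ (∀ x ∈ c, k⁻¹ * x * k ∈ c) ∧
      (∀ v ∈ V, k * v * k⁻¹ * v⁻¹ ∈ c) ∧ (∀ v ∈ V, k⁻¹ * v * k * v⁻¹ ∈ c) := by
    intro k hk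
    rw [Subgroup.sup_eq_closure] at hk
    have hS : ∀ S : Subgroup G, (⁅S, V⁆ : Subgroup G) = c → ∀ k ∈ S,
        (∀ x ∈ c, k * x * k⁻¹ ∈ c) ∧ (∀ x ∈ c, k⁻¹ * x * k ∈ c) ∧
        (∀ v ∈ V, k * v * k⁻¹ * v⁻¹ ∈ c) ∧ (∀ v ∈ V, k⁻¹ * v * k * v⁻¹ ∈ c) := by
      rintro S rfl k hk
      refine ⟨fun x hx => comm_conj hk hx, fun x hx => ?_,
        fun v hv => commutator_mem_commutator hk hv, fun v hv => ?_⟩
      · have := comm_conj (inv_mem hk) hx
        rwa [inv_inv] at this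
      · have := commutator_mem_commutator (inv_mem hk) hv
        rw [commutatorElement_def, inv_inv] at this
        exact this
    induction hk using Subgroup.closure_induction with
    | mem k hk =>
      rcases hk with hk | hk
      · exact hS S₁ h₁ k hk
      · exact hS S₂ h₂ k hk
    | one =>
      refine ⟨fun x hx => by simpa using hx, fun x hx => by simpa using hx,
        fun v _ => by simp, fun v _ => by simp⟩
    | mul k l _ _ hk hl =>
      obtain ⟨a1, a2, a3, a4⟩ := hk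
      obtain ⟨b1, b2, b3, b4⟩ := hl
      refine ⟨fun x hx => ?_, fun x hx => ?_, fun v hv => ?_, fun v hv => ?_⟩
      · have := a1 _ (b1 x hx)
        have e : k * l * x * (k * l)⁻¹ = k * (l * x * l⁻¹) * k⁻¹ := by group
        rwa [e]
      · have := b2 _ (a2 x hx)
        have e : (k * l)⁻¹ * x * (k * l) = l⁻¹ * (k⁻¹ * x * k) * l := by group
        rwa [e]
      · have := mul_mem (a1 _ (b3 v hv)) (a3 v hv)
        have e : k * l * v * (k * l)⁻¹ * v⁻¹ =
            k * (l * v * l⁻¹ * v⁻¹) * k⁻¹ * (k * v * k⁻¹ * v⁻¹) := by group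
        rwa [e]
      · have := mul_mem (b2 _ (a4 v hv)) (b4 v hv)
        have e : (k * l)⁻¹ * v * (k * l) * v⁻¹ =
            l⁻¹ * (k⁻¹ * v * k * v⁻¹) * l * (l⁻¹ * v * l * v⁻¹) := by group
        rwa [e]
    | inv k _ hk =>
      obtain ⟨a1, a2, a3, a4⟩ := hk
      refine ⟨fun x hx => ?_, fun x hx => ?_, fun v hv => ?_, fun v hv => ?_⟩
      · rw [inv_inv]; exact a2 x hx
      · rw [inv_inv]; exact a1 x hx
      · rw [inv_inv]; exact a4 v hv
      · rw [inv_inv]; exact a3 v hv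
  rw [commutator_le]
  intro k hk v hv
  exact (key k hk).2.2.1 v hv

/-- the map from planes to lines is injective -/
theorem Dat.inj_plane (h : Dat p V T) (hN : NoBase V T) {H₁ H₂ : Subgroup G} (hH₁ : H₁ ≤ V)
    (hc₁ : Nat.card H₁ = p ^ 2) (hH₂ : H₂ ≤ V) (hc₂ : Nat.card H₂ = p ^ 2)
    (he : cC T V H₁ = cC T V H₂) : H₁ = H₂ := by
  have hK : sS T H₁ ⊔ sS T H₂ ≤ T := sup_le sS_le sS_le
  have h1 := comm_sup_le (V := V) (S₁ := sS T H₁) (S₂ := sS T H₂) (c := cC T V H₁) rfl he.symm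
  have h2 := Subgroup.card_le_of_le h1
  rw [(h.plane hN hH₁ hc₁).2] at h2
  have h3 := h.mulc hK
  have h4 : p ^ 2 ≤ Nat.card (V ⊓ centralizer ((sS T H₁ ⊔ sS T H₂ : Subgroup G) : Set G) :
      Subgroup G) := by
    by_contra h5
    push Not at h5
    have h6 : Nat.card (V ⊓ centralizer ((sS T H₁ ⊔ sS T H₂ : Subgroup G) : Set G) :
      Subgroup G) * Nat.card (⁅sS T H₁ ⊔ sS T H₂, V⁆ : Subgroup G) < p ^ 2 * p :=
      lt_of_le_of_lt (Nat.mul_le_mul_left _ h2) (Nat.mul_lt_mul_of_pos_right h5 hp.out.pos)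
    rw [h3] at h6
    exact absurd h6 (by rw [show p ^ 3 = p ^ 2 * p by ring]; exact lt_irrefl _)
  have h5 : V ⊓ centralizer ((sS T H₁ ⊔ sS T H₂ : Subgroup G) : Set G) ≤ fF T V H₁ :=
    inf_le_inf_left _ (centralizer_le (show (sS T H₁ : Set G) ⊆
      ((sS T H₁ ⊔ sS T H₂ : Subgroup G) : Set G) from fun x hx => mem_sup_left hx))
  have h6 : V ⊓ centralizer ((sS T H₁ ⊔ sS T H₂ : Subgroup G) : Set G) ≤ fF T V H₂ :=
    inf_le_inf_left _ (centralizer_le (show (sS T H₂ : Set G) ⊆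
      ((sS T H₁ ⊔ sS T H₂ : Subgroup G) : Set G) from fun x hx => mem_sup_right hx))
  rw [(h.plane hN hH₁ hc₁).1] at h5
  rw [(h.plane hN hH₂ hc₂).1] at h6
  rw [← Subgroup.eq_of_le_of_card_ge h5 (by rw [hc₁]; exact h4),
    Subgroup.eq_of_le_of_card_ge h6 (by rw [hc₂]; exact h4)]

theorem Dat.line_disj (h : Dat p V T) (hN : NoBase V T) {L : Subgroup G} (hL : L ≤ V)
    (hc : Nat.card L = p) : L ⊓ cC T V L = ⊥ := by
  have h1 := h.disj (S := sS T L) sS_le
  change fF T V L ⊓ cC T V L = ⊥ at h1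
  rwa [(h.line hN hL hc).1] at h1

theorem Dat.not_le (h : Dat p V T) (hN : NoBase V T) {L M : Subgroup G} (hL : L ≤ V)
    (hc : Nat.card L = p) (hM : M ≤ cC T V L) : ¬ L ≤ M := by
  intro h1
  have h2 := h.line_disj hN hL hc
  rw [inf_eq_left.2 (h1.trans hM)] at h2
  rw [h2, card_bot] at hc
  exact hp.out.one_lt.ne hc

/-- every line in `[V, C(L)]` comes from a plane through `L` -/
theorem Dat.surj_line (h : Dat p V T) (hN : NoBase V T) {L N : Subgroup G} (hL : L ≤ V)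
    (hc : Nat.card L = p) (hNL : N ≤ cC T V L) (hNc : Nat.card N = p) :
    ∃ H, H ≤ V ∧ Nat.card H = p ^ 2 ∧ L ≤ H ∧ cC T V H = N := by
  have hcV : cC T V L ≤ V := h.cle sS_le
  have hpl : ∀ M : Subgroup G, M ≤ cC T V L → Nat.card M = p →
      L ⊔ M ≤ V ∧ Nat.card (L ⊔ M : Subgroup G) = p ^ 2 := by
    intro M hM hMc
    refine ⟨sup_le hL (hM.trans hcV), ?_⟩
    rw [h.card_sup' hL (hM.trans hcV) hc (h.not_le hN hL hc hM), hMc, pow_two]
  have hinter : ∀ M : Subgroup G, M ≤ cC T V L → Nat.card M = p →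
      (L ⊔ M) ⊓ cC T V L = M := by
    intro M hM hMc
    symm
    refine Subgroup.eq_of_le_of_card_ge (le_inf le_sup_right hM) ?_
    obtain ⟨i, -, hci⟩ := h.card_sub (A := (L ⊔ M) ⊓ cC T V L) (inf_le_right.trans hcV)
    have hlt : Nat.card ((L ⊔ M) ⊓ cC T V L : Subgroup G) < p ^ 2 := by
      rw [← (hpl M hM hMc).2]
      refine lt_of_le_of_ne (Subgroup.card_le_of_le inf_le_left) fun h5 => ?_
      have h6 := Subgroup.eq_of_le_of_card_ge (inf_le_left : (L ⊔ M) ⊓ cC T V L ≤ L ⊔ M) h5.ge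
      exact h.not_le hN hL hc le_rfl (le_sup_left.trans (h6.ge.trans inf_le_right))
    rw [hci] at hlt ⊢
    have h7 := (Nat.pow_lt_pow_iff_right hp.out.one_lt).1 hlt
    rw [hMc]
    calc p ^ i ≤ p ^ 1 := Nat.pow_le_pow_right hp.out.pos (by omega)
      _ = p := pow_one p
  let Λ := {M : Subgroup G // M ≤ cC T V L ∧ Nat.card M = p}
  let φ : Λ → Λ := fun M => ⟨cC T V (L ⊔ M.1), cC_anti le_sup_left,
    (h.plane hN (hpl M.1 M.2.1 M.2.2).1 (hpl M.1 M.2.1 M.2.2).2).2⟩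
  have hφ : Function.Injective φ := by
    intro M M' he
    have h1 : cC T V (L ⊔ M.1) = cC T V (L ⊔ M'.1) := congrArg Subtype.val he
    have h2 := h.inj_plane hN (hpl M.1 M.2.1 M.2.2).1 (hpl M.1 M.2.1 M.2.2).2
      (hpl M'.1 M'.2.1 M'.2.2).1 (hpl M'.1 M'.2.1 M'.2.2).2 h1
    refine Subtype.ext ?_
    rw [← hinter M.1 M.2.1 M.2.2, ← hinter M'.1 M'.2.1 M'.2.2, h2]
  obtain ⟨M, hM⟩ := Finite.surjective_of_injective hφ ⟨N, hNL, hNc⟩
  exact ⟨L ⊔ M.1, (hpl M.1 M.2.1 M.2.2).1, (hpl M.1 M.2.1 M.2.2).2, le_sup_left,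
    congrArg Subtype.val hM⟩

/-- the map from lines to planes is injective -/
theorem Dat.inj_line (h : Dat p V T) (hN : NoBase V T) {L L' : Subgroup G} (hL : L ≤ V)
    (hc : Nat.card L = p) (hL' : L' ≤ V) (hc' : Nat.card L' = p)
    (he : cC T V L = cC T V L') : L = L' := by
  by_contra hne
  have hcV : cC T V L ≤ V := h.cle sS_le
  have hnle : ¬ L ≤ L' := fun h1 => hne (Subgroup.eq_of_le_of_card_ge h1 (by rw [hc, hc']))
  have hcard : Nat.card (L ⊔ L' : Subgroup G) = p ^ 2 := by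
    rw [h.card_sup' hL hL' hc hnle, hc', pow_two]
  have key : ∀ N : Subgroup G, N ≤ cC T V L → Nat.card N = p → cC T V (L ⊔ L') = N := by
    intro N hNL hNc
    obtain ⟨H, hH, hHc, hLH, hHN⟩ := h.surj_line hN hL hc hNL hNc
    obtain ⟨H', hH', hHc', hLH', hHN'⟩ := h.surj_line hN hL' hc' (he ▸ hNL) hNc
    have h1 := h.inj_plane hN hH hHc hH' hHc' (hHN.trans hHN'.symm)
    have h2 : L ⊔ L' = H := Subgroup.eq_of_le_of_card_ge (sup_le hLH (h1 ▸ hLH'))
      (by rw [hHc, hcard])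
    rw [h2, hHN]
  have hcc := (h.line hN hL hc).2
  obtain ⟨u, hu, hu1⟩ := exists_ne (A := cC T V L) (by
    rw [hcc]
    exact Nat.one_lt_pow (by norm_num) hp.out.one_lt)
  have h1 : ¬ cC T V L ≤ zpowers u := by
    intro h2
    have h3 := Subgroup.card_le_of_le h2
    rw [hcc, h.card_z (hcV hu) hu1] at h3
    have h4 : p ^ 1 < p ^ 2 := Nat.pow_lt_pow_right hp.out.one_lt (by norm_num)
    rw [pow_one] at h4
    omega
  obtain ⟨u', hu', huu⟩ := SetLike.not_le_iff_exists.1 h1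
  have hu'1 : u' ≠ 1 := fun h2 => huu (h2 ▸ one_mem _)
  have h2 := key (zpowers u) ((zpowers_le).2 hu) (h.card_z (hcV hu) hu1)
  have h3 := key (zpowers u') ((zpowers_le).2 hu') (h.card_z (hcV hu') hu'1)
  apply huu
  rw [← h2, h3]
  exact mem_zpowers u'

/-- every line comes from a plane -/
theorem Dat.surj_plane (h : Dat p V T) (hN : NoBase V T) {N : Subgroup G} (hNV : N ≤ V)
    (hNc : Nat.card N = p) : ∃ H, H ≤ V ∧ Nat.card H = p ^ 2 ∧ cC T V H = N := by
  let 𝓛 := {L : Subgroup G // L ≤ V ∧ Nat.card L = p}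
  let 𝓗 := {H : Subgroup G // H ≤ V ∧ Nat.card H = p ^ 2}
  let f : 𝓗 → 𝓛 := fun H => ⟨cC T V H.1, h.cle sS_le, (h.plane hN H.2.1 H.2.2).2⟩
  let g : 𝓛 → 𝓗 := fun L => ⟨cC T V L.1, h.cle sS_le, (h.line hN L.2.1 L.2.2).2⟩
  have hf : Function.Injective f := fun H H' he =>
    Subtype.ext (h.inj_plane hN H.2.1 H.2.2 H'.2.1 H'.2.2 (congrArg Subtype.val he))
  have hg : Function.Injective g := fun L L' he =>
    Subtype.ext (h.inj_line hN L.2.1 L.2.2 L'.2.1 L'.2.2 (congrArg Subtype.val he))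
  have hb : Function.Bijective f :=
    hf.bijective_of_nat_card_le (Nat.card_le_card_of_injective g hg)
  obtain ⟨H, hH⟩ := hb.2 ⟨N, hNV, hNc⟩
  exact ⟨H.1, H.2.1, H.2.2, congrArg Subtype.val hH⟩

omit [Finite G] in
theorem sum_sub [Fintype G] [DecidableEq G] (h : Dat p V T) {A : Subgroup G} (hA : A ≤ V)
    (hAc : p ∣ Nat.card A) [DecidablePred (· ∈ A)] [Fintype {v : G // v ∈ V ∧ v ≠ 1}] :
    ∑ z : {v : G // v ∈ V ∧ v ≠ 1}, (if (z : G) ∈ A then (1 : ZMod p) else 0) = -1 := by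
  rw [Finset.sum_boole]
  have h1 : (Finset.univ.filter fun z : {v : G // v ∈ V ∧ v ≠ 1} => (z : G) ∈ A).card + 1 =
      Nat.card A := by
    have h2 : Nat.card A = Nat.card {z : A // z ≠ 1} + 1 := by
      have := Fintype.ofFinite A
      rw [Nat.card_eq_fintype_card, Nat.card_eq_fintype_card, Fintype.card_subtype_compl,
        Fintype.card_subtype_eq]
      have : 0 < Fintype.card A := Fintype.card_pos
      omega
    rw [h2]
    congr 1
    rw [← Fintype.card_subtype, ← Nat.card_eq_fintype_card]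
    refine Nat.card_congr
      { toFun := fun z => ⟨⟨z.1.1, z.2⟩, fun h3 => z.1.2.2 (congrArg Subtype.val h3)⟩
        invFun := fun z => ⟨⟨z.1.1, hA z.1.2, fun h3 => z.2 (Subtype.ext h3)⟩, z.1.2⟩
        left_inv := fun _ => rfl
        right_inv := fun _ => rfl }
  have h3 : (((Finset.univ.filter fun z : {v : G // v ∈ V ∧ v ≠ 1} =>
      (z : G) ∈ A).card + 1 : ℕ) : ZMod p) = 0 := by
    rw [h1]
    exact (ZMod.natCast_eq_zero_iff _ _).2 hAc
  rw [Nat.cast_add, Nat.cast_one] at h3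
  exact eq_neg_of_add_eq_zero_left h3

/-- **a coprime group acting on an elementary abelian group of order `p ^ 3` has a base of size
two** -/
theorem not_noBase (h : Dat p V T) : ¬ NoBase V T := by
  classical
  intro hN
  have := Fintype.ofFinite G
  let ι := {v : G // v ∈ V ∧ v ≠ 1}
  have hι : Fintype ι := inferInstance
  let M : Matrix ι ι (ZMod p) := fun x z => if (z : G) ∈ cC T V (zpowers (x : G)) then 1 else 0
  let J : Matrix ι ι (ZMod p) := fun _ _ => 1
  have hz : ∀ x : ι, zpowers (x : G) ≤ V ∧ Nat.card (zpowers (x : G)) = p := fun x =>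
    ⟨(zpowers_le).2 x.2.1, h.card_z x.2.1 x.2.2⟩
  have hp2 : p ∣ p ^ 2 := dvd_pow_self p (by norm_num)
  have hp3 : p ∣ p ^ 3 := dvd_pow_self p (by norm_num)
  -- the planes `H_y`
  have hH : ∀ y : ι, ∃ H, H ≤ V ∧ Nat.card H = p ^ 2 ∧ cC T V H = zpowers (y : G) := fun y =>
    h.surj_plane hN (hz y).1 (hz y).2
  choose H hHV hHc hHe using hH
  have hmem : ∀ y z : ι, (y : G) ∈ cC T V (zpowers (z : G)) ↔ (z : G) ∈ H y := by
    intro y z
    constructor
    · intro hy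
      obtain ⟨H', hH'V, hH'c, hzH', hH'e⟩ := h.surj_line hN (hz z).1 (hz z).2
        ((zpowers_le).2 hy) (hz y).2
      have h1 := h.inj_plane hN (hHV y) (hHc y) hH'V hH'c ((hHe y).trans hH'e.symm)
      rw [h1]
      exact hzH' (mem_zpowers _)
    · intro hzH
      have h1 : cC T V (H y) ≤ cC T V (zpowers (z : G)) := cC_anti ((zpowers_le).2 hzH)
      rw [hHe] at h1
      exact h1 (mem_zpowers _)
  have hM2 : M * M = -J := by
    ext x y
    rw [Matrix.mul_apply, Matrix.neg_apply]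
    change ∑ z : ι, (if (z : G) ∈ cC T V (zpowers (x : G)) then (1 : ZMod p) else 0) *
      (if (y : G) ∈ cC T V (zpowers (z : G)) then 1 else 0) = -1
    rw [← sum_sub h (A := cC T V (zpowers (x : G)) ⊓ H y) (inf_le_right.trans (hHV y))]
    · refine Finset.sum_congr rfl fun z _ => ?_
      by_cases h1 : (z : G) ∈ cC T V (zpowers (x : G))
      · by_cases h2 : (z : G) ∈ H y
        · rw [if_pos h1, if_pos ((hmem y z).2 h2), if_pos ⟨h1, h2⟩, mul_one]
        · rw [if_neg (fun h3 => h2 ((hmem y z).1 h3)),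
            if_neg (fun h3 => h2 (Subgroup.mem_inf.1 h3).2), mul_zero]
      · rw [if_neg h1, if_neg (fun h3 => h1 (Subgroup.mem_inf.1 h3).1), zero_mul]
    · -- two planes meet
      have h1 := h.card_sup (A := cC T V (zpowers (x : G))) (B := H y) (h.cle sS_le) (hHV y)
      rw [(h.line hN (hz x).1 (hz x).2).2, hHc] at h1
      obtain ⟨i, hi, hci⟩ := h.card_sub (A := cC T V (zpowers (x : G)) ⊔ H y)
        (sup_le (h.cle sS_le) (hHV y))
      obtain ⟨j, -, hcj⟩ := h.card_sub (A := cC T V (zpowers (x : G)) ⊓ H y)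
        (inf_le_right.trans (hHV y))
      rw [hci, hcj, ← pow_add, ← pow_add] at h1
      have h2 := Nat.pow_right_injective hp.out.two_le h1
      rw [hcj]
      exact dvd_pow_self p (by omega)
  have hMJ : M * J = -J := by
    ext x y
    rw [Matrix.mul_apply, Matrix.neg_apply]
    change ∑ z : ι, (if (z : G) ∈ cC T V (zpowers (x : G)) then (1 : ZMod p) else 0) * 1 = -1
    simp only [mul_one]
    refine sum_sub h (A := cC T V (zpowers (x : G))) (h.cle sS_le) ?_
    rw [(h.line hN (hz x).1 (hz x).2).2]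
    exact hp2
  have hJM : J * M = -J := by
    ext x y
    rw [Matrix.mul_apply, Matrix.neg_apply]
    change ∑ z : ι, 1 * (if (y : G) ∈ cC T V (zpowers (z : G)) then (1 : ZMod p) else 0) = -1
    simp only [one_mul]
    rw [← sum_sub h (A := H y) (hHV y) (by rw [hHc]; exact hp2)]
    exact Finset.sum_congr rfl fun z _ => by simp only [hmem]
  have hJJ : J * J = -J := by
    ext x y
    rw [Matrix.mul_apply, Matrix.neg_apply]
    change ∑ z : ι, (1 : ZMod p) * 1 = -1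
    rw [← sum_sub h (A := V) le_rfl (by rw [h.card]; exact hp3)]
    exact Finset.sum_congr rfl fun z _ => by rw [if_pos z.2.1, mul_one]
  have hnil : (M - J) * (M - J) = 0 := by
    rw [mul_sub, sub_mul, sub_mul, hM2, hJM, hMJ, hJJ]
    simp
  have htr : (M - J).trace = 0 := by
    have h1 : IsNilpotent (M - J) := ⟨2, by rw [pow_two, hnil]⟩
    have h2 := Matrix.isNilpotent_trace_of_isNilpotent h1
    exact h2.eq_zero
  have htr' : (M - J).trace = 1 := by
    rw [Matrix.trace_sub]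
    have h1 : M.trace = 0 := by
      refine Finset.sum_eq_zero fun x _ => ?_
      change (if (x : G) ∈ cC T V (zpowers (x : G)) then (1 : ZMod p) else 0) = 0
      rw [if_neg]
      intro hx
      have h2 : (x : G) ∈ zpowers (x : G) ⊓ cC T V (zpowers (x : G)) := ⟨mem_zpowers _, hx⟩
      rw [h.line_disj hN (hz x).1 (hz x).2, mem_bot] at h2
      exact x.2.2 h2
    have h2 : J.trace = -1 := by
      change ∑ x : ι, (1 : ZMod p) = -1
      rw [← sum_sub h (A := V) le_rfl (by rw [h.card]; exact hp3)]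
      exact Finset.sum_congr rfl fun z _ => by rw [if_pos z.2.1]
    rw [h1, h2]
    ring
  rw [htr] at htr'
  exact zero_ne_one htr'

/-- **base of size two in dimension three** -/
theorem exists_base (h : Dat p V T) : ∃ v₁ ∈ V, ∃ v₂ ∈ V, ∀ t ∈ T, t * v₁ = v₁ * t →
    t * v₂ = v₂ * t → t ∈ centralizer (V : Set G) := by
  by_contra hne
  apply not_noBase h
  intro v₁ hv₁ v₂ hv₂
  by_contra h1
  push Not at h1
  exact hne ⟨v₁, hv₁, v₂, hv₂, h1⟩

end

end P179H46.Base
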