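import Mathlib

/-!
# The count for `C_{p²} × C_{p²}`
-/

namespace P179H46

open Finset

open scoped Classical

/-- the arithmetic of the count -/
theorem arith22 {p s m R0 Rc Rn l : ℕ} (hs : 2 ≤ s) (hm : 1 ≤ m) (hp : p = s * m + 1)
    (ha : p ^ 2 * R0 + (Rc + Rn) ≤ p ^ 3) (hb : s ^ 2 * Rc + Rn ≤ p ^ 2 * s) (hc : Rn ≤ s * p)
    (hl : l + s ≤ R0 + Rc + Rn) : l ≤ p ^ 2 := by
  have hp1 : 1 ≤ p := by omega
  by_cases h0 : p ≤ R0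
  · have h1 : p ^ 2 * p ≤ p ^ 2 * R0 := Nat.mul_le_mul_left _ h0
    have h2 : p ^ 3 = p ^ 2 * p := by ring
    have h3 : Rc + Rn = 0 := by omega
    have h4 : p ^ 2 * R0 ≤ p ^ 2 * p := by omega
    have h5 : R0 ≤ p := Nat.le_of_mul_le_mul_left h4 (by positivity)
    have h6 : p ≤ p ^ 2 := Nat.le_self_pow (by norm_num) p
    omega
  · have h1 : R0 + 1 ≤ p := by omega
    -- `s (Rc + Rn) ≤ p² + (s² - 1) p`
    have h2 : s ^ 2 * (Rc + Rn) ≤ p ^ 2 * s + (s ^ 2 - 1) * (s * p) := by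
      have h3 : s ^ 2 * (Rc + Rn) = (s ^ 2 * Rc + Rn) + (s ^ 2 - 1) * Rn := by
        have : 1 ≤ s ^ 2 := Nat.one_le_pow _ _ (by omega)
        zify [this]
        ring
      rw [h3]
      exact Nat.add_le_add hb (Nat.mul_le_mul_left _ hc)
    have h4 : s * (s * (Rc + Rn)) ≤ s * (p ^ 2 + (s ^ 2 - 1) * p) := by
      calc s * (s * (Rc + Rn)) = s ^ 2 * (Rc + Rn) := by ring
        _ ≤ p ^ 2 * s + (s ^ 2 - 1) * (s * p) := h2
        _ = _ := by ring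
    have h5 : s * (Rc + Rn) ≤ p ^ 2 + (s ^ 2 - 1) * p := Nat.le_of_mul_le_mul_left h4 (by omega)
    have h6 : s * (Rc + Rn) ≤ s * (p * m + s * p) := by
      refine h5.trans (le_of_eq ?_)
      have : 1 ≤ s ^ 2 := Nat.one_le_pow _ _ (by omega)
      zify [this]
      rw [hp]
      push_cast
      ring
    have h7 : Rc + Rn ≤ p * m + s * p := Nat.le_of_mul_le_mul_left h6 (by omega)
    have h8 : l + s + 1 ≤ p + p * m + s * p := by omega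
    obtain ⟨s', rfl⟩ : ∃ s', s = s' + 2 := ⟨s - 2, by omega⟩
    obtain ⟨m', rfl⟩ : ∃ m', m = m' + 1 := ⟨m - 1, by omega⟩
    subst hp
    nlinarith [Nat.zero_le (s' * m'), Nat.zero_le (s' * s' * m'), Nat.zero_le (s' * m' * m'),
      Nat.zero_le (s' * s' * m' * m'), Nat.zero_le (m' * m')]

/-- **the count for `C_{p²} × C_{p²}`** -/
theorem cnt22 {ι : Type*} (X : Finset ι) {p s m l : ℕ} (hs : 2 ≤ s) (hm : 1 ≤ m)
    (hp : p = s * m + 1) (a c d : ι → ℝ) (Z E : ι → Prop)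
    (ha0 : ∀ χ ∈ X, 1 ≤ a χ) (haZ : ∀ χ ∈ X, Z χ → (p : ℝ) ^ 2 ≤ a χ)
    (hc0 : ∀ χ ∈ X, 0 ≤ c χ) (hc1 : ∀ χ ∈ X, ¬ Z χ → 1 ≤ c χ)
    (hcE : ∀ χ ∈ X, ¬ Z χ → E χ → (s : ℝ) ^ 2 ≤ c χ)
    (hd0 : ∀ χ ∈ X, 0 ≤ d χ) (hdE : ∀ χ ∈ X, ¬ E χ → (s : ℝ) - 1 ≤ d χ)
    (hA : ∑ χ ∈ X, a χ ≤ (p : ℝ) ^ 3) (hC : ∑ χ ∈ X, c χ ≤ (p : ℝ) ^ 2 * s)
    (hD : ∑ χ ∈ X, d χ ≤ (s : ℝ) * (s - 1) * p) (hl : l + s ≤ X.card) : l ≤ p ^ 2 := by
  set R0 := X.filter Z with hR0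
  set Rc := X.filter (fun χ => ¬ Z χ ∧ E χ) with hRc
  set Rn := X.filter (fun χ => ¬ Z χ ∧ ¬ E χ) with hRn
  have hsplit : ∀ f : ι → ℝ, ∑ χ ∈ X, f χ = ∑ χ ∈ R0, f χ + (∑ χ ∈ Rc, f χ + ∑ χ ∈ Rn, f χ) := by
    intro f
    rw [← Finset.sum_filter_add_sum_filter_not X Z, ← Finset.sum_filter_add_sum_filter_not
      (X.filter fun χ => ¬ Z χ) E, Finset.filter_filter, Finset.filter_filter]
  have hcard : X.card = R0.card + Rc.card + Rn.card := by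
    have h1 := hsplit (fun _ => 1)
    simp only [Finset.sum_const, nsmul_eq_mul, mul_one] at h1
    have h2 : X.card = R0.card + (Rc.card + Rn.card) := by exact_mod_cast h1
    omega
  have hs1 : (0 : ℝ) < (s : ℝ) - 1 := by
    have : (2 : ℝ) ≤ s := by exact_mod_cast hs
    linarith
  refine arith22 (R0 := R0.card) (Rc := Rc.card) (Rn := Rn.card) hs hm hp ?_ ?_ ?_
    (hl.trans_eq hcard)
  · have h1 : (p : ℝ) ^ 2 * R0.card ≤ ∑ χ ∈ R0, a χ := by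
      rw [mul_comm, ← nsmul_eq_mul]
      exact Finset.card_nsmul_le_sum _ _ _ fun χ hχ => haZ χ (mem_filter.1 hχ).1 (mem_filter.1 hχ).2
    have h2 : (Rc.card : ℝ) ≤ ∑ χ ∈ Rc, a χ := by
      have := Finset.card_nsmul_le_sum Rc a 1 fun χ hχ => ha0 χ (mem_filter.1 hχ).1
      rwa [nsmul_eq_mul, mul_one] at this
    have h3 : (Rn.card : ℝ) ≤ ∑ χ ∈ Rn, a χ := by
      have := Finset.card_nsmul_le_sum Rn a 1 fun χ hχ => ha0 χ (mem_filter.1 hχ).1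
      rwa [nsmul_eq_mul, mul_one] at this
    have h4 := hsplit a
    have h5 : (p : ℝ) ^ 2 * R0.card + (Rc.card + Rn.card) ≤ (p : ℝ) ^ 3 := by linarith
    exact_mod_cast h5
  · have h1 : (s : ℝ) ^ 2 * Rc.card ≤ ∑ χ ∈ Rc, c χ := by
      rw [mul_comm, ← nsmul_eq_mul]
      exact Finset.card_nsmul_le_sum _ _ _ fun χ hχ => hcE χ (mem_filter.1 hχ).1
        (mem_filter.1 hχ).2.1 (mem_filter.1 hχ).2.2
    have h2 : (Rn.card : ℝ) ≤ ∑ χ ∈ Rn, c χ := by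
      have := Finset.card_nsmul_le_sum Rn c 1 fun χ hχ => hc1 χ (mem_filter.1 hχ).1
        (mem_filter.1 hχ).2.1
      rwa [nsmul_eq_mul, mul_one] at this
    have h3 : 0 ≤ ∑ χ ∈ R0, c χ := Finset.sum_nonneg fun χ hχ => hc0 χ (mem_filter.1 hχ).1
    have h4 := hsplit c
    have h5 : (s : ℝ) ^ 2 * Rc.card + Rn.card ≤ (p : ℝ) ^ 2 * s := by linarith
    exact_mod_cast h5
  · have h1 : ((s : ℝ) - 1) * Rn.card ≤ ∑ χ ∈ Rn, d χ := by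
      rw [mul_comm, ← nsmul_eq_mul]
      exact Finset.card_nsmul_le_sum _ _ _ fun χ hχ => hdE χ (mem_filter.1 hχ).1
        (mem_filter.1 hχ).2.2
    have h2 : 0 ≤ ∑ χ ∈ R0, d χ := Finset.sum_nonneg fun χ hχ => hd0 χ (mem_filter.1 hχ).1
    have h3 : 0 ≤ ∑ χ ∈ Rc, d χ := Finset.sum_nonneg fun χ hχ => hd0 χ (mem_filter.1 hχ).1
    have h4 := hsplit d
    have h5 : ((s : ℝ) - 1) * Rn.card ≤ ((s : ℝ) - 1) * (s * p) := by
      have : (s : ℝ) * (s - 1) * p = (s - 1) * (s * p) := by ring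
      linarith
    have h6 := le_of_mul_le_mul_left h5 hs1
    exact_mod_cast h6

end P179H46
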