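import Vale.Agent.P179.R2.H46.Adams
import Vale.Agent.P179.H234.AG
import Vale.Agent.P179.H526.FrobB

/-!
# Integrality of the columns of nonregular elements
-/

namespace P179H46

open Finset P179P P179C P179Y P179H524 P179A P179I P179T Polynomial

open scoped Classical

section

variable {K : Type*} [Group K] [Fintype K]

/-- a rational number which is an algebraic integer -/
theorem int_of_rat {c : AA} {a b : ℤ} (hb : b ≠ 0) (h : (b : ℂ) * (c : ℂ) = a) :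
    ∃ z : ℤ, (c : ℂ) = z := by
  have hb' : (b : ℂ) ≠ 0 := by exact_mod_cast hb
  have hq : (c : ℂ) = algebraMap ℚ ℂ ((a : ℚ) / b) := by
    rw [map_div₀, eq_div_iff (by simpa using hb'), mul_comm]
    simpa using h
  have hint : IsIntegral ℤ (c : ℂ) := c.2
  rw [hq] at hint
  have h3 : IsIntegral ℤ ((a : ℚ) / b) :=
    (isIntegral_algebraMap_iff (algebraMap ℚ ℂ).injective).1 hint
  obtain ⟨d, hd⟩ := (IsIntegrallyClosed.isIntegral_iff (R := ℤ) (K := ℚ)).1 h3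
  refine ⟨d, ?_⟩
  rw [hq, ← hd]
  simp

/-- **Adams operations**, integral form -/
theorem adams_intZ (ψ : Irr K) {q : ℕ} (hq : q ≠ 0) :
    ∃ c : Irr K → ℤ, ∀ x : K, ψ.1 (x ^ q) = ∑ j : Irr K, (c j : ℂ) * j.1 x := by
  obtain ⟨c, hc⟩ := adams_int ψ hq
  have hn : 0 < Nat.card K := Nat.card_pos
  have hne : NeZero (Nat.card K) := ⟨hn.ne'⟩
  obtain ⟨ζ, hζ⟩ : ∃ ζ : ℂ, IsPrimitiveRoot ζ (Nat.card K) :=
    ⟨_, Complex.isPrimitiveRoot_exp _ hn.ne'⟩
  have key : ∀ i : Irr K, ∃ z : ℤ, (c i : ℂ) = z := by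
    intro i
    have h1 : ∑ x : K, ψ.1 (x ^ q) * i.1 x⁻¹ = (Nat.card K : ℂ) * c i := by
      have h2 : ∀ x : K, ψ.1 (x ^ q) * i.1 x⁻¹ = ∑ j : Irr K, (c j : ℂ) * (j.1 x * i.1 x⁻¹) := by
        intro x
        rw [hc, Finset.sum_mul]
        exact Finset.sum_congr rfl fun j _ => by ring
      rw [Finset.sum_congr rfl fun x _ => h2 x, Finset.sum_comm]
      rw [Finset.sum_eq_single i]
      · rw [← Finset.mul_sum, row_orth, if_pos rfl, Nat.card_eq_fintype_card, mul_comm]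
      · intro j _ hj
        rw [← Finset.mul_sum, row_orth, if_neg hj, mul_zero]
      · intro h
        exact absurd (mem_univ i) h
    have hP : ∀ x : K, ∃ P : ℤ[X], ∀ j : ℕ, ψ.1 ((x ^ q) ^ j) * i.1 ((x⁻¹) ^ j) =
        aeval (ζ ^ j) P := by
      intro x
      obtain ⟨P, hP⟩ := exists_poly ψ (x ^ q) hζ
      obtain ⟨Q, hQ⟩ := exists_poly i x⁻¹ hζ
      exact ⟨P * Q, fun j => by rw [map_mul, hP, hQ]⟩
    choose P hP using hP
    have hall : ∀ j : ℕ, j.Coprime (Nat.card K) → aeval (ζ ^ j) (∑ x, P x) =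
        (Nat.card K : ℂ) * c i := by
      intro j hj
      rw [map_sum, ← h1, ← Equiv.sum_comp (powCoprime hj.symm) fun x => ψ.1 (x ^ q) * i.1 x⁻¹]
      refine Finset.sum_congr rfl fun x _ => ?_
      rw [← hP x j, powCoprime_apply, ← pow_mul, ← pow_mul, mul_comm q j, inv_pow]
    obtain ⟨z, hz⟩ := P179H234.exists_int_sum hn (∑ x, P x)
    have h3 : ∀ μ ∈ primitiveRoots (Nat.card K) ℂ, aeval μ (∑ x, P x) = (Nat.card K : ℂ) * c i := by
      intro μ hμ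
      rw [mem_primitiveRoots hn] at hμ
      obtain ⟨j, -, hj, rfl⟩ := (hζ.isPrimitiveRoot_iff).1 hμ
      exact hall j hj
    rw [Finset.sum_congr rfl h3, Finset.sum_const, hζ.card_primitiveRoots, nsmul_eq_mul] at hz
    refine int_of_rat (b := ((Nat.card K).totient * Nat.card K : ℕ)) (a := z) ?_ ?_
    · have : (Nat.card K).totient * Nat.card K ≠ 0 :=
        mul_ne_zero (Nat.totient_pos.2 hn).ne' hn.ne'
      exact_mod_cast this
    · push_cast
      rw [← hz]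
      ring
  choose z hz using key
  exact ⟨z, fun x => by rw [hc]; exact Finset.sum_congr rfl fun j _ => by rw [hz]⟩

/-- the power map to the `p`-regular part -/
theorem exists_q (p : ℕ) [hp : Fact p.Prime] (n : ℕ) (hn : n ≠ 0) :
    ∃ q : ℕ, q ≠ 0 ∧ ordProj[p] n ∣ q ∧ q ≡ 1 [MOD ordCompl[p] n] := by
  have hcop : Nat.Coprime (ordProj[p] n) (ordCompl[p] n) :=
    Nat.Coprime.pow_left _ ((Nat.Prime.coprime_iff_not_dvd hp.out).mpr
      (Nat.not_dvd_ordCompl hp.out hn))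
  obtain ⟨m, hm1, hm2⟩ := Nat.chineseRemainder hcop 0 1
  refine ⟨m + n, by omega, ?_, ?_⟩
  · refine Nat.dvd_add ((Nat.modEq_zero_iff_dvd).1 hm1) (Nat.ordProj_dvd n p)
  · have h1 : n ≡ 0 [MOD ordCompl[p] n] := (Nat.modEq_zero_iff_dvd).2 (Nat.ordCompl_dvd n p)
    exact hm2.add h1

/-- **integrality on the `p`-regular elements**: `P` is a generalised character which is constant on
the cosets of the central `p`-subgroup `Z` and vanishes off `Z K_reg` -/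
theorem rsum_int {p : ℕ} [hp : Fact p.Prime] (Z : Subgroup K) (hZc : ∀ z ∈ Z, ∀ x : K, z * x = x * z)
    (hZp : IsPGroup p Z) {P : K → ℂ} {c : Irr K → ℤ} (hP : ∀ x, P x = ∑ j : Irr K, (c j : ℂ) * j.1 x)
    (hPz : ∀ z ∈ Z, ∀ x, P (z * x) = P x)
    (hPv : ∀ x, P x ≠ 0 → ∃ z ∈ Z, ∃ t, ¬ p ∣ orderOf t ∧ x = z * t) (ψ : Irr K) :
    ∃ a : ℤ, (Nat.card Z : ℂ) / Nat.card K * rsum p (fun t => ψ.1 t * P t⁻¹) = a := by
  obtain ⟨q, hq0, hq1, hq2⟩ := exists_q p (Nat.card K) Nat.card_pos.ne'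
  have hK0 : (Nat.card K : ℂ) ≠ 0 := by exact_mod_cast Nat.card_pos.ne'
  obtain ⟨b, hb⟩ := adams_intZ ψ hq0
  -- powers
  have hpow : ∀ z ∈ Z, ∀ t : K, ¬ p ∣ orderOf t → (z * t) ^ q = t := by
    intro z hz t ht
    rw [(show Commute z t from hZc z hz t).mul_pow]
    have h1 : z ^ q = 1 := by
      obtain ⟨a, ha⟩ := hZp ⟨z, hz⟩
      have ha' : z ^ p ^ a = 1 := by simpa using congrArg Subtype.val ha
      obtain ⟨i, -, hi⟩ := (Nat.dvd_prime_pow hp.out).1 (orderOf_dvd_of_pow_eq_one ha')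
      rw [← orderOf_dvd_iff_pow_eq_one, hi]
      refine dvd_trans ?_ hq1
      have h2 : p ^ i ∣ Nat.card K := by rw [← hi]; exact orderOf_dvd_natCard z
      exact pow_dvd_pow p ((hp.out.pow_dvd_iff_le_factorization Nat.card_pos.ne').1 h2)
    have h2 : t ^ q = t := by
      conv_rhs => rw [← pow_one t]
      rw [pow_eq_pow_iff_modEq]
      refine hq2.of_dvd ?_
      have h3 : orderOf t ∣ Nat.card K := orderOf_dvd_natCard t
      have h4 : (orderOf t).Coprime (ordProj[p] (Nat.card K)) :=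
        Nat.Coprime.pow_right _ ((Nat.Prime.coprime_iff_not_dvd hp.out).2 ht).symm
      have h5 := Nat.ordProj_mul_ordCompl_eq_self (Nat.card K) p
      rw [← h5] at h3
      exact h4.dvd_of_dvd_mul_left h3
    rw [h1, h2, one_mul]
  -- the sum over the group
  have h1 : ∑ x : K, ψ.1 (x ^ q) * P x⁻¹ = (Nat.card Z : ℂ) * rsum p (fun t => ψ.1 t * P t⁻¹) := by
    rw [rsum_eq]
    have h2 : (Nat.card Z : ℂ) * ∑ t ∈ univ.filter (fun s : K => ¬ p ∣ orderOf s), ψ.1 t * P t⁻¹ =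
        ∑ y ∈ (univ : Finset Z) ×ˢ univ.filter (fun s : K => ¬ p ∣ orderOf s),
          ψ.1 y.2 * P y.2⁻¹ := by
      rw [Finset.sum_product]
      simp only []
      rw [Finset.sum_const, nsmul_eq_mul, card_univ, Nat.card_eq_fintype_card]
    rw [h2]
    symm
    refine Finset.sum_bij_ne_zero (fun y _ _ => (y.1 : K) * y.2) (fun _ _ _ => mem_univ _) ?_ ?_ ?_
    · intro y hy _ y' hy' _ hyy
      have hy2 := (mem_filter.1 (mem_product.1 hy).2).2
      have hy2' := (mem_filter.1 (mem_product.1 hy').2).2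
      have e1 := hpow y.1 y.1.2 y.2 hy2
      have e2 := hpow y'.1 y'.1.2 y'.2 hy2'
      rw [hyy, e2] at e1
      have e3 : (y.1 : K) = y'.1 := by
        have hyy' : (y.1 : K) * y.2 = y'.1 * y'.2 := hyy
        rw [e1] at hyy'
        exact mul_right_cancel hyy'
      exact Prod.ext (Subtype.ext e3) e1.symm
    · intro x _ hx
      have hPx : P x⁻¹ ≠ 0 := right_ne_zero_of_mul hx
      obtain ⟨z, hz, t, ht, hxt⟩ := hPv x⁻¹ hPx
      have hxe : x = z⁻¹ * t⁻¹ := by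
        rw [← inv_inv x, hxt, mul_inv_rev, ← hZc z⁻¹ (inv_mem hz)]
      have ht' : ¬ p ∣ orderOf t⁻¹ := by rwa [orderOf_inv]
      refine ⟨(⟨z⁻¹, inv_mem hz⟩, t⁻¹), ?_, ?_, hxe.symm⟩
      · rw [mem_product]
        exact ⟨mem_univ _, mem_filter.2 ⟨mem_univ _, ht'⟩⟩
      · intro h0
        apply hx
        have e4 : ψ.1 (x ^ q) = ψ.1 t⁻¹ := by rw [hxe, hpow _ (inv_mem hz) _ ht']
        have e5 : P x⁻¹ = P (t⁻¹)⁻¹ := by
          rw [hxt, inv_inv, hPz z hz]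
        rw [e4, e5]
        exact h0
    · intro y hy _
      have hy2 := (mem_filter.1 (mem_product.1 hy).2).2
      have e4 : ψ.1 (((y.1 : K) * y.2) ^ q) = ψ.1 y.2 := by rw [hpow _ y.1.2 _ hy2]
      have e5 : P ((y.1 : K) * y.2)⁻¹ = P (y.2)⁻¹ := by
        rw [mul_inv_rev, ← hZc _ (inv_mem y.1.2), hPz _ (inv_mem y.1.2)]
      rw [e4, e5]
  -- the sum as an integral combination
  have h3 : ∑ x : K, ψ.1 (x ^ q) * P x⁻¹ = (Nat.card K : ℂ) * ∑ j : Irr K, (c j : ℂ) * b j := by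
    have h4 : ∀ x : K, ψ.1 (x ^ q) * P x⁻¹ =
        ∑ j : Irr K, ∑ i : Irr K, (c j : ℂ) * b i * (i.1 x * j.1 x⁻¹) := by
      intro x
      rw [hP, hb, Finset.sum_mul_sum, Finset.sum_comm]
      refine Finset.sum_congr rfl fun j _ => Finset.sum_congr rfl fun i _ => by ring
    rw [Finset.sum_congr rfl fun x _ => h4 x, Finset.sum_comm, Finset.mul_sum]
    refine Finset.sum_congr rfl fun j _ => ?_
    rw [Finset.sum_comm, Finset.sum_eq_single j]
    · rw [← Finset.mul_sum, row_orth, if_pos rfl, Nat.card_eq_fintype_card]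
      ring
    · intro i _ hi
      rw [← Finset.mul_sum, row_orth, if_neg hi, mul_zero]
    · intro h
      exact absurd (mem_univ j) h
  refine ⟨∑ j, c j * b j, ?_⟩
  rw [div_mul_eq_mul_div, ← h1, h3, mul_div_cancel_left₀ _ hK0]
  push_cast
  rfl

end

section

variable {G : Type*} [Group G] [Fintype G]

/-- **integrality of the columns**: the column of the `p`-element `w` defined by the generalised
character `P` of its centraliser -/
theorem dn_poly_gen {p : ℕ} [hp : Fact p.Prime] (H : Subgroup G) (w : G) {N : ℕ} (hw : w ^ N = 1)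
    (hN : N ≠ 0) (hH : ∀ x, x ∈ H ↔ x * w = w * x) (Z : Subgroup H)
    (hZc : ∀ z ∈ Z, ∀ x : H, z * x = x * z) (hZp : IsPGroup p Z) {P : H → ℂ} {c : Irr H → ℤ}
    (hP : ∀ x, P x = ∑ j : Irr H, (c j : ℂ) * j.1 x) (hPz : ∀ z ∈ Z, ∀ x, P (z * x) = P x)
    (hPv : ∀ x, P x ≠ 0 → ∃ z ∈ Z, ∃ t, ¬ p ∣ orderOf t ∧ x = z * t) (χ : Irr G) {ζ : ℂ}
    (hζ : IsPrimitiveRoot ζ N) :
    ∃ Q : ℤ[X], ∀ j : ℕ, dn p H (Nat.card Z) P (w ^ j) χ.1 = aeval (ζ ^ j) Q := by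
  have : NeZero N := ⟨hN⟩
  obtain ⟨n, hn⟩ := restr_decomp χ H
  have hwH : w ∈ H := (hH w).2 rfl
  have hc : ∀ ψ : Irr H, ∃ i : ℕ, ∀ (j : ℕ) (t : H),
      ψ.1 ((⟨w, hwH⟩ : H) ^ j * t) = (ζ ^ j) ^ i * ψ.1 t := by
    intro ψ
    obtain ⟨d, hd, h⟩ := central_scalar ψ (⟨w, hwH⟩ : H)
      (fun x => Subtype.ext ((hH x).1 x.2)) (Subtype.ext (by push_cast; exact hw) :
        (⟨w, hwH⟩ : H) ^ N = 1)
    obtain ⟨i, -, rfl⟩ := hζ.eq_pow_of_pow_eq_one hd
    exact ⟨i, fun j t => by rw [h, ← pow_mul, ← pow_mul, mul_comm i j]⟩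
  choose i hi using hc
  have ha : ∀ ψ : Irr H, ∃ a : ℤ,
      (Nat.card Z : ℂ) / Nat.card H * rsum p (fun t => ψ.1 t * P t⁻¹) = a := fun ψ =>
    rsum_int Z hZc hZp hP hPz hPv ψ
  choose a ha using ha
  refine ⟨∑ ψ : Irr H, C ((n ψ : ℤ) * a ψ) * X ^ i ψ, fun j => ?_⟩
  have h1 : ∀ t : H, χ.1 (w ^ j * t) * P t⁻¹ =
      ∑ ψ : Irr H, (n ψ : ℂ) * (ζ ^ j) ^ i ψ * (ψ.1 t * P t⁻¹) := by
    intro t
    have h2 : (w ^ j * (t : G)) = (((⟨w, hwH⟩ : H) ^ j * t : H) : G) := by push_cast; rfl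
    rw [h2, hn, Finset.sum_mul]
    refine Finset.sum_congr rfl fun ψ _ => ?_
    rw [hi]
    ring
  rw [dn, rsum_eq]
  simp only [h1]
  rw [Finset.sum_comm, Finset.mul_sum, map_sum]
  refine Finset.sum_congr rfl fun ψ _ => ?_
  rw [← Finset.mul_sum, map_mul, map_pow, aeval_X, aeval_C]
  have h3 := ha ψ
  rw [rsum_eq] at h3
  have e : (Nat.card Z : ℂ) / Nat.card H * ((n ψ : ℂ) * (ζ ^ j) ^ i ψ *
      ∑ t ∈ univ.filter (fun s : H => ¬ p ∣ orderOf s), ψ.1 t * P t⁻¹) =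
      (n ψ : ℂ) * (ζ ^ j) ^ i ψ * ((Nat.card Z : ℂ) / Nat.card H *
        ∑ t ∈ univ.filter (fun s : H => ¬ p ∣ orderOf s), ψ.1 t * P t⁻¹) := by ring
  rw [e, h3]
  simp
  ring

end

end P179H46
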