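import Vale.Agent.P179.R2.H364.Wa1
import Vale.Agent.P179.R2.H843.Fit
import Vale.Agent.P179.H526.KDef
import Vale.Agent.P179.H234.K5

/-!
# The core lemma in the language of Brauer pairs: the Brauer homomorphism and the idempotent
-/

namespace P179H46

open Subgroup Finset P179H524 P179C P179A P179P P179Y P179H364W Polynomial

open scoped Classical

universe u

set_option linter.unusedSectionVars false

section Br

variable {p : ℕ} [hp : Fact p.Prime] {k : Type u} [Field k] [CharP k p] {G : Type} [Group G]
  [Fintype G]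

/-- supported on `H` -/
def Sup (H : Subgroup G) (a : MonoidAlgebra k G) : Prop := ∀ x, x ∉ H → a.coeff x = 0

/-- fixed by conjugation with the elements of `P` -/
def Fxd (P : Subgroup G) (a : MonoidAlgebra k G) : Prop := ∀ d ∈ P, cn d a = a

theorem Fxd.coeff {P : Subgroup G} {a : MonoidAlgebra k G} (ha : Fxd P a) {d : G} (hd : d ∈ P)
    (x : G) : a.coeff (d * x * d⁻¹) = a.coeff x := cn_eq_iff.1 (ha d hd) x

omit [Fintype G] in
theorem Fxd.mul {P : Subgroup G} {a b : MonoidAlgebra k G} (ha : Fxd P a) (hb : Fxd P b) :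
    Fxd P (a * b) := fun d hd => by rw [cn_mul', ha d hd, hb d hd]

/-- restriction to the centraliser of `P` -/
noncomputable def brk (P : Subgroup G) (a : MonoidAlgebra k G) : MonoidAlgebra k G :=
  mkF (cutC P fun g => a.coeff g)

theorem coeff_brk (P : Subgroup G) (a : MonoidAlgebra k G) (x : G) :
    (brk P a).coeff x = if x ∈ centralizer (P : Set G) then a.coeff x else 0 := by
  rw [brk, coeff_mkF, cutC]

theorem brk_sup (P : Subgroup G) (a : MonoidAlgebra k G) : Sup (centralizer (P : Set G)) (brk P a) :=
  fun x hx => by rw [coeff_brk, if_neg hx]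

theorem brk_of_sup {P : Subgroup G} {a : MonoidAlgebra k G}
    (ha : Sup (centralizer (P : Set G)) a) : brk P a = a := by
  ext x
  rw [coeff_brk]
  split_ifs with h
  · rfl
  · exact (ha x h).symm

theorem brk_add (P : Subgroup G) (a b : MonoidAlgebra k G) : brk P (a + b) = brk P a + brk P b := by
  ext x
  simp only [coeff_brk, MonoidAlgebra.coeff_add, Finsupp.add_apply]
  split_ifs <;> simp

theorem brk_smul (P : Subgroup G) (c : k) (a : MonoidAlgebra k G) :
    brk P (c • a) = c • brk P a := by
  ext x
  simp only [coeff_brk, MonoidAlgebra.coeff_smul, Finsupp.smul_apply]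
  split_ifs <;> simp

theorem brk_sum (P : Subgroup G) {ι : Type*} (s : Finset ι) (f : ι → MonoidAlgebra k G) :
    brk P (∑ i ∈ s, f i) = ∑ i ∈ s, brk P (f i) := by
  induction s using Finset.induction_on with
  | empty =>
    ext x
    simp [coeff_brk]
  | insert i s hi ih => rw [Finset.sum_insert hi, Finset.sum_insert hi, brk_add, ih]

/-- products of elements supported on a subgroup -/
theorem Sup.mul {H : Subgroup G} {a b : MonoidAlgebra k G} (ha : Sup H a) (hb : Sup H b) :
    Sup H (a * b) := by
  intro x hx
  rw [coeff_mul_eq_conv]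
  refine Finset.sum_eq_zero fun h _ => ?_
  change a.coeff h * b.coeff (h⁻¹ * x) = 0
  by_cases hh : h ∈ H
  · rw [hb (h⁻¹ * x), mul_zero]
    intro h1
    exact hx (by simpa using mul_mem hh h1)
  · rw [ha h hh, zero_mul]

include hp in
/-- the Brauer homomorphism is multiplicative -/
theorem brk_mul {P : Subgroup G} (hP : IsPGroup p P) {a b : MonoidAlgebra k G} (ha : Fxd P a)
    (hb : Fxd P b) : brk P (a * b) = brk P a * brk P b := by
  ext x
  by_cases hx : x ∈ centralizer (P : Set G)
  · rw [coeff_brk, if_pos hx, coeff_mul_eq_conv, conv_cut p P hP (fun d hd y => ha.coeff hd y)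
      (fun d hd y => hb.coeff hd y) hx, coeff_mul_eq_conv]
    simp only [brk, coeff_mkF]
  · rw [coeff_brk, if_neg hx, (brk_sup P a).mul (brk_sup P b) x hx]

theorem brk_one (P : Subgroup G) : brk P (1 : MonoidAlgebra k G) = 1 := by
  refine brk_of_sup fun x hx => ?_
  rw [MonoidAlgebra.one_def, MonoidAlgebra.coeff_single, Finsupp.single_apply, if_neg]
  rintro rfl
  exact hx (one_mem _)

/-- the fixed elements -/
def fixA (k : Type u) [Field k] (P : Subgroup G) : Subalgebra k (MonoidAlgebra k G) where
  carrier := {a | Fxd P a}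
  mul_mem' ha hb := ha.mul hb
  add_mem' {a b} ha hb := fun d hd => by rw [cn_add, ha d hd, hb d hd]
  algebraMap_mem' r := fun d _ => by
    rw [Algebra.algebraMap_eq_smul_one, cn_smul]
    congr 1
    rw [cn, mul_one, sg_mul_inv]

/-- the Brauer homomorphism -/
noncomputable def brA {P : Subgroup G} (hP : IsPGroup p P) :
    fixA k P →ₐ[k] MonoidAlgebra k G :=
  AlgHom.ofLinearMap
    { toFun := fun a => brk P a.1
      map_add' := fun a b => brk_add P a.1 b.1
      map_smul' := fun c a => brk_smul P c a.1 }
    (brk_one P) (fun a b => brk_mul hP a.2 b.2)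

theorem brA_apply {P : Subgroup G} (hP : IsPGroup p P) (a : fixA k P) :
    brA hP a = brk P a.1 := rfl

theorem brk_aeval {P : Subgroup G} (hP : IsPGroup p P) {a : MonoidAlgebra k G} (ha : Fxd P a)
    (q : k[X]) : Fxd P (aeval a q) ∧ brk P (aeval a q) = aeval (brk P a) q := by
  have h1 : ((aeval (⟨a, ha⟩ : fixA k P) q : fixA k P) : MonoidAlgebra k G) = aeval a q :=
    (Polynomial.aeval_algHom_apply (fixA k P).val (⟨a, ha⟩ : fixA k P) q).symm
  constructor
  · rw [← h1]
    exact (aeval (⟨a, ha⟩ : fixA k P) q : fixA k P).2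
  · rw [← h1, ← brA_apply hP, ← Polynomial.aeval_algHom_apply, brA_apply]

/-- the elements invariant under `H` commute with those supported on `H` -/
theorem comm_of_sup {H : Subgroup G} {a b : MonoidAlgebra k G} (ha : Fxd H a) (hb : Sup H b) :
    a * b = b * a := by
  have h1 : ∀ h ∈ H, a * sg h = sg h * a := by
    intro h hh
    have h2 := ha h hh
    calc a * sg h = cn h a * sg h := by rw [h2]
      _ = sg h * a * (sg h⁻¹ * sg h) := by rw [cn]; simp only [mul_assoc]
      _ = sg h * a := by rw [sg_inv_mul, mul_one]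
  rw [eq_sum b, Finset.mul_sum, Finset.sum_mul]
  refine Finset.sum_congr rfl fun g _ => ?_
  by_cases hg : g ∈ H
  · rw [mul_smul_comm, smul_mul_assoc, h1 g hg]
  · rw [hb g hg, zero_smul, mul_zero, zero_mul]

omit [Fintype G] in
theorem Fxd.mono {P Q : Subgroup G} (h : P ≤ Q) {a : MonoidAlgebra k G} (ha : Fxd Q a) :
    Fxd P a := fun d hd => ha d (h hd)

/-- the elements supported on the centraliser of `P` are fixed by `P` -/
theorem Sup.fxd {P : Subgroup G} {a : MonoidAlgebra k G}
    (ha : Sup (centralizer (P : Set G)) a) : Fxd P a := by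
  intro d hd
  rw [cn_eq_iff]
  intro x
  by_cases hx : x ∈ centralizer (P : Set G)
  · have h1 := mem_centralizer_iff.1 hx d hd
    rw [h1, mul_inv_cancel_right]
  · rw [ha x hx, ha]
    intro h
    apply hx
    rw [mem_centralizer_iff] at h ⊢
    have key : ∀ y ∈ P, y * (d * x * d⁻¹) = d * x * d⁻¹ * y := h
    intro y hy
    have h2 := key (d * y * d⁻¹) (mul_mem (mul_mem hd hy) (inv_mem hd))
    have h3 : d * (y * x) * d⁻¹ = d * (x * y) * d⁻¹ := by
      calc d * (y * x) * d⁻¹ = d * y * d⁻¹ * (d * x * d⁻¹) := by group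
        _ = d * x * d⁻¹ * (d * y * d⁻¹) := h2
        _ = d * (x * y) * d⁻¹ := by group
    exact mul_left_cancel (mul_right_cancel h3)

/-- conjugation and the Brauer homomorphism -/
theorem brk_cn (t : G) (P : Subgroup G) {a : MonoidAlgebra k G} {P' : Subgroup G}
    (hP : ∀ x, x ∈ centralizer (P : Set G) ↔ t⁻¹ * x * t ∈ centralizer (P' : Set G)) :
    brk P (cn t a) = cn t (brk P' a) := by
  ext x
  rw [coeff_brk, coeff_cn, coeff_cn, coeff_brk]
  by_cases hx : x ∈ centralizer (P : Set G)
  · rw [if_pos hx, if_pos ((hP x).1 hx)]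
  · rw [if_neg hx, if_neg fun h => hx ((hP x).2 h)]

/-- products in which a factor is a central idempotent of the centraliser -/
theorem list_prod_br {P : Subgroup G} (hP : IsPGroup p P) {e : MonoidAlgebra k G}
    (hee : e * e = e) (hcomm : ∀ a, Sup (centralizer (P : Set G)) a → e * a = a * e)
    (L : List (MonoidAlgebra k G)) (hL : ∀ a ∈ L, Fxd P a) (he : e ∈ L) (heP : brk P e = e) :
    e * brk P L.prod = brk P L.prod := by
  induction L with
  | nil => exact absurd he (List.not_mem_nil)
  | cons a L ih =>
    have ha : Fxd P a := hL a (List.mem_cons_self)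
    have hL' : ∀ b ∈ L, Fxd P b := fun b hb => hL b (List.mem_cons_of_mem _ hb)
    have hprod : Fxd P L.prod := by
      clear ih he
      have : ∀ L : List (MonoidAlgebra k G), (∀ b ∈ L, Fxd P b) → Fxd P L.prod := by
        intro L
        induction L with
        | nil =>
          intro _ d _
          rw [List.prod_nil, cn, mul_one, sg_mul_inv]
        | cons a L ih =>
          intro h
          rw [List.prod_cons]
          exact (h a List.mem_cons_self).mul (ih fun b hb => h b (List.mem_cons_of_mem _ hb))
      exact this L hL'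
    rw [List.prod_cons, brk_mul hP ha hprod]
    by_cases hea : e = a
    · rw [← hea, heP, ← mul_assoc, hee]
    · have he' : e ∈ L := (List.mem_cons.1 he).resolve_left hea
      rw [← mul_assoc, hcomm _ (brk_sup P a), mul_assoc, ih hL' he']

theorem list_prod_fxd {P : Subgroup G} (L : List (MonoidAlgebra k G)) (hL : ∀ b ∈ L, Fxd P b) :
    Fxd P L.prod := by
  induction L with
  | nil =>
    intro d _
    rw [List.prod_nil, cn, mul_one, sg_mul_inv]
  | cons a L ih =>
    rw [List.prod_cons]
    exact (hL a List.mem_cons_self).mul (ih fun b hb => hL b (List.mem_cons_of_mem _ hb))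

/-- products which absorb an idempotent -/
theorem list_prod_absorb {P : Subgroup G} (hP : IsPGroup p P) {b : MonoidAlgebra k G}
    (L : List (MonoidAlgebra k G)) (hL : ∀ a ∈ L, Fxd P a) (h : ∀ a ∈ L, brk P a * b = b) :
    brk P L.prod * b = b := by
  induction L with
  | nil => rw [List.prod_nil, brk_one, one_mul]
  | cons a L ih =>
    have hL' : ∀ b ∈ L, Fxd P b := fun b hb => hL b (List.mem_cons_of_mem _ hb)
    rw [List.prod_cons, brk_mul hP (hL a List.mem_cons_self) (list_prod_fxd L hL'), mul_assoc,
      ih hL' (fun c hc => h c (List.mem_cons_of_mem _ hc)), h a List.mem_cons_self]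

end Br

end P179H46
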