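import Vale.Agent.P179.R2.H46.Core1

/-!
# The core lemma in the language of Brauer pairs: the data
-/

namespace P179H46

open Subgroup Finset P179H524 P179C P179A P179P P179Y P179H364W Polynomial P179H234

open scoped Classical

universe u

set_option linter.unusedSectionVars false

section Data

variable {p : ℕ} [hp : Fact p.Prime] {k : Type u} [Field k] [CharP k p] {G : Type} [Group G]
  [Fintype G] {D : Subgroup G} {l : (G → k) → k}

/-- the local data: `bD` the block of `C_G(D)`, `bD = Tr_D y0`, `e v` the block of `C_G(v)` -/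
structure C3D (D : Subgroup G) (l : (G → k) → k) (bD y0 : MonoidAlgebra k G)
    (e : G → MonoidAlgebra k G) : Prop where
  bfx : Fxd (centralizer (D : Set G)) bD
  bsup : Sup (centralizer (D : Set G)) bD
  bb : bD * bD = bD
  lb : l (fun g => bD.coeff g) = 1
  bT : ∀ t ∈ stabT D l, cn t bD = bD
  bN : ∀ t ∈ normalizer (D : Set G), t ∉ stabT D l → bD * cn t bD = 0
  ysup : Sup (centralizer (D : Set G)) y0
  ytr : ∑ c : G ⧸ D, (if c.out ∈ centralizer (D : Set G) then cn c.out y0 else 0) = bD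
  efx : ∀ v ∈ D, Fxd (centralizer {v}) (e v)
  esup : ∀ v ∈ D, Sup (centralizer {v}) (e v)
  ee : ∀ v ∈ D, e v * e v = e v
  eb : ∀ v ∈ D, brk D (e v) * bD = bD
  orth : ∀ v ∈ D, ∀ t : G, t⁻¹ * v * t ∈ D →
    (∃ θ ∈ stabT D l, t⁻¹ * v * t = θ⁻¹ * v * θ) ∨ e v * cn t (e (t⁻¹ * v * t)) = 0

theorem cz_zp (v x : G) : x ∈ centralizer ((zpowers v : Subgroup G) : Set G) ↔
    x ∈ centralizer ({v} : Set G) := by
  rw [mem_centralizer_singleton_iff, mem_centralizer_iff]
  constructor
  · intro h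
    exact (h v (mem_zpowers v)).symm
  · rintro h y ⟨n, rfl⟩
    exact ((show Commute x v from h).zpow_right n).eq.symm

theorem cz_zp' (v : G) : (centralizer ((zpowers v : Subgroup G) : Set G) : Subgroup G) =
    centralizer ({v} : Set G) := by
  ext x
  exact cz_zp v x

variable {bD y0 : MonoidAlgebra k G} {e : G → MonoidAlgebra k G}

/-- the idempotent -/
theorem C3D.exists_i (h : C3D D l bD y0 e) (hD : IsPGroup p D)
    (hab : D ≤ centralizer (D : Set G)) :
    ∃ i : MonoidAlgebra k G, Fxd D i ∧ i * i = i ∧ brk D i = bD ∧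
      ∀ v ∈ D, e v * brk (zpowers v) i = brk (zpowers v) i ∧
        brk (zpowers v) i * e v = brk (zpowers v) i := by
  have hDv : ∀ v ∈ D, D ≤ centralizer {v} := by
    intro v hv d hd
    rw [mem_centralizer_singleton_iff]
    exact (mem_centralizer_iff.1 (hab hv) d hd)
  obtain ⟨L, hLe, hLm⟩ : ∃ L : List (MonoidAlgebra k G), (∀ a ∈ L, ∃ v ∈ D, a = e v) ∧
      ∀ v ∈ D, e v ∈ L := by
    refine ⟨(univ.filter fun v : G => v ∈ D).toList.map e, fun a ha => ?_, fun v hv => ?_⟩
    · obtain ⟨v, hv, rfl⟩ := List.mem_map.1 ha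
      exact ⟨v, (mem_filter.1 (Finset.mem_toList.1 hv)).2, rfl⟩
    · exact List.mem_map.2 ⟨v, Finset.mem_toList.2 (mem_filter.2 ⟨mem_univ _, hv⟩), rfl⟩
  have hLD : ∀ a ∈ L, Fxd D a := by
    intro a ha
    obtain ⟨v, hv, rfl⟩ := hLe a ha
    exact (h.efx v hv).mono (hDv v hv)
  have hbD : Fxd D bD := h.bsup.fxd
  set i0 := L.prod * bD with hi0
  have hi0D : Fxd D i0 := (list_prod_fxd L hLD).mul hbD
  have hbr0 : brk D i0 = bD := by
    rw [hi0, brk_mul hD (list_prod_fxd L hLD) hbD, brk_of_sup h.bsup]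
    refine list_prod_absorb hD L hLD fun a ha => ?_
    obtain ⟨v, hv, rfl⟩ := hLe a ha
    exact h.eb v hv
  obtain ⟨q, h0, h1, hq⟩ := P179H843.exists_fitting (k := k) i0
  obtain ⟨q', hq'⟩ := P179H843.fitting_factor (k := k) h0
  obtain ⟨hiD, hbri⟩ := brk_aeval hD hi0D q
  refine ⟨aeval i0 q, hiD, hq, ?_, fun v hv => ?_⟩
  · rw [hbri, hbr0]
    exact P179H843.aeval_idem h0 h1 h.bb
  · have hzD : zpowers v ≤ D := by rwa [zpowers_le]
    have hP : IsPGroup p (zpowers v) := hD.to_le hzD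
    have hi0v : Fxd (zpowers v) i0 := hi0D.mono hzD
    obtain ⟨-, hbrv⟩ := brk_aeval hP hi0v q
    have h2 : e v * brk (zpowers v) i0 = brk (zpowers v) i0 := by
      rw [hi0, brk_mul hP ((list_prod_fxd L hLD).mono hzD) (hbD.mono hzD), ← mul_assoc,
        list_prod_br hP (h.ee v hv) (fun a ha => ?_) L (fun a ha => (hLD a ha).mono hzD)
          (hLm v hv) ?_]
      · refine brk_of_sup ?_
        rw [cz_zp']
        exact h.esup v hv
      · rw [cz_zp'] at ha
        exact comm_of_sup (h.efx v hv) ha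
    have h3 : e v * brk (zpowers v) (aeval i0 q) = brk (zpowers v) (aeval i0 q) := by
      rw [hbrv, (hq' _).1, ← mul_assoc, h2]
    refine ⟨h3, ?_⟩
    rw [← comm_of_sup (h.efx v hv) (by
      have := brk_sup (zpowers v) (aeval i0 q)
      rwa [cz_zp'] at this)]
    exact h3

/-- orthogonality of `i` and the conjugates of `i y0` -/
theorem orth_i {i : MonoidAlgebra k G} (hD : IsPGroup p D) (hiD : Fxd D i)
    (hiv : ∀ v ∈ D, e v * brk (zpowers v) i = brk (zpowers v) i ∧
        brk (zpowers v) i * e v = brk (zpowers v) i)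
    (hy : Sup (centralizer (D : Set G)) y0) {t u : G} (hu : u ∈ D) (hut : t⁻¹ * u * t ∈ D)
    (ho : e u * cn t (e (t⁻¹ * u * t)) = 0) {g : G} (hg : g * u = u * g) :
    (i * cn t (i * y0)).coeff g = 0 := by
  have hzD : ∀ {v : G}, v ∈ D → zpowers v ≤ D := fun hv => by rwa [zpowers_le]
  set u' := t⁻¹ * u * t with hu'
  have hPu : IsPGroup p (zpowers u) := hD.to_le (hzD hu)
  have hPu' : IsPGroup p (zpowers u') := hD.to_le (hzD hut)
  have hcD : Fxd D (i * y0) := hiD.mul hy.fxd
  have hgz : g ∈ centralizer ((zpowers u : Subgroup G) : Set G) := by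
    rw [cz_zp, mem_centralizer_singleton_iff]
    exact hg
  have hcu : Fxd (zpowers u) (cn t (i * y0)) := by
    rintro d ⟨n, rfl⟩
    have h1 : cn (u ^ n) (cn t (i * y0)) = cn t (cn (u' ^ n) (i * y0)) := by
      rw [← cn_mul, ← cn_mul]
      congr 1
      have h2 : u' ^ n = t⁻¹ * u ^ n * t := by
        rw [hu']
        have := conj_zpow (i := n) (a := t⁻¹) (b := u)
        rw [inv_inv] at this
        exact this
      rw [h2]
      group
    change cn (u ^ n) (cn t (i * y0)) = cn t (i * y0)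
    rw [h1, hcD _ (zpow_mem hut n)]
  have h1 : (i * cn t (i * y0)).coeff g = (brk (zpowers u) (i * cn t (i * y0))).coeff g := by
    rw [coeff_brk, if_pos hgz]
  have h2 : brk (zpowers u) (cn t (i * y0)) = cn t (brk (zpowers u') (i * y0)) := by
    refine brk_cn t (zpowers u) (P' := zpowers u') fun x => ?_
    rw [cz_zp, cz_zp, mem_centralizer_singleton_iff, mem_centralizer_singleton_iff, hu']
    constructor
    · intro h
      calc t⁻¹ * x * t * (t⁻¹ * u * t) = t⁻¹ * (x * u) * t := by group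
        _ = t⁻¹ * u * t * (t⁻¹ * x * t) := by rw [h]; group
    · intro h
      calc x * u = t * (t⁻¹ * x * t * (t⁻¹ * u * t)) * t⁻¹ := by group
        _ = u * x := by rw [h]; group
  rw [h1, brk_mul hPu (hiD.mono (hzD hu)) hcu, h2,
    brk_mul hPu' (hiD.mono (hzD hut)) (hy.fxd.mono (hzD hut)), ← (hiv u hu).2, ← (hiv u' hut).1,
    cn_mul', cn_mul']
  have h3 : brk (zpowers u) i * e u * (cn t (e u') * cn t (brk (zpowers u') i) *
      cn t (brk (zpowers u') y0)) = brk (zpowers u) i * (e u * cn t (e u')) *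
      (cn t (brk (zpowers u') i) * cn t (brk (zpowers u') y0)) := by
    simp only [mul_assoc]
  rw [h3, ho, mul_zero, zero_mul]
  rfl

end Data

end P179H46
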