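import Vale.Agent.P179.R2.H46.Core2
import Vale.Agent.P179.R2.H364.Wa3
import Vale.Agent.P179.R2.H12.Wat3

/-!
# The core lemma in the language of Brauer pairs: traces
-/

namespace P179H46

open Subgroup Finset P179H524 P179C P179A P179P P179Y P179H364W Polynomial P179H234

open scoped Classical

universe u

set_option linter.unusedSectionVars false

section Cosets

variable {G : Type*} [Group G] [Fintype G]

/-- transitivity of sums over cosets -/
theorem sum_trans {M : Type*} [AddCommMonoid M] {D C : Subgroup G} (hDC : D ≤ C) (F : G → M)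
    (hF : ∀ g, ∀ d ∈ D, F (g * d) = F g) :
    ∑ a : G ⧸ D, F a.out =
      ∑ b : G ⧸ C, ∑ c : G ⧸ D, (if c.out ∈ C then F (b.out * c.out) else 0) := by
  have hout : ∀ (K : Subgroup G) (x : G), ∃ d ∈ K, ((x : G) : G ⧸ K).out = x * d := by
    intro K x
    obtain ⟨d, hd⟩ := QuotientGroup.mk_out_eq_mul K x
    exact ⟨d, d.2, hd⟩
  have hmk : ∀ (K : Subgroup G) (x d : G), d ∈ K → ((x * d : G) : G ⧸ K) = (x : G ⧸ K) := by
    intro K x d hd
    apply QuotientGroup.eq.2
    have : (x * d)⁻¹ * x = d⁻¹ := by group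
    rw [this]
    exact inv_mem hd
  simp only [← Finset.sum_filter]
  rw [← Finset.sum_product' (univ : Finset (G ⧸ C)) (univ.filter fun c : G ⧸ D => c.out ∈ C)
    fun b c => F (b.out * c.out)]
  symm
  refine Finset.sum_bij' (fun y _ => ((y.1.out * y.2.out : G) : G ⧸ D))
    (fun a _ => ((a.out : G ⧸ C), (((a.out : G ⧸ C).out⁻¹ * a.out : G) : G ⧸ D)))
    (fun _ _ => mem_univ _) ?_ ?_ ?_ ?_
  · intro a _
    rw [mem_product]
    refine ⟨mem_univ _, mem_filter.2 ⟨mem_univ _, ?_⟩⟩
    obtain ⟨d, hd, he⟩ := hout D ((a.out : G ⧸ C).out⁻¹ * a.out)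
    change (((a.out : G ⧸ C).out⁻¹ * a.out : G) : G ⧸ D).out ∈ C
    rw [he]
    refine mul_mem ?_ (hDC hd)
    exact QuotientGroup.eq.1 (Quotient.out_eq' (a.out : G ⧸ C))
  · rintro ⟨b, c⟩ hbc
    have hc := (mem_filter.1 (mem_product.1 hbc).2).2
    change c.out ∈ C at hc
    obtain ⟨d, hd, he⟩ := hout D (b.out * c.out)
    have h1 : (((b.out * c.out : G) : G ⧸ D).out : G ⧸ C) = b := by
      rw [he, mul_assoc, hmk C _ _ (mul_mem hc (hDC hd))]
      exact Quotient.out_eq' b
    refine Prod.ext h1 ?_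
    change (((((b.out * c.out : G) : G ⧸ D).out : G ⧸ C).out⁻¹ *
      ((b.out * c.out : G) : G ⧸ D).out : G) : G ⧸ D) = c
    rw [h1, he]
    have e : b.out⁻¹ * (b.out * c.out * d) = c.out * d := by group
    rw [e, hmk D _ _ hd]
    exact Quotient.out_eq' c
  · intro a _
    obtain ⟨d, hd, he⟩ := hout D ((a.out : G ⧸ C).out⁻¹ * a.out)
    change ((((a.out : G ⧸ C).out * (((a.out : G ⧸ C).out⁻¹ * a.out : G) : G ⧸ D).out : G)) :
      G ⧸ D) = a
    rw [he]
    have e : (a.out : G ⧸ C).out * ((a.out : G ⧸ C).out⁻¹ * a.out * d) = a.out * d := by group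
    rw [e, hmk D _ _ hd]
    exact Quotient.out_eq' a
  · rintro ⟨b, c⟩ _
    obtain ⟨d, hd, he⟩ := hout D (b.out * c.out)
    change F (b.out * c.out) = F ((b.out * c.out : G) : G ⧸ D).out
    rw [he, hF _ _ hd]

end Cosets

section Data

variable {p : ℕ} [hp : Fact p.Prime] {k : Type u} [Field k] [CharP k p] {G : Type} [Group G]
  [Fintype G] {D : Subgroup G} {l : (G → k) → k} {bD y0 : MonoidAlgebra k G}
  {e : G → MonoidAlgebra k G}

include hp in
/-- the Brauer homomorphism and the relative trace -/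
theorem brk_tr (hD : IsPGroup p D) (hab : D ≤ centralizer (D : Set G)) {a : MonoidAlgebra k G}
    (ha : Fxd D a) : brk D (tr D a) =
      ∑ c : G ⧸ D, (if c.out ∈ normalizer (D : Set G) then cn c.out (brk D a) else 0) := by
  have h1 : ∀ c : G ⧸ D, c.out ∈ normalizer (D : Set G) →
      brk D (cn c.out a) = cn c.out (brk D a) := by
    intro c hc
    refine brk_cn c.out D fun x => ?_
    have h2 := conj_mem_cent (inv_mem hc) x
    rw [inv_inv] at h2
    exact h2.symm
  have h2 : brk D (tr D a) = ∑ c : G ⧸ D, brk D (cn c.out a) := by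
    rw [tr, brk_sum]
  rw [h2, ← sub_eq_zero, ← Finset.sum_sub_distrib]
  have h3 : ∀ c : G ⧸ D, brk D (cn c.out a) -
      (if c.out ∈ normalizer (D : Set G) then cn c.out (brk D a) else 0) =
      if c.out ∉ normalizer (D : Set G) then brk D (cn c.out a) else 0 := by
    intro c
    by_cases hc : c.out ∈ normalizer (D : Set G)
    · rw [if_pos hc, if_neg (not_not.2 hc), h1 c hc, sub_self]
    · rw [if_neg hc, if_pos hc, sub_zero]
  rw [Finset.sum_congr rfl fun c _ => h3 c]
  ext x
  rw [MonoidAlgebra.coeff_sum, Finsupp.finsetSum_apply]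
  by_cases hx : x ∈ centralizer (D : Set G)
  · have hinv : ∀ h ∈ D, ∀ x, (fun g => a.coeff g) (h * x * h⁻¹) = (fun g => a.coeff g) x :=
      fun h hh x => ha.coeff hh x
    have h4 := exists_fixed_coset p D hinv (x := x)
      (fun c => c ∉ normalizer (D : Set G)) D hD ?_ ?_ ?_ ?_
    · refine Eq.trans (Finset.sum_congr rfl fun c _ => ?_) h4
      by_cases hc : c.out ∈ normalizer (D : Set G)
      · rw [if_neg (not_not.2 hc), if_neg (not_not.2 hc)]
        rfl
      · rw [if_pos hc, if_pos hc, coeff_brk, if_pos hx, coeff_cn]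
    · intro d hd
      rw [mem_centralizer_singleton_iff]
      exact (mem_centralizer_iff.1 hx d hd)
    · intro q hq c
      have hqN := cent_le_norm D (hab hq)
      exact not_congr ⟨fun h => mul_mem hqN h, fun h => by simpa using mul_mem (inv_mem hqN) h⟩
    · intro q hq c
      have hqN := cent_le_norm D (hab hq)
      exact not_congr ⟨fun h => mul_mem h hqN, fun h => by simpa using mul_mem h (inv_mem hqN)⟩
    · intro c hc hcD
      exact absurd (mem_norm_of_conj_le hcD) hc
  · refine Finset.sum_eq_zero fun c _ => ?_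
    split_ifs
    · rfl
    · rw [coeff_brk, if_neg hx]

theorem sup_fx {P : Subgroup G} {a : MonoidAlgebra k G} (ha : Sup (centralizer (P : Set G)) a)
    {x : G} (hx : x ∈ P) : sg x * a = a * sg x := by
  have h1 := ha.fxd x hx
  calc sg x * a = cn x a * sg x := by
        rw [cn]
        calc sg x * a = sg x * a * (sg x⁻¹ * sg x) := by rw [sg_inv_mul, mul_one]
          _ = _ := by simp only [mul_assoc]
    _ = a * sg x := by rw [h1]

/-- the trace of `y0` from `D` to the stabiliser -/
theorem C3D.trT (h : C3D D l bD y0 e) (hab : D ≤ centralizer (D : Set G)) :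
    ∑ c : G ⧸ D, (if c.out ∈ stabT D l then cn c.out y0 else 0) =
      (((centralizer (D : Set G)).relIndex (stabT D l) : ℕ) : k) • bD := by
  have hyD : Fxd D y0 := h.ysup.fxd
  have hCT := cent_le_stabT D l
  have hF : ∀ g, ∀ d ∈ D, (if g * d ∈ stabT D l then cn (g * d) y0 else 0) =
      if g ∈ stabT D l then cn g y0 else 0 := by
    intro g d hd
    have h1 : g * d ∈ stabT D l ↔ g ∈ stabT D l :=
      ⟨fun h1 => by simpa using mul_mem h1 (inv_mem (hCT (hab hd))),
        fun h1 => mul_mem h1 (hCT (hab hd))⟩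
    by_cases h2 : g ∈ stabT D l
    · rw [if_pos (h1.2 h2), if_pos h2, cn_mul, hyD d hd]
    · rw [if_neg (fun h3 => h2 (h1.1 h3)), if_neg h2]
  rw [sum_trans hab (fun g => if g ∈ stabT D l then cn g y0 else 0) hF]
  have h1 : ∀ b : G ⧸ centralizer (D : Set G), ∑ c : G ⧸ D,
      (if c.out ∈ centralizer (D : Set G) then
        (if b.out * c.out ∈ stabT D l then cn (b.out * c.out) y0 else 0) else 0) =
      if b.out ∈ stabT D l then bD else 0 := by
    intro b
    by_cases hb : b.out ∈ stabT D l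
    · rw [if_pos hb, ← h.bT _ hb]
      conv_rhs => rw [← h.ytr, cn_sum]
      refine Finset.sum_congr rfl fun c _ => ?_
      by_cases hc : c.out ∈ centralizer (D : Set G)
      · rw [if_pos hc, if_pos hc, if_pos (mul_mem hb (hCT hc)), cn_mul]
      · rw [if_neg hc, if_neg hc, cn_zero]
    · rw [if_neg hb]
      refine Finset.sum_eq_zero fun c _ => ?_
      split_ifs with hc hbc
      · exact absurd (by simpa using mul_mem hbc (inv_mem (hCT hc))) hb
      · rfl
      · rfl
  rw [Finset.sum_congr rfl fun b _ => h1 b, ← Finset.sum_filter, Finset.sum_const,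
    card_cosets _ _ hCT, Nat.cast_smul_eq_nsmul]

include hp in
/-- the trace of `x i y0` -/
theorem C3D.bD_tr (h : C3D D l bD y0 e) (hD : IsPGroup p D) (hab : D ≤ centralizer (D : Set G))
    {i : MonoidAlgebra k G} (hiD : Fxd D i) (hib : brk D i = bD) {x : G} (hx : x ∈ D)
    (hxT : ∀ t ∈ stabT D l, t * x * t⁻¹ = x) :
    bD * brk D (tr D (sg x * (i * y0))) =
      (((centralizer (D : Set G)).relIndex (stabT D l) : ℕ) : k) • (sg x * bD) := by
  have hxs : Sup (centralizer (D : Set G)) (sg x : MonoidAlgebra k G) := by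
    intro y hy
    rw [sg, MonoidAlgebra.coeff_single, Finsupp.single_apply, if_neg]
    rintro rfl
    exact hy (hab hx)
  have hyD : Fxd D y0 := h.ysup.fxd
  have hcD : Fxd D (sg x * (i * y0)) := hxs.fxd.mul (hiD.mul hyD)
  rw [brk_tr hD hab hcD, brk_mul hD hxs.fxd (hiD.mul hyD), brk_mul hD hiD hyD, brk_of_sup hxs,
    hib, brk_of_sup h.ysup, Finset.mul_sum]
  have hbs := h.bsup
  have h1 : ∀ c : G ⧸ D, bD * (if c.out ∈ normalizer (D : Set G) then
      cn c.out (sg x * (bD * y0)) else 0) =
      sg x * bD * (if c.out ∈ stabT D l then cn c.out y0 else 0) := by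
    intro c
    by_cases hc : c.out ∈ normalizer (D : Set G)
    · rw [if_pos hc, cn_mul', cn_mul', cn_sg]
      have hxc : c.out * x * c.out⁻¹ ∈ D := (mem_normalizer_iff.1 hc x).1 hx
      have e1 : bD * (sg (c.out * x * c.out⁻¹) * (cn c.out bD * cn c.out y0)) =
          sg (c.out * x * c.out⁻¹) * ((bD * cn c.out bD) * cn c.out y0) := by
        rw [← mul_assoc, ← sup_fx hbs hxc]
        simp only [mul_assoc]
      rw [e1]
      by_cases hT : c.out ∈ stabT D l
      · rw [if_pos hT, h.bT _ hT, h.bb, hxT _ hT, mul_assoc]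
      · rw [if_neg hT, h.bN _ hc hT, zero_mul, mul_zero, mul_zero]
    · rw [if_neg hc, if_neg fun h2 => hc (stabT_le_norm D l h2), mul_zero, mul_zero]
  rw [Finset.sum_congr rfl fun c _ => h1 c, ← Finset.mul_sum, h.trT hab, mul_smul_comm, mul_assoc,
    h.bb]

end Data

end P179H46
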