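import Mathlib

/-!
# The counting lemma

Vectors of nonzero numbers whose small coordinates agree (up to common phases), with small
square sums, and with a Bessel inequality for the columns: there are few of them.
-/

open Finset

namespace P179H46

theorem count_bound {I K : Type*} [Fintype I] [Fintype K] (e q N : ℝ) (d : I → K → ℂ)
    (s : K → ℂ) (hs : ∀ v, ‖s v‖ = 1)
    (hg : ∀ i v w, ‖d i v‖ < N / 2 → ‖d i w‖ < N / 2 → s v * d i v = s w * d i w)
    (h1 : ∀ i v, 1 ≤ ‖d i v‖)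
    (hsq : ∑ i, ∑ v, ‖d i v‖ ^ 2 ≤ 2 * e * Fintype.card I * Fintype.card K)
    (hB : ∀ y : I → ℂ, ∑ v, ‖∑ i, y i * d i v‖ ^ 2 ≤ e * q * ∑ i, ‖y i‖ ^ 2)
    (hN : 16 * e ≤ N) (he : 1 ≤ e) (hq : 0 ≤ q) :
    (Fintype.card I : ℝ) * Fintype.card K ≤ 4 * e * q := by
  classical
  have hN0 : 0 < N := by linarith
  -- the phases
  have hy : ∀ i, ∃ y : ℂ, ‖y‖ = 1 ∧ ∀ v, ‖d i v‖ < N / 2 → y * (s v * d i v) = ‖d i v‖ := by
    intro i
    by_cases h : ∃ v, ‖d i v‖ < N / 2
    · obtain ⟨v, hv⟩ := h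
      have hd0 : (‖d i v‖ : ℝ) ≠ 0 := by
        have := h1 i v
        positivity
      have hd0' : ((‖d i v‖ : ℝ) : ℂ) ≠ 0 := by exact_mod_cast hd0
      refine ⟨(starRingEnd ℂ) (s v * d i v) / ‖d i v‖, ?_, ?_⟩
      · rw [norm_div, RCLike.norm_conj, norm_mul, hs, one_mul, Complex.norm_real, norm_norm,
          div_self hd0]
      · intro w hw
        have h2 := hg i w v hw hv
        have h3 : ‖d i w‖ = ‖d i v‖ := by
          have := congrArg norm h2
          rwa [norm_mul, norm_mul, hs, hs, one_mul, one_mul] at this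
        rw [h2, h3, div_mul_eq_mul_div, mul_comm ((starRingEnd ℂ) _), Complex.mul_conj,
          Complex.normSq_eq_norm_sq, norm_mul, hs, one_mul]
        push_cast
        field_simp
    · push Not at h
      exact ⟨1, norm_one, fun v hv => absurd hv (not_lt.2 (h v))⟩
  choose y hy1 hy2 using hy
  -- the lower bound for each pair
  have hlow : ∀ i v, 1 - 9 / (4 * N) * ‖d i v‖ ^ 2 ≤ (y i * (s v * d i v)).re := by
    intro i v
    by_cases h : ‖d i v‖ < N / 2
    · rw [hy2 i v h, Complex.ofReal_re]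
      have := h1 i v
      have h3 : 0 ≤ 9 / (4 * N) * ‖d i v‖ ^ 2 := by positivity
      linarith
    · push Not at h
      have h3 : -‖d i v‖ ≤ (y i * (s v * d i v)).re := by
        have h4 := Complex.abs_re_le_norm (y i * (s v * d i v))
        rw [norm_mul, norm_mul, hy1, hs, one_mul, one_mul] at h4
        exact (abs_le.1 h4).1
      refine le_trans ?_ h3
      have h8 : 8 ≤ ‖d i v‖ := by linarith
      have h5 : 1 + ‖d i v‖ ≤ 9 / 8 * ‖d i v‖ := by linarith
      have h6 : 9 / 8 * ‖d i v‖ ≤ 9 / (4 * N) * ‖d i v‖ ^ 2 := by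
        have h7 : 9 / (4 * N) * ‖d i v‖ ^ 2 = 9 / 8 * ‖d i v‖ * (‖d i v‖ / (N / 2)) := by
          field_simp
          ring
        rw [h7]
        have h9 : 1 ≤ ‖d i v‖ / (N / 2) := (one_le_div (by linarith)).2 h
        have h10 : 0 ≤ 9 / 8 * ‖d i v‖ := by positivity
        nlinarith
      linarith
  set A : ℝ := (Fintype.card I : ℝ) with hA
  set K' : ℝ := (Fintype.card K : ℝ) with hK'
  have hA0 : 0 ≤ A := by positivity
  have hK0 : 0 ≤ K' := by positivity
  -- the total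
  have htot : A * K' / 2 ≤ ∑ v, ‖∑ i, y i * d i v‖ := by
    have h2 : ∑ i, ∑ v, (1 - 9 / (4 * N) * ‖d i v‖ ^ 2) ≤ ∑ i, ∑ v, (y i * (s v * d i v)).re :=
      sum_le_sum fun i _ => sum_le_sum fun v _ => hlow i v
    have h3 : ∑ i, ∑ v, (1 - 9 / (4 * N) * ‖d i v‖ ^ 2) =
        A * K' - 9 / (4 * N) * ∑ i, ∑ v, ‖d i v‖ ^ 2 := by
      simp only [sum_sub_distrib, ← mul_sum, sum_const, card_univ, nsmul_eq_mul, mul_one]
      rw [hA, hK']
    have h4 : ∑ i, ∑ v, (y i * (s v * d i v)).re ≤ ∑ v, ‖∑ i, y i * d i v‖ := by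
      rw [sum_comm]
      refine sum_le_sum fun v _ => ?_
      rw [← Complex.re_sum]
      have h5 : ∑ i, y i * (s v * d i v) = s v * ∑ i, y i * d i v := by
        rw [mul_sum]
        exact sum_congr rfl fun i _ => by ring
      rw [h5]
      refine (Complex.re_le_norm _).trans ?_
      rw [norm_mul, hs, one_mul]
    have h5 : 9 / (4 * N) * ∑ i, ∑ v, ‖d i v‖ ^ 2 ≤ A * K' / 2 := by
      have h6 : 9 / (4 * N) * ∑ i, ∑ v, ‖d i v‖ ^ 2 ≤ 9 / (4 * N) * (2 * e * A * K') :=
        mul_le_mul_of_nonneg_left hsq (by positivity)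
      refine h6.trans ?_
      have h7 : 9 / (4 * N) * (2 * e * A * K') = (A * K') * (9 * e / (2 * N)) := by
        field_simp
        ring
      rw [h7]
      have h8 : 9 * e / (2 * N) ≤ 1 / 2 := by
        rw [div_le_iff₀ (by linarith)]
        linarith
      have h9 : 0 ≤ A * K' := by positivity
      nlinarith
    linarith
  have hCS : (∑ v, ‖∑ i, y i * d i v‖) ^ 2 ≤ K' * (e * q * A) := by
    have h2 : (∑ v, ‖∑ i, y i * d i v‖) ^ 2 ≤ K' * ∑ v, ‖∑ i, y i * d i v‖ ^ 2 := by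
      have := sq_sum_le_card_mul_sum_sq (s := (univ : Finset K)) (f := fun v => ‖∑ i, y i * d i v‖)
      rwa [card_univ] at this
    refine h2.trans (mul_le_mul_of_nonneg_left ?_ hK0)
    refine (hB y).trans (le_of_eq ?_)
    rw [sum_congr rfl fun i _ => by rw [hy1, one_pow], sum_const, card_univ, nsmul_eq_mul, mul_one]
  by_cases hAK : A * K' = 0
  · rw [hAK]
    positivity
  · have hAK0 : 0 < A * K' := lt_of_le_of_ne (by positivity) (Ne.symm hAK)
    have h2 : (A * K' / 2) ^ 2 ≤ K' * (e * q * A) := by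
      refine le_trans ?_ hCS
      exact pow_le_pow_left₀ (by positivity) htot 2
    have h3 : (A * K') * (A * K') ≤ (4 * e * q) * (A * K') := by nlinarith
    exact le_of_mul_le_mul_right h3 hAK0

end P179H46
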