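import Mathlib

/-!
Piece W4 (group theory of EQW).

* `prim_fix`: for commuting automorphisms of a nontrivial finite abelian group, some primitive
  word `φ ^ i * ψ ^ j` (`i`, `j` coprime) has a nontrivial fixed point.
* `gen_fix`, `gen_fix_G`: under a coprime action the fixed points of the primitive words
  generate.
* `norm_fixWord`, `norm_sup`: the groups in the chain are normalised by `a` and `t`.
* `chain_lemma`: a function `th P a t` which is invariant under `SL2` and under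
  `P ↦ P ⊔ C_R(a)` takes the same value for `P = ⊥` and `P = R`.
-/

namespace P179H46

theorem unit_prim {K : Type*} [Field K] [Finite K] (α β : Kˣ) :
    ∃ i j : ℤ, IsCoprime i j ∧ α ^ i * β ^ j = 1 := by
  obtain ⟨g, hg⟩ := IsCyclic.exists_generator (α := Kˣ)
  obtain ⟨r, hr⟩ := Subgroup.mem_zpowers_iff.1 (hg α)
  obtain ⟨s, hs⟩ := Subgroup.mem_zpowers_iff.1 (hg β)
  by_cases h0 : 0 < Int.gcd r s
  · obtain ⟨r', s', h1, h2, h3⟩ := Int.exists_gcd_one h0
    refine ⟨s', -r', ?_, ?_⟩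
    · rw [IsCoprime.neg_right_iff]
      exact (Int.isCoprime_iff_gcd_eq_one.2 h1).symm
    · rw [← hr, ← hs, ← zpow_mul, ← zpow_mul, ← zpow_add]
      have h4 : r * s' + s * -r' = 0 := by
        set d : ℤ := (Int.gcd r s : ℤ) with hd
        calc r * s' + s * -r' = (r' * d) * s' + (s' * d) * -r' := by rw [← h2, ← h3]
          _ = 0 := by ring
      rw [h4, zpow_zero]
  · have h1 : Int.gcd r s = 0 := by omega
    obtain ⟨h2, h3⟩ := Int.gcd_eq_zero_iff.1 h1
    refine ⟨1, 0, isCoprime_one_left, ?_⟩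
    rw [← hr, h2]
    simp

theorem fix_of_mem {S : Type*} [CommRing S] {V : Type*} [AddCommGroup V] [Module S V]
    [Finite V] (hfaith : ∀ r : S, (∀ v : V, r • v = 0) → r = 0) (m : Ideal S) (hm : m ≠ ⊤)
    (e : S) (he : e - 1 ∈ m) : ∃ v : V, v ≠ 0 ∧ e • v = v := by
  by_contra hne
  push Not at hne
  let f : V →+ V := (DistribSMul.toAddMonoidHom V (e - 1))
  have hf : ∀ v, f v = (e - 1) • v := fun _ => rfl
  have hinj : Function.Injective f := by
    rw [injective_iff_map_eq_zero]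
    intro v hv
    by_contra hv0
    refine hne v hv0 ?_
    rw [hf, sub_smul, one_smul, sub_eq_zero] at hv
    exact hv
  have hsurj : Function.Surjective f := Finite.surjective_of_injective hinj
  obtain ⟨r, hr1, hr2⟩ := Submodule.exists_sub_one_mem_and_smul_eq_zero_of_fg_of_le_smul m
    (⊤ : Submodule S V) (Module.Finite.fg_top) (by
      intro v _
      obtain ⟨w, rfl⟩ := hsurj v
      rw [hf]
      exact Submodule.smul_mem_smul he trivial)
  have hr0 : r = 0 := hfaith r fun v => hr2 v trivial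
  rw [hr0] at hr1
  refine hm ((Ideal.eq_top_iff_one m).2 ?_)
  have := m.neg_mem hr1
  simpa using this

theorem prim_fix_ring {S : Type*} [CommRing S] [Finite S] [Nontrivial S] {V : Type*}
    [AddCommGroup V] [Module S V]
    [Finite V] (hfaith : ∀ r : S, (∀ v : V, r • v = 0) → r = 0) (α β : Sˣ) :
    ∃ i j : ℤ, IsCoprime i j ∧ ∃ v : V, v ≠ 0 ∧ ((α ^ i * β ^ j : Sˣ) : S) • v = v := by
  obtain ⟨m, hm⟩ := Ideal.exists_maximal S
  let _ : Field (S ⧸ m) := Ideal.Quotient.field m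
  have hfinQ : Finite (S ⧸ m) :=
    Finite.of_surjective (Ideal.Quotient.mk m) Ideal.Quotient.mk_surjective
  obtain ⟨i, j, hij, h1⟩ := unit_prim (Units.map (Ideal.Quotient.mk m : S →* S ⧸ m) α)
    (Units.map (Ideal.Quotient.mk m : S →* S ⧸ m) β)
  refine ⟨i, j, hij, fix_of_mem hfaith m hm.ne_top _ ?_⟩
  rw [← map_zpow, ← map_zpow, ← map_mul] at h1
  have h3 : Ideal.Quotient.mk m ((α ^ i * β ^ j : Sˣ) : S) = 1 := congrArg Units.val h1
  rw [← Ideal.Quotient.eq, h3, map_one]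

theorem prim_fix_sub {C V : Type*} [CommGroup C] [AddCommGroup V] [Finite V] [Nontrivial V]
    (S : Subring (AddMonoid.End V)) (hS : ∀ x y : S, x * y = y * x) (E : C →* S) (a t : C) :
    ∃ i j : ℤ, IsCoprime i j ∧ ∃ v : V, v ≠ 0 ∧
      ((E (a ^ i * t ^ j) : S) : AddMonoid.End V) v = v := by
  let _ : CommRing S := { (inferInstance : Ring S) with mul_comm := hS }
  have hfinE : Finite (AddMonoid.End V) :=
    Finite.of_injective (fun f : AddMonoid.End V => (f : V → V)) DFunLike.coe_injective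
  obtain ⟨v0, hv0⟩ := exists_ne (0 : V)
  have hntE : Nontrivial (AddMonoid.End V) :=
    ⟨⟨1, 0, fun h => hv0 (DFunLike.congr_fun h v0)⟩⟩
  have hnt : Nontrivial S := ⟨⟨1, 0, fun h => one_ne_zero (congrArg Subtype.val h)⟩⟩
  obtain ⟨i, j, hij, v, hv, h1⟩ := prim_fix_ring (S := S) (V := V) (fun r hr => by
    refine Subtype.ext ?_
    exact DFunLike.ext _ _ fun v => hr v) (E.toHomUnits a) (E.toHomUnits t)
  refine ⟨i, j, hij, v, hv, ?_⟩
  rw [← map_zpow, ← map_zpow, ← map_mul] at h1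
  exact h1

/-- A commuting pair of automorphisms of a nontrivial finite abelian group: some primitive
word in them has a nontrivial fixed point. -/
theorem prim_fix_hom {C V : Type*} [CommGroup C] [CommGroup V] [Finite V] [Nontrivial V]
    (F : C →* MulAut V) (a t : C) :
    ∃ i j : ℤ, IsCoprime i j ∧ ∃ v : V, v ≠ 1 ∧ F (a ^ i * t ^ j) v = v := by
  let E : C →* AddMonoid.End (Additive V) :=
    { toFun := fun c => (F c).toMonoidHom.toAdditive
      map_one' := by rw [map_one]; rfl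
      map_mul' := fun x y => by rw [map_mul]; rfl }
  have hcomm : ∀ x ∈ Set.range E, ∀ y ∈ Set.range E, x * y = y * x := by
    rintro _ ⟨x, rfl⟩ _ ⟨y, rfl⟩
    rw [← map_mul, ← map_mul, mul_comm]
  have hS : ∀ x y : Subring.closure (Set.range E), x * y = y * x :=
    isMulCommutative_iff.1 (Subring.isMulCommutative_closure hcomm)
  let E' : C →* (Subring.closure (Set.range E)) :=
    { toFun := fun c => ⟨E c, Subring.subset_closure ⟨c, rfl⟩⟩
      map_one' := by ext1; exact map_one E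
      map_mul' := fun x y => by ext1; exact map_mul E x y }
  obtain ⟨i, j, hij, v, hv, h1⟩ := prim_fix_sub (Subring.closure (Set.range E)) hS E' a t
  exact ⟨i, j, hij, Additive.toMul v, hv, h1⟩

/-- Two commuting automorphisms. -/
theorem prim_fix {V : Type*} [CommGroup V] [Finite V] [Nontrivial V]
    (φ ψ : MulAut V) (h : Commute φ ψ) :
    ∃ i j : ℤ, IsCoprime i j ∧ ∃ v : V, v ≠ 1 ∧ (φ ^ i * ψ ^ j) v = v := by
  let F : Multiplicative ℤ × Multiplicative ℤ →* MulAut V :=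
    MonoidHom.noncommCoprod (zpowersHom _ φ) (zpowersHom _ ψ) (fun m n => by
      rw [zpowersHom_apply, zpowersHom_apply]
      exact h.zpow_zpow _ _)
  obtain ⟨i, j, hij, v, hv, h1⟩ := prim_fix_hom F (Multiplicative.ofAdd 1, 1)
    (1, Multiplicative.ofAdd 1)
  refine ⟨i, j, hij, v, hv, ?_⟩
  have h2 : F ((Multiplicative.ofAdd 1, 1) ^ i * (1, Multiplicative.ofAdd 1) ^ j) =
      φ ^ i * ψ ^ j := by
    rw [map_mul, map_zpow, map_zpow]
    congr 2
  rw [h2] at h1
  exact h1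

theorem lift_fix {R : Type*} [CommGroup R] (b : MulAut R) (n : ℕ) (hn : b ^ n = 1)
    (hcop : n.Coprime (Nat.card R)) (H : Subgroup R) (hH : ∀ x ∈ H, b x ∈ H) (x : R)
    (hx : b x * x⁻¹ ∈ H) : ∃ y, b y = y ∧ y * x⁻¹ ∈ H := by
  -- the norm of `x`
  have hbz : b (∏ i ∈ Finset.range n, (b ^ i) x) = ∏ i ∈ Finset.range n, (b ^ i) x := by
    rw [map_prod]
    have h1 : (∏ i ∈ Finset.range n, b ((b ^ i) x)) * x =
        (∏ i ∈ Finset.range n, (b ^ i) x) * x := by
      have h2 := Finset.prod_range_succ' (fun i => (b ^ i) x) n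
      have h3 := Finset.prod_range_succ (fun i => (b ^ i) x) n
      rw [h3] at h2
      simp only [hn, pow_zero, MulAut.one_apply] at h2
      rw [h2]
      congr 1
      exact Finset.prod_congr rfl fun i _ => by rw [pow_succ', MulAut.mul_apply]
    exact mul_right_cancel h1
  have hstep : ∀ i : ℕ, (b ^ i) x * x⁻¹ ∈ H := by
    intro i
    induction i with
    | zero => simp
    | succ i ih =>
      have h4 := H.mul_mem (hH _ ih) hx
      rw [map_mul, map_inv] at h4
      have h5 : b ((b ^ i) x) * (b x)⁻¹ * (b x * x⁻¹) = (b ^ (i + 1)) x * x⁻¹ := by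
        rw [pow_succ', MulAut.mul_apply]
        group
      rwa [h5] at h4
  have hz : (∏ i ∈ Finset.range n, (b ^ i) x) * (x ^ n)⁻¹ ∈ H := by
    have h6 : (∏ i ∈ Finset.range n, (b ^ i) x) * (x ^ n)⁻¹ =
        ∏ i ∈ Finset.range n, ((b ^ i) x * x⁻¹) := by
      rw [Finset.prod_mul_distrib, Finset.prod_const, Finset.card_range, inv_pow]
    rw [h6]
    exact Subgroup.prod_mem _ fun i _ => hstep i
  set z := ∏ i ∈ Finset.range n, (b ^ i) x with hzdef
  have hgcd : (1 : ℤ) = n * Nat.gcdA n (Nat.card R) + Nat.card R * Nat.gcdB n (Nat.card R) := by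
    rw [← Nat.gcd_eq_gcd_ab, hcop]
    rfl
  set m := Nat.gcdA n (Nat.card R) with hm
  have hx1 : (x ^ n) ^ m = x := by
    have h7 : x ^ (1 : ℤ) = x ^ ((n : ℤ) * m + Nat.card R * Nat.gcdB n (Nat.card R)) := by
      rw [← hgcd]
    rw [zpow_one, zpow_add, zpow_mul, zpow_mul, zpow_natCast, zpow_natCast,
      pow_card_eq_one', one_zpow, mul_one] at h7
    exact h7.symm
  refine ⟨z ^ m, by rw [map_zpow, hbz], ?_⟩
  have h8 := H.zpow_mem hz m
  rw [mul_zpow, inv_zpow, hx1] at h8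
  exact h8

theorem gen_fix {R : Type*} [CommGroup R] [Finite R] (φ ψ : MulAut R) (h : Commute φ ψ)
    (n : ℕ) (hφ : φ ^ n = 1) (hψ : ψ ^ n = 1) (hn : n.Coprime (Nat.card R)) (H : Subgroup R)
    (hH : ∀ i j : ℤ, IsCoprime i j → ∀ x, (φ ^ i * ψ ^ j) x = x → x ∈ H) : H = ⊤ := by
  let F : Multiplicative ℤ × Multiplicative ℤ →* MulAut R :=
    MonoidHom.noncommCoprod (zpowersHom _ φ) (zpowersHom _ ψ) (fun m n => by
      rw [zpowersHom_apply, zpowersHom_apply]
      exact h.zpow_zpow _ _)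
  have hF : ∀ i j : ℤ, F ((Multiplicative.ofAdd 1, 1) ^ i * (1, Multiplicative.ofAdd 1) ^ j) =
      φ ^ i * ψ ^ j := by
    intro i j
    rw [map_mul, map_zpow, map_zpow]
    congr 2
  let S : Set R := {x | ∃ i j : ℤ, IsCoprime i j ∧ (φ ^ i * ψ ^ j) x = x}
  let H0 : Subgroup R := Subgroup.closure S
  have hFc : ∀ c d, F c * F d = F d * F c := fun c d => by
    rw [← map_mul, ← map_mul, mul_comm]
  have hS : ∀ c x, x ∈ S → F c x ∈ S := by
    rintro c x ⟨i, j, hij, hx⟩
    refine ⟨i, j, hij, ?_⟩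
    rw [← hF, ← MulAut.mul_apply, hFc, MulAut.mul_apply, hF, hx]
  have hH0 : ∀ c x, x ∈ H0 → F c x ∈ H0 := by
    intro c x hx
    induction hx using Subgroup.closure_induction with
    | mem x hx => exact Subgroup.subset_closure (hS c x hx)
    | one => rw [map_one]; exact one_mem _
    | mul x y _ _ hx hy => rw [map_mul]; exact mul_mem hx hy
    | inv x _ hx => rw [map_inv]; exact inv_mem hx
  have hmap : ∀ c, H0.map (F c : R ≃* R).toMonoidHom = H0 := by
    intro c
    refine le_antisymm ?_ ?_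
    · rintro _ ⟨x, hx, rfl⟩
      exact hH0 c x hx
    · intro x hx
      refine ⟨F c⁻¹ x, hH0 c⁻¹ x hx, ?_⟩
      change F c (F c⁻¹ x) = x
      rw [← MulAut.mul_apply, ← map_mul, mul_inv_cancel, map_one]
      rfl
  have hle : H0 ≤ H := by
    rw [Subgroup.closure_le]
    rintro x ⟨i, j, hij, hx⟩
    exact hH i j hij x hx
  by_contra hne
  have hne0 : H0 ≠ ⊤ := fun h0 => hne (top_le_iff.1 (h0 ▸ hle))
  have hex : ∃ x, x ∉ H0 := by
    by_contra hall
    push Not at hall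
    exact hne0 (eq_top_iff.2 fun x _ => hall x)
  have hnt : Nontrivial (R ⧸ H0) := by
    obtain ⟨x, hx⟩ := hex
    exact ⟨⟨(x : R ⧸ H0), 1, fun h1 => hx ((QuotientGroup.eq_one_iff x).1 h1)⟩⟩
  let F' : Multiplicative ℤ × Multiplicative ℤ →* MulAut (R ⧸ H0) :=
    { toFun := fun c => QuotientGroup.congr H0 H0 (F c) (hmap c)
      map_one' := by
        ext x
        induction x using QuotientGroup.induction_on with
        | H x => 
          change ((F 1 x : R) : R ⧸ H0) = x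
          rw [map_one]; rfl
      map_mul' := fun c d => by
        ext x
        induction x using QuotientGroup.induction_on with
        | H x =>
          change ((F (c * d) x : R) : R ⧸ H0) = ((F c (F d x) : R) : R ⧸ H0)
          rw [map_mul]; rfl }
  obtain ⟨i, j, hij, v, hv, h1⟩ := prim_fix_hom F' (Multiplicative.ofAdd 1, 1)
    (1, Multiplicative.ofAdd 1)
  induction v using QuotientGroup.induction_on with
  | H x =>
    have h2 : ((F ((Multiplicative.ofAdd 1, 1) ^ i * (1, Multiplicative.ofAdd 1) ^ j) x : R) :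
        R ⧸ H0) = x := h1
    rw [hF] at h2
    have hx : x ∉ H0 := fun h3 => hv ((QuotientGroup.eq_one_iff x).2 h3)
    set b : MulAut R := φ ^ i * ψ ^ j with hb
    have hbn : b ^ n = 1 := by
      rw [hb, (h.zpow_zpow i j).mul_pow, ← zpow_natCast, ← zpow_natCast, ← zpow_mul, ← zpow_mul,
        mul_comm i, mul_comm j, zpow_mul, zpow_mul, zpow_natCast, zpow_natCast, hφ, hψ,
        one_zpow, one_zpow, mul_one]
    have hbx : b x * x⁻¹ ∈ H0 := by
      rw [← QuotientGroup.eq_one_iff, QuotientGroup.mk_mul, QuotientGroup.mk_inv, h2,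
        mul_inv_cancel]
    obtain ⟨y, hy, hyx⟩ := lift_fix b n hbn hn H0 (fun z hz => by
      rw [hb, ← hF]; exact hH0 _ z hz) x hbx
    have hyS : y ∈ H0 := Subgroup.subset_closure ⟨i, j, hij, hy⟩
    have h3 := H0.mul_mem (H0.inv_mem hyx) hyS
    refine hx ?_
    have h4 : (y * x⁻¹)⁻¹ * y = x := by group
    rwa [h4] at h3

/-- Group form: `R` is generated by the fixed points of the primitive words in `a`, `t`. -/
theorem gen_fix_G {G : Type*} [Group G] (R : Subgroup G) [Finite R]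
    (hRc : ∀ x ∈ R, ∀ y ∈ R, x * y = y * x) (a t : G)
    (ha : ∀ x, x ∈ R ↔ a * x * a⁻¹ ∈ R) (ht : ∀ x, x ∈ R ↔ t * x * t⁻¹ ∈ R)
    (hat : ∀ x ∈ R, a * t * x * (a * t)⁻¹ = t * a * x * (t * a)⁻¹)
    (n : ℕ) (hn : n.Coprime (Nat.card R)) (han : ∀ x ∈ R, a ^ n * x * (a ^ n)⁻¹ = x)
    (htn : ∀ x ∈ R, t ^ n * x * (t ^ n)⁻¹ = x) (H : Subgroup G)
    (hH : ∀ i j : ℤ, IsCoprime i j → ∀ x ∈ R,
      a ^ i * t ^ j * x * (a ^ i * t ^ j)⁻¹ = x → x ∈ H) : R ≤ H := by
  let _ : CommGroup R := { (inferInstance : Group R) with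
    mul_comm := fun x y => Subtype.ext (hRc x x.2 y y.2) }
  have haN : a ∈ Subgroup.normalizer (R : Set G) := Subgroup.mem_normalizer_iff.2 ha
  have htN : t ∈ Subgroup.normalizer (R : Set G) := Subgroup.mem_normalizer_iff.2 ht
  let Ψ := R.normalizerMonoidHom
  have hΨ : ∀ (g : Subgroup.normalizer (R : Set G)) (x : R),
      ((Ψ g x : R) : G) = g * x * (g : G)⁻¹ := fun _ _ => rfl
  have hpow : ∀ (g : Subgroup.normalizer (R : Set G)) (m : ℕ) (x : R),
      (((Ψ g ^ m) x : R) : G) = (g : G) ^ m * x * ((g : G) ^ m)⁻¹ := by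
    intro g m x
    rw [← map_pow, hΨ]
    rfl
  have h := gen_fix (Ψ ⟨a, haN⟩) (Ψ ⟨t, htN⟩) (by
    refine MulEquiv.ext fun x => Subtype.ext ?_
    have := hat x x.2
    simp only [mul_inv_rev] at this
    rw [← map_mul, ← map_mul, hΨ, hΨ]
    simpa [mul_assoc] using this) n (by
    refine MulEquiv.ext fun x => Subtype.ext ?_
    rw [hpow]; exact han x x.2) (by
    refine MulEquiv.ext fun x => Subtype.ext ?_
    rw [hpow]; exact htn x x.2) hn (H.subgroupOf R) (by
    intro i j hij x hx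
    rw [Subgroup.mem_subgroupOf]
    refine hH i j hij x x.2 ?_
    rw [← map_zpow, ← map_zpow, ← map_mul] at hx
    exact congrArg Subtype.val hx)
  exact Subgroup.subgroupOf_eq_top.1 h

/-- The fixed points in `R` of a word in `a`, `t` are normalised by `a` and by `t`. -/
theorem norm_fixWord {G : Type*} [Group G] (R : Subgroup G) (a t : G)
    (ha : a ∈ Subgroup.normalizer (R : Set G)) (ht : t ∈ Subgroup.normalizer (R : Set G))
    (hat : ∀ x ∈ R, a * t * x * (a * t)⁻¹ = t * a * x * (t * a)⁻¹) (i j : ℤ) :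
    a ∈ Subgroup.normalizer ((R ⊓ Subgroup.centralizer {a ^ i * t ^ j} : Subgroup G) : Set G) ∧
    t ∈ Subgroup.normalizer ((R ⊓ Subgroup.centralizer {a ^ i * t ^ j} : Subgroup G) : Set G) := by
  let Ψ := R.normalizerMonoidHom
  have hΨ : ∀ (g : Subgroup.normalizer (R : Set G)) (x : R),
      ((Ψ g x : R) : G) = g * x * (g : G)⁻¹ := fun _ _ => rfl
  have hcomm : Commute (Ψ ⟨a, ha⟩) (Ψ ⟨t, ht⟩) := by
    refine MulEquiv.ext fun x => Subtype.ext ?_
    have := hat x x.2
    simp only [mul_inv_rev] at this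
    rw [← map_mul, ← map_mul, hΨ, hΨ]
    simpa [mul_assoc] using this
  have hmem : ∀ x : G, x ∈ (R ⊓ Subgroup.centralizer {a ^ i * t ^ j} : Subgroup G) ↔
      ∃ h : x ∈ R, (Ψ ⟨a, ha⟩ ^ i * Ψ ⟨t, ht⟩ ^ j) ⟨x, h⟩ = ⟨x, h⟩ := by
    intro x
    rw [Subgroup.mem_inf, Subgroup.mem_centralizer_singleton_iff]
    have key : ∀ h : x ∈ R, (((Ψ ⟨a, ha⟩ ^ i * Ψ ⟨t, ht⟩ ^ j) ⟨x, h⟩ : R) : G) =
        (a ^ i * t ^ j) * x * (a ^ i * t ^ j)⁻¹ := by
      intro h
      rw [← map_zpow, ← map_zpow, ← map_mul, hΨ]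
      rfl
    constructor
    · rintro ⟨h1, h2⟩
      refine ⟨h1, Subtype.ext ?_⟩
      rw [key, ← h2, mul_inv_cancel_right]
    · rintro ⟨h1, h2⟩
      refine ⟨h1, ?_⟩
      have h3 := congrArg Subtype.val h2
      rw [key] at h3
      have h4 : (a ^ i * t ^ j) * x = x * (a ^ i * t ^ j) := mul_inv_eq_iff_eq_mul.1 h3
      exact h4.symm
  have hgen : ∀ (g : Subgroup.normalizer (R : Set G)),
      Commute (Ψ g) (Ψ ⟨a, ha⟩ ^ i * Ψ ⟨t, ht⟩ ^ j) →
      (g : G) ∈ Subgroup.normalizer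
        ((R ⊓ Subgroup.centralizer {a ^ i * t ^ j} : Subgroup G) : Set G) := by
    intro g hg
    rw [Subgroup.mem_normalizer_iff]
    intro x
    have hgR := Subgroup.mem_normalizer_iff.1 g.2
    rw [hmem, hmem]
    constructor
    · rintro ⟨h1, h2⟩
      refine ⟨(hgR x).1 h1, ?_⟩
      have h3 : (⟨(g : G) * x * (g : G)⁻¹, (hgR x).1 h1⟩ : R) = Ψ g ⟨x, h1⟩ := rfl
      rw [h3, ← MulAut.mul_apply, ← hg.eq, MulAut.mul_apply, h2]
    · rintro ⟨h1, h2⟩
      have h1' : x ∈ R := (hgR x).2 h1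
      refine ⟨h1', ?_⟩
      have h3 : (⟨(g : G) * x * (g : G)⁻¹, h1⟩ : R) = Ψ g ⟨x, h1'⟩ := rfl
      rw [h3, ← MulAut.mul_apply, ← hg.eq, MulAut.mul_apply] at h2
      exact (Ψ g).injective h2
  refine ⟨hgen ⟨a, ha⟩ ?_, hgen ⟨t, ht⟩ ?_⟩
  · exact ((Commute.refl _).zpow_right i).mul_right (hcomm.zpow_right j)
  · exact (hcomm.symm.zpow_right i).mul_right ((Commute.refl _).zpow_right j)

theorem norm_sup {G : Type*} [Group G] (P Q : Subgroup G) (a : G)
    (hP : a ∈ Subgroup.normalizer (P : Set G)) (hQ : a ∈ Subgroup.normalizer (Q : Set G)) :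
    a ∈ Subgroup.normalizer ((P ⊔ Q : Subgroup G) : Set G) := by
  rw [Subgroup.mem_normalizer_iff_map_conj_eq] at *
  rw [Subgroup.map_sup, hP, hQ]

/-- The chain lemma. -/
theorem chain_lemma {G : Type*} [Group G] [Finite G] {X : Type*} (R : Subgroup G)
    (hRc : ∀ x ∈ R, ∀ y ∈ R, x * y = y * x) (a t : G)
    (ha : a ∈ Subgroup.normalizer (R : Set G)) (ht : t ∈ Subgroup.normalizer (R : Set G))
    (hat : ∀ x ∈ R, a * t * x * (a * t)⁻¹ = t * a * x * (t * a)⁻¹)
    (n : ℕ) (hn : n.Coprime (Nat.card R)) (han : ∀ x ∈ R, a ^ n * x * (a ^ n)⁻¹ = x)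
    (htn : ∀ x ∈ R, t ^ n * x * (t ^ n)⁻¹ = x)
    (th : Subgroup G → G → G → X)
    (hSL : ∀ P : Subgroup G, P ≤ R → a ∈ Subgroup.normalizer (P : Set G) →
      t ∈ Subgroup.normalizer (P : Set G) → ∀ i j k m : ℤ, i * m - j * k = 1 →
      th P (a ^ i * t ^ j) (a ^ k * t ^ m) = th P a t)
    (hW : ∀ P : Subgroup G, P ≤ R → a ∈ Subgroup.normalizer (P : Set G) →
      t ∈ Subgroup.normalizer (P : Set G) → ∀ i j k m : ℤ, i * m - j * k = 1 →
      th P (a ^ i * t ^ j) (a ^ k * t ^ m) =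
        th (P ⊔ (R ⊓ Subgroup.centralizer {a ^ i * t ^ j})) (a ^ i * t ^ j)
          (a ^ k * t ^ m)) :
    th ⊥ a t = th R a t := by
  let PS : Set (Subgroup G) := {P | P ≤ R ∧ a ∈ Subgroup.normalizer (P : Set G) ∧
    t ∈ Subgroup.normalizer (P : Set G) ∧ th ⊥ a t = th P a t}
  have hbot : (⊥ : Subgroup G) ∈ PS := by
    refine ⟨bot_le, ?_, ?_, rfl⟩ <;>
    · rw [Subgroup.mem_normalizer_iff]
      intro x
      rw [Subgroup.mem_bot, Subgroup.mem_bot, conj_eq_one_iff]
  obtain ⟨P, hP⟩ := (Set.toFinite PS).exists_maximal ⟨⊥, hbot⟩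
  obtain ⟨⟨hPR, haP, htP, heq⟩, hmax⟩ := hP
  have hall : R ≤ P := by
    refine gen_fix_G R hRc a t (Subgroup.mem_normalizer_iff.1 ha)
      (Subgroup.mem_normalizer_iff.1 ht) hat n hn han htn P ?_
    intro i j hij x hxR hx
    obtain ⟨u, v, huv⟩ := hij
    have hdet : i * u - j * (-v) = 1 := by rw [← huv]; ring
    obtain ⟨h1, h2⟩ := norm_fixWord R a t ha ht hat i j
    have hmem : P ⊔ (R ⊓ Subgroup.centralizer {a ^ i * t ^ j}) ∈ PS := by
      refine ⟨sup_le hPR inf_le_left, norm_sup _ _ _ haP h1, norm_sup _ _ _ htP h2, ?_⟩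
      rw [heq, ← hSL P hPR haP htP i j (-v) u hdet, hW P hPR haP htP i j (-v) u hdet]
      exact hSL _ (sup_le hPR inf_le_left) (norm_sup _ _ _ haP h1) (norm_sup _ _ _ htP h2)
        i j (-v) u hdet
    refine hmax hmem le_sup_left (le_sup_right (α := Subgroup G) (Subgroup.mem_inf.2 ⟨hxR, ?_⟩))
    rw [Subgroup.mem_centralizer_singleton_iff]
    exact (mul_inv_eq_iff_eq_mul.1 hx).symm
  rw [heq, le_antisymm hPR hall]

end P179H46
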